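import Vale.Agent.P153.Seal.Defs

/-! Statements for the module Seal of P153. -/

open Set Filter

namespace Vale.Agent.P153.Seal

/-! ### Inputs from other modules -/

/-- Levels are bounded under the reference measure. -/
def LevMu : Prop := ∀ η : ℝ, 0 < η → ∀ L : ℕ, ∃ M : ℕ, ∀ r : ℕ, 1 ≤ r → ∀ x : V, ∀ᶠ N in atTop,
  Pr (mu N) {H | ∀ k : ℤ, Long (both (big (fun _ => 4 * k) M H)) (hex x (L * r)) r} ≤ η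

/-- Levels are bounded under two-valued boundary conditions in a bounded domain. -/
def LevDob : Prop := ∀ η : ℝ, 0 < η → ∀ L : ℕ, ∃ M : ℕ, ∀ r : ℕ, 1 ≤ r → ∀ F S : Set V,
  F ⊆ hex 0 (L * r) → Pr (dob F S) {H | Long (both (big 0 M H)) univ r} ≤ η

/-- Screens from bounded boundary values; `P` are the hard pinned sites. -/
def Scr : Prop := ∀ M : ℕ, ∃ C : ℕ, ∃ c : ℝ, 0 < c ∧ ∀ (n : ℕ) (U D P T : Set V) (H : Cfg)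
  (z : Finset V), 1 ≤ n → U.Finite → Disjoint U P →
  (∀ y ∈ obd U, (y ∈ P ∧ y ∉ big 0 M H) ∨ (y ∉ big 0 0 H ∧ ∀ x ∈ U, Adj x y → x ∈ D)) →
  (∀ x ∈ T, ∃ y ∈ z, x ∈ hex y n) → (∀ y ∈ z, Disjoint (hex y (C * n)) P) →
  {H' | H' ∈ fill U H ∧ ∀ x ∈ D, x ∈ U → x ∉ big 0 0 H'}.Nonempty →
  c ^ z.card ≤ Pr {H' | H' ∈ fill U H ∧ ∀ x ∈ D, x ∈ U → x ∉ big 0 0 H'}
    {H' | ¬ ∃ a ∈ P, ∃ b ∈ T, Conn (star (big 0 0 H')) (U ∪ P) a b}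

/-- No long star path under a band measure. -/
def Gstar : Prop := ∀ L : ℕ, ∃ c : ℝ, 0 < c ∧ ∀ r : ℕ, 1 ≤ r → ∀ (x : V) (U D : Set V),
  U ⊆ hex x (L * r) → c ≤ Pr (freeD U D) {H | ¬ Long (star (big 0 0 H)) univ r}

/-- A screen round a hexagon has probability at least one half. -/
def Scrn : Prop := ∃ K : ℕ, ∀ R : ℕ, 1 ≤ R → ∀ x : V, ∀ᶠ N in atTop, ∀ (f : Cfg → ℝ) (a : ℝ),
  0 ≤ a → (∀ H, 0 ≤ f H) → DepOn f (hex x R) → Inv4 f →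
  (∀ U : Set V, hex x (R + 2) ⊆ U → U ⊆ hex x (K * R) → a ≤ Ex (free U 0) f) →
  a / 2 ≤ Ex (mu N) f

/-- Mixing. -/
def Tvm : Prop := ∀ e : ℝ, 0 < e → ∃ M : ℕ, ∀ r : ℕ, 1 ≤ r → ∀ x : V, ∀ᶠ N in atTop,
  ∀ f g : Cfg → ℝ, (∀ H, |f H| ≤ 1) → (∀ H, |g H| ≤ 1) → DepOn f (hex x r) → Inv4 f →
  DepOn g (hex x (M * r))ᶜ → |Ex (mu N) (fun H => f H * g H) - Ex (mu N) f * Ex (mu N) g| ≤ e

/-- Zero-sum statistics are nearly orthogonal to the far field. -/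
def Dec : Prop := ∀ e : ℝ, 0 < e → ∃ M : ℕ, ∀ r : ℕ, 1 ≤ r → ∀ x : V, ∀ᶠ N in atTop,
  ∀ (a : V →₀ ℝ) (G : Cfg → ℝ), a.sum (fun _ c => c) = 0 → (∀ y, |a y| ≤ 1) →
  (∀ y ∈ a.support, y ∈ hex x r) → (∀ H, |G H| ≤ 1) → DepOn G (hex x (M * r))ᶜ →
  |Ex (mu N) (fun H => lin a H * G H)| ≤ e * (r : ℝ) ^ 2

/-- Fourth moments under the reference measure. -/
def M4Mu : Prop := ∃ C : ℝ, ∀ r : ℕ, 1 ≤ r → ∀ x : V, ∀ᶠ N in atTop, ∀ a : V →₀ ℝ,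
  a.sum (fun _ c => c) = 0 → (∀ y, |a y| ≤ 1) → (∀ y ∈ a.support, y ∈ hex x r) →
  Ex (mu N) (fun H => lin a H ^ 4) ≤ C * (r : ℝ) ^ 8

/-- Fourth moments under two-valued boundary conditions in a bounded domain. -/
def M4Dob : Prop := ∀ L : ℕ, ∃ C : ℝ, ∀ r : ℕ, 1 ≤ r → ∀ (F S : Set V) (a : V →₀ ℝ),
  F ⊆ hex 0 (L * r) → (∀ y, |a y| ≤ 1) → (∀ y ∈ a.support, y ∈ hex 0 r) →
  Ex (dob F S) (fun H => lin a H ^ 4) ≤ C * (r : ℝ) ^ 8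

/-- The output of the moving argument for the sequence `a`. -/
def Moves (a : ℕ → V →₀ ℝ) (s : ℕ → ℕ) : Prop := ∀ θ : ℕ, 1 ≤ θ → ∀ e : ℝ, 0 < e →
  ∀ᶠ t in atTop, ∀ᶠ N in atTop, ∀ Φ : Fin 4 → Cfg → ℝ, (∀ i H, |Φ i H| ≤ 1) →
  (∀ i, DepOn (Φ i) (mp (s t) (s t / θ) i)) → (∀ i, Inv4 (Φ i)) →
  |Ex (mu N) (fun H => lin (a t) H * ∏ i, Φ i H)| ≤ e

/-- Band measures decrease in the absolute value order when the domain shrinks and when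
constraints are added: the event that a set of sites is two-valued. -/
def MonoD : Prop := ∀ U U' D D' R : Set V, U'.Finite → U ⊆ U' → D' ⊆ D →
  Pr (freeD U' D') {H | ∀ x ∈ R, H x = 0 ∨ H x = 1} ≤ Pr (freeD U D) {H | ∀ x ∈ R, H x = 0 ∨ H x = 1}

/-- Hex lemma. -/
def HexL : Prop := ∀ (S : Set V) (x : V) (n : ℕ), HCr (both S) x n ∨ VCr (both Sᶜ) x n

/-! ### General lemmas -/

/-- Locality of refillings. -/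
def LocF : Prop := ∀ (U D : Set V) (κ : V → ℤ) (H₁ H₂ : Cfg) (c : ℤ) (f : Cfg → ℝ), U.Finite →
  Lip H₁ → Lip H₂ → (∀ y ∈ obd U, H₂ y = H₁ y + c) →
  Ex {H | H ∈ fill U H₂ ∧ ∀ x ∈ D, x ∈ U → x ∉ big (fun y => κ y + c) 0 H}
      (fun H => f (res U fun y => H y - c)) =
    Ex {H | H ∈ fill U H₁ ∧ ∀ x ∈ D, x ∈ U → x ∉ big κ 0 H} (fun H => f (res U H))

/-- A refilling whose boundary is a band at locally constant level is a band measure. -/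
def LocB : Prop := ∀ (U D : Set V) (κ : V → ℤ) (H₁ : Cfg), U.Finite → Lip H₁ →
  (∀ x ∈ U, ∀ y, Adj x y → κ y = κ x) → (∀ y ∈ obd U, y ∉ big κ 0 H₁) →
  BijOn (fun H => res U fun y => H y - κ y)
    {H | H ∈ fill U H₁ ∧ ∀ x ∈ D ∪ ibd U, x ∈ U → x ∉ big κ 0 H} (freeD U D)

/-- Exploration of a star cluster. -/
def ReachL : Prop := ∀ (O A : Set V) (κ : V → ℤ) (M : ℕ) (H H' : Cfg), Disjoint O A →
  (∀ x ∈ A, x ∉ reach (star (big κ M H)) O A → ∀ y ∈ O ∪ reach (star (big κ M H)) O A, Adj x y →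
    x ∉ big κ M H ∧ y ∉ big κ M H) ∧
  ((∀ x ∈ obd A ∩ O ∪ reach (star (big κ M H)) O A, H' x = H x) →
    (reach (star (big κ M H')) O A = reach (star (big κ M H)) O A ↔
      ∀ x ∈ A, x ∉ reach (star (big κ M H)) O A →
        (∃ y ∈ O ∪ reach (star (big κ M H)) O A, Adj x y) → x ∉ big κ M H'))

/-- Counting two-valued regions. -/
def Count : Prop := ∀ U D R : Set V, U.Finite → R ⊆ U →
  ({H | H ∈ freeD U D ∧ ∀ x ∈ R ∪ obd R, H x = 0 ∨ H x = 1}.ncard : ℝ) =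
    2 ^ R.ncard * (freeD (U \ R) D).ncard

/-- Extension of a function of Lipschitz configurations. -/
def DepX : Prop := ∀ (A : Set V) (f : Cfg → ℝ) (c : ℝ), 0 ≤ c → DepS {H | Lip H} A f →
  (∀ H, Lip H → f (fun x => H x + 4) = f H) → (∀ H, Lip H → |f H| ≤ c) →
  ∃ g : Cfg → ℝ, DepOn g A ∧ Inv4 g ∧ (∀ H, |g H| ≤ c) ∧ ∀ H, Lip H → g H = f H

/-- Normalization. -/
def NormL : Prop := ∀ (N : ℕ) (x : V), BijOn (nm x) (mu N) (mun N x)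

/-- Two levels seen in one rhombus are close. -/
def HexU : Prop := ∀ (H : Cfg) (y : V) (w M M' : ℕ) (k k' : ℤ), 1 ≤ w →
  ¬ Long (both (big (fun _ => k) M H)) (rh y w) w →
  ¬ Long (both (big (fun _ => k') M' H)) (rh y w) w → |k - k'| ≤ M + M' + 1

/-- No long star path for domains made of far apart parts. -/
def GstarQ : Prop := ∀ L q : ℕ, ∃ c : ℝ, 0 < c ∧ ∀ r : ℕ, 1 ≤ r → ∀ (z : Finset V) (U D : Set V),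
  z.card ≤ q → (∀ x ∈ U, ∃ y ∈ z, x ∈ hex y (L * r)) →
  (∀ y ∈ z, ∀ y' ∈ z, y ≠ y' → 2 * (L * r) + 3 ≤ nrm (y' - y)) →
  c ≤ Pr (freeD U D) {H | ¬ Long (star (big 0 0 H)) univ r}

/-! ### Contiguity -/

/-- The ratio lemma. -/
def Ratio : Prop := ∀ (W B B' : Set V) (d r : ℕ) (E : Set Cfg), B'.Finite → B ⊆ B' →
  nb W (d + r + 4) ⊆ B → DepOn (fun H => H ∈ E) W →
  Pr (free B 0) {H | H ∈ E ∧ reach (star (big 0 0 H)) W Wᶜ ⊆ nb W d} *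
      Pr (free B' 0) {H | ¬ Long (star (big 0 0 H)) univ r} ≤
    Pr (free B' 0) {H | H ∈ E ∧ reach (star (big 0 0 H)) W Wᶜ ⊆ nb W d}

/-- The core contiguity bound. -/
def Ct0 : Prop := ∀ M L : ℕ, ∃ C : ℝ, ∃ w₀ : ℕ, ∀ w : ℕ, w₀ ≤ w → ∀ W : Set V,
  W ⊆ hex 0 (L * w) → ∀ᶠ N in atTop, ∀ (H : Cfg) (k : ℤ) (E : Set Cfg), Lip H →
  DepOn (fun H => H ∈ E) W → Inv4 (fun H => H ∈ E) →
  Pr (fill (nb W w) H)
      {H' | H' ∈ E ∧ ¬ Long (both (big (fun _ => 4 * k) M H')) (nb W (w + 1)) (w / 20)} ≤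
    C * Pr (mu N) E

/-- Contiguity of two-valued measures. -/
def CtDob : Prop := ∀ η : ℝ, 0 < η → ∀ L : ℕ, ∃ C : ℝ, ∀ᶠ n in atTop, ∀ᶠ N in atTop,
  ∀ (F S : Set V) (E : Set Cfg), hex 0 (40 * n) ⊆ F → F ⊆ hex 0 (L * n) →
  DepOn (fun H => H ∈ E) (hex 0 (34 * n)) → Inv4 (fun H => H ∈ E) →
  Pr (dob F S) E ≤ η + C * Pr (mu N) E

/-- The densities of the patterns are tight. -/
def Ct2 : Prop := ∀ η : ℝ, 0 < η → ∀ θ : ℕ, 20 ≤ θ → ∃ C : ℝ, 0 < C ∧ ∀ᶠ n in atTop,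
  ∀ᶠ N in atTop, ∀ i : Fin 4,
  Pr (mu N) {H | C * Pr (mu N) {H' | lab1 n (n / θ) H' i = lab1 n (n / θ) H i} <
    Pr (fill (nb (wp n (n / θ) i) (n / θ - 1)) H)
      {H' | lab1 n (n / θ) H' i = lab1 n (n / θ) H i}} ≤ η

/-! ### Pieces -/

/-- Conditional independence of the patterns. -/
def ProdL : Prop := ∀ (S : Set Cfg) (U : Fin 4 → Set V) (ξ : Fin 4 → Cfg → Cfg)
  (g : (Fin 4 → Cfg) → Cfg → ℝ) (T : Finset (Fin 4 → Cfg)), Good S → (∀ i, (U i).Finite) →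
  (∀ i, ∀ H ∈ S, Lip H ∧ fill (U i) H ⊆ S) → (∀ i j, i ≠ j → Disjoint (U i ∪ obd (U i)) (U j)) →
  (∀ i, DepOn (ξ i) (U i)) → (∀ a, DepS S (⋃ i, U i)ᶜ (g a)) → (∀ H ∈ S, (fun i => ξ i H) ∈ T) →
  Ex S (fun H => g (fun i => ξ i H) H) =
    ∑ a ∈ T, Ex S (fun H => g a H * ∏ i, Pr (fill (U i) H) {H' | ξ i H' = a i})

/-- Conditioning on the four patterns. -/
def Pie1 : Prop := ∀ (a : ℕ → V →₀ ℝ) (s : ℕ → ℕ), Tst a s → Moves a s → ∀ θ : ℕ, 20 ≤ θ →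
  ∀ e : ℝ, 0 < e → ∀ᶠ t in atTop, ∀ᶠ N in atTop,
  Ex (mu N) (fun H => |cex (mu N) (lab1 (s t) (s t / θ)) (lin (a t)) H|) ≤ e

/-- Refining a label on a likely event. -/
def RefL : Prop := ∀ (S G : Set Cfg) (l₁ : Cfg → Fin 4 → Cfg) (l₂ : Cfg → Cfg) (X : Cfg → ℝ),
  Good S → (∀ H ∈ S ∩ G, ∀ H' ∈ S ∩ G, l₁ H = l₁ H' → l₂ H = l₂ H') →
  Ex S (fun H => |cex S l₂ X H|) ≤
    Ex S (fun H => |cex S l₁ X H|) + 2 * √(Ex S fun H => X H ^ 2) * √(Pr S Gᶜ)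

/-- The relative shifts are determined with high probability. -/
def Shifts : Prop := ∀ η : ℝ, 0 < η → ∀ᶠ θ in atTop, ∀ᶠ n in atTop, ∀ᶠ N in atTop,
  ∃ G : Set Cfg, Pr (mu N) Gᶜ ≤ η ∧ ∀ H ∈ mu N ∩ G, ∀ H' ∈ mu N ∩ G,
    lab1 n (n / θ) H = lab1 n (n / θ) H' → lab2 n (n / θ) H = lab2 n (n / θ) H'

/-- Conditioning on the joint pattern. -/
def Pie2 : Prop := ∀ (a : ℕ → V →₀ ℝ) (s : ℕ → ℕ), Tst a s → Moves a s → ∀ e : ℝ, 0 < e →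
  ∀ᶠ θ in atTop, ∀ᶠ t in atTop, ∀ᶠ N in atTop,
  Ex (mu N) (fun H => |cex (mu N) (lab2 (s t) (s t / θ)) (lin (a t)) H|) ≤ e

/-- Second moments of test sequences. -/
def X2 : Prop := ∀ (a : ℕ → V →₀ ℝ) (s : ℕ → ℕ), Tst a s →
  (∃ C : ℝ, ∀ᶠ t in atTop, ∀ᶠ N in atTop, Ex (mu N) (fun H => lin (a t) H ^ 2) ≤ C) ∧
  (∀ L : ℕ, ∃ C : ℝ, ∀ᶠ t in atTop, ∀ F S : Set V, F ⊆ hex 0 (L * s t) →
    Ex (dob F S) (fun H => lin (a t) H ^ 2) ≤ C) ∧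
  ∀ᶠ t in atTop, DepOn (lin (a t)) (rh 0 (s t)) ∧ Inv4 (lin (a t))

/-! ### Sealing -/

/-- The cross ratio bound. -/
def Cross : Prop := ∀ (Z D Za Zc Zm : Set V) (r : ℕ) (c : ℝ), Z.Finite → Za ⊆ Zm → Zm ⊆ Z →
  Zc ⊆ Z → Disjoint Zm Zc → (∀ x ∈ Za, ∀ y ∈ Z, y ∉ Zm → r + 2 ≤ nrm (y - x)) → 0 < c →
  (∀ U ⊆ Z, c ≤ Pr (freeD U D) {H | ¬ Long (star (big 0 0 H)) univ r}) →
  ∃ u v : Set V → ℝ, ∀ A ⊆ Za, ∀ B ⊆ Zc, 0 < u A * v B ∧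
    u A * v B ≤ (freeD (Z \ (A ∪ B)) D).ncard ∧ c * (freeD (Z \ (A ∪ B)) D).ncard ≤ u A * v B

/-- One zone. -/
def ZoneL : Prop := ∀ (S : Set Cfg) (O I Z P D Za Zc Zm : Set V) (κ : V → ℤ) (r : ℕ) (c : ℝ),
  Zone S O I Z P D Za Zc Zm κ r → 0 < c →
  (∀ U ⊆ Z, c ≤ Pr (freeD U D) {H | ¬ Long (star (big 0 0 H)) univ r}) →
  ∃ ρ : Cfg → ℝ, (∀ H ∈ S, 0 ≤ ρ H ∧ ρ H ≤ 1) ∧ (∀ H ∈ S, Cnf O I Z Za Zc κ H → c ≤ ρ H) ∧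
    DepS S (Z ∪ obd Z) ρ ∧ Fact S (O ∪ P) (I ∪ P) ρ

/-- Averaging the weight over the zone. -/
def RBar : Prop := ∀ (S : Set Cfg) (O I Z P D Za Zc Zm : Set V) (κ : V → ℤ) (r : ℕ)
  (ρ : Cfg → ℝ), Zone S O I Z P D Za Zc Zm κ r → DepS S (Z ∪ obd Z) ρ →
  Fact S (O ∪ P) (I ∪ P) ρ →
  DepS S (obd Z) (fun H => Ex (pin S Zᶜ H) ρ) ∧
    Fact S (O ∪ P) (I ∪ P) (fun H => Ex (pin S Zᶜ H) ρ) ∧
    ∀ H ∈ S, pin S Zᶜ H = {H' | H' ∈ fill Z H ∧ ∀ x ∈ D, x ∈ Z → x ∉ big κ 0 H'}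

/-- The two-copy swap. -/
def Swap : Prop := ∀ (S : Set Cfg) (m : ℕ) (A B : ℕ → Set V) (ρ : ℕ → Cfg → ℝ) (X Φ : Cfg → ℝ),
  Good S → (∀ j < m, ∀ H ∈ S, 0 ≤ ρ j H ∧ ρ j H ≤ 1) → (∀ j < m, Fact S (A j) (B j) (ρ j)) →
  (∀ j < m, DepS S (A j) Φ ∧ DepS S (B j) X ∧ ∀ i < j, DepS S (A j) (ρ i)) →
  (∀ H ∈ S, |Φ H| ≤ 1) →
  |Ex S (fun H => X H * Φ H) - Ex S X * Ex S Φ| ≤
    2 * Ex S fun H => Ex S fun H' => |X H| * ∏ j ∈ Finset.range m, (1 - ρ j H * ρ j H')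

end Vale.Agent.P153.Seal
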