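import Vale.Agent.P153.Seal.RLow

/-! Levels near a good zone are bounded. -/

open Set Filter

namespace Vale.Agent.P153.Seal

namespace BadBX

open RLowX

/-- representative of a quadrant -/
def rp (q : Bool × Bool) : V := (if q.1 then 0 else -1, if q.2 then 0 else -1)

theorem za_bound {N n w p m j : ℕ} (hP : Par N n w p m) (hj : j < m) :
    za n w p j + 12 * w ≤ 16 * n ∧ 9 * n ≤ za n w p j := by
  obtain ⟨hw1, hn, hp, hm, -⟩ := hP
  have e1 : 12 * w ≤ (j + 1) * p * w := Nat.mul_le_mul_right w (by nlinarith)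
  have e2 : (j + 1) * p * w ≤ m * p * w := Nat.mul_le_mul_right w (Nat.mul_le_mul_right p hj)
  have e3 : za n w p j = 16 * n - ((j + 1) * p * w : ℕ) := by rw [za]; push_cast; ring
  omega

theorem nb_box {n w : ℕ} {a : ℤ} {x : V} (hx : x ∈ nb (Zb n w a) 1) :
    a - 1 ≤ |x.1| ∧ |x.1| ≤ a + 10 * w + 1 ∧ 2 * n - 4 * w ≤ |x.2| ∧ |x.2| ≤ 2 * n + 5 * w := by
  obtain ⟨y, hy, h⟩ := hx
  rw [nrm_sub_le_iff] at h
  simp only [Zb, Ch, mem_ofPred_eq, Int.abs_eq_natAbs] at hy ⊢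
  omega

theorem bb_of {n w M : ℕ} {a : ℤ} (h2 : HexU) (h3 : KapL) (hw : 2 ≤ w) (hn : 20 * w ≤ n)
    (ha : 9 * n ≤ a) {K : Cfg} (hG : GoodW n w a K)
    (h : ∀ q, ∃ k : ℤ, ¬ Long (both (big (fun _ => 4 * k) M K))
      (hex (zc n w a (rp q)) (36 * (w / 2))) (w / 2)) : BB n w a (2 * M + 1) K := by
  rintro ⟨u, v, huv, hc⟩
  have hu : u ∈ nb (Zb n w a) 1 := by
    rcases hc.eq_or_mem with e | e
    · subst e
      simp only [sub_self, nrm_zero] at huv
      omega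
    · exact e.1
  obtain ⟨k', hk'⟩ := h (qd u)
  obtain ⟨k, hk⟩ := hG.1 (rp (qd u))
  have e1 := h3 n w a K _ k (by omega) hk
  have e2 := h2 K (yc n w a (rp (qd u))) w 0 M (4 * k) (4 * k') (by omega)
    (fun ⟨s, t, h1, h2⟩ => hk ⟨s, t, h1, h2.mono (fun _ _ h => Or.inl h.1) Subset.rfl⟩)
    (fun ⟨s, t, h1, h2⟩ => hk' ⟨s, t, by omega, h2.monoA fun y hy => by
      rw [mem_rh] at hy
      rw [mem_hex, nrm_sub_le_iff]
      rcases hq : qd u with ⟨_ | _, _ | _⟩ <;> simp [hq, yc, zc, rp] at hy ⊢ <;> omega⟩)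
  rw [abs_le] at e2
  have hin : ∀ y ∈ nb (Zb n w a) 1, qd y = qd u →
      y ∈ hex (zc n w a (rp (qd u))) (36 * (w / 2)) ∧
        (y ∈ big (kap n w a K) (2 * M + 1) K → y ∈ big (fun _ => 4 * k') M K) := by
    intro y hy e
    constructor
    · have := nb_box hy
      rw [mem_hex, nrm_sub_le_iff, ← e]
      simp only [Int.abs_eq_natAbs] at this
      by_cases c1 : 0 ≤ y.1 <;> by_cases c2 : 0 ≤ y.2 <;> simp [qd, zc, rp, c1, c2] <;> omega
    · have e3 : kap n w a K y = 4 * k := by rw [kap_qd, e]; exact e1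
      simp only [big, mem_ofPred_eq, e3]
      push_cast at e2 ⊢
      omega
  refine hk' ⟨u, v, huv, (hc.ind (P := fun y => qd y = qd u ∧
    Conn (both (big (fun _ => 4 * k') M K)) (hex (zc n w a (rp (qd u))) (36 * (w / 2))) u y)
    ⟨rfl, .rfl⟩ fun s t _ hst hE hs ht ih => ?_).2⟩
  have e : qd t = qd u := by
    rw [← ih.1]
    have b1 := nb_box hs
    rw [adj_iff] at hst
    simp only [Int.abs_eq_natAbs] at b1
    simp only [qd, Prod.mk.injEq, decide_eq_decide]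
    omega
  exact ⟨e, ih.2.tail hst ⟨(hin s hs ih.1).2 hE.1, (hin t ht e).2 hE.2⟩ (hin s hs ih.1).1
    (hin t ht e).1⟩

end BadBX

open BadBX in
theorem badB (h1 : LevMu) (h2 : HexU) (h3 : KapL) (h4 : NormL) : BadB := by
  intro η hη
  obtain ⟨M, hM⟩ := h1 (η / 4) (by positivity) 36
  refine ⟨2 * M + 1, fun n w p m hw => ?_⟩
  have ev := (Finset.range m ×ˢ (Finset.univ : Finset (Bool × Bool))).eventually_all.2
    fun jq _ => hM (w / 2) (by omega) (zc n w (za n w p jq.1) (rp jq.2))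
  filter_upwards [ev] with N hN hP j hj
  rw [← Pr_bij (h4 N (bp n 0))]
  have hb := Pr_biUnion_le (mu N) (Finset.univ : Finset (Bool × Bool)) fun q =>
    {H | ∀ k : ℤ, Long (both (big (fun _ => 4 * k) M H))
      (hex (zc n w (za n w p j) (rp q)) (36 * (w / 2))) (w / 2)}
  have hs : ∑ q : Bool × Bool, Pr (mu N) {H | ∀ k : ℤ, Long (both (big (fun _ => 4 * k) M H))
      (hex (zc n w (za n w p j) (rp q)) (36 * (w / 2))) (w / 2)} ≤ ∑ _q : Bool × Bool, η / 4 :=
    Finset.sum_le_sum fun q _ => hN (j, q) (by simp [hj])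
  refine (Pr_mono fun H _ hH => ?_).trans (hb.trans (hs.trans (le_of_eq (by simp; ring))))
  by_contra hcon
  simp only [Finset.mem_univ, iUnion_true, mem_iUnion, mem_ofPred_eq, not_exists,
    not_forall] at hcon
  refine hH.2 (bb_of h2 h3 hw hP.2.1 (za_bound hP hj).2 hH.1 fun q => ?_)
  obtain ⟨k, hk⟩ := hcon q
  refine ⟨k - H (bp n 0) / 4, ?_⟩
  have e : big (fun _ => 4 * (k - H (bp n 0) / 4)) M (nm (bp n 0) H) = big (fun _ => 4 * k) M H := by
    ext y
    simp only [big, nm, mem_ofPred_eq]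
    omega
  rwa [e]

theorem badBar (h : CellL) : BadBar := by
  intro N n w p m M j hP hj
  by_cases hf : (mun N (bp n 0)).Finite
  swap
  · simp [Pr, Ex_inf hf]
  have hc := (h N n w p m hP).2
  have e : ∀ H, ∀ H' ∈ pin (cell3 N n w p m H) (Zf n w (za n w p j) H)ᶜ H,
      pin (cell3 N n w p m H') (Zf n w (za n w p j) H')ᶜ H' =
        pin (cell3 N n w p m H) (Zf n w (za n w p j) H)ᶜ H := by
    intro H H' h'
    have e1 : lab3 n w p m H' = lab3 n w p m H := h'.1.2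
    have e2 := (hc H H' e1 j hj).2.1
    simp only [cell3, Zf, e1, e2]
    ext K
    exact and_congr_right fun _ => forall₂_congr fun x hx => by rw [h'.2 x hx]
  have := Pr_tower_ge (S := mun N (bp n 0))
    (E := {H | GoodW n w (za n w p j) H ∧ ¬ Bbar N n w p m M j H})
    (E' := {H | BB n w (za n w p j) M H}ᶜ) (c := 1 / 2)
    (fun H => pin (cell3 N n w p m H) (Zf n w (za n w p j) H)ᶜ H)
    (fun H hH => ⟨⟨⟨hH, rfl⟩, fun _ _ => rfl⟩, fun _ h => h.1.1⟩) (fun H _ H' h' => e H H' h')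
    (fun H _ hE H' h' => ⟨(hc H H' h'.1.2 j hj).2.2.2 hE.1, by
      have := hE.2
      simp only [Bbar] at this ⊢
      rwa [e H H' h']⟩)
    (fun H hH hE => by
      have g : Good (pin (cell3 N n w p m H) (Zf n w (za n w p j) H)ᶜ H) :=
        ⟨hf.subset fun _ h => h.1.1, H, ⟨hH, rfl⟩, fun _ _ => rfl⟩
      rw [Pr_compl g]
      have := not_le.1 hE.2
      linarith)
  have h2 : Pr (mun N (bp n 0)) ({H | GoodW n w (za n w p j) H ∧ ¬ Bbar N n w p m M j H} ∩
      {H | BB n w (za n w p j) M H}ᶜ) ≤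
      Pr (mun N (bp n 0)) {H | GoodW n w (za n w p j) H ∧ ¬ BB n w (za n w p j) M H} :=
    Pr_mono fun H _ h => ⟨h.1.1, h.2⟩
  linarith

end Vale.Agent.P153.Seal
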