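import Vale.Agent.P153.Seal.Stm2
import Vale.Agent.P153.Nu.Lap

/-! P153, module Seal: the bridge from the moving argument. -/

open Set Filter Topology

namespace Vale.Agent.P153.Seal

namespace BridgeX

open P153.Spec

theorem emb_eq (v : V) : emb v = pos v := by
  apply Complex.ext <;> simp [emb, pos] <;> ring

theorem nrm_le (v : V) {m : ℕ} (h : ‖pos v‖ ≤ m) : nrm v ≤ 2 * m := by
  have h1 : ‖pos v‖ ^ 2 = (v.1 : ℝ) ^ 2 + v.1 * v.2 + (v.2 : ℝ) ^ 2 := by
    rw [Complex.sq_norm, Complex.normSq_apply]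
    simp only [pos]
    nlinarith [Real.sq_sqrt (show (0 : ℝ) ≤ 3 by norm_num)]
  have h2 := pow_le_pow_left₀ (norm_nonneg _) h 2
  have k : ∀ t : ℤ, (t : ℝ) ^ 2 ≤ 4 * (m : ℝ) ^ 2 → -((2 * m : ℕ) : ℤ) ≤ t ∧ t ≤ (2 * m : ℕ) :=
    fun t ht => by
      have := abs_le_of_sq_le_sq' (a := (t : ℝ)) (b := 2 * m) (by linarith) (by positivity)
      exact ⟨by exact_mod_cast this.1, by exact_mod_cast this.2⟩
  have a := k v.1 (by nlinarith [sq_nonneg ((v.1 : ℝ) + v.2), sq_nonneg (v.2 : ℝ)])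
  have b := k v.2 (by nlinarith [sq_nonneg ((v.1 : ℝ) + v.2), sq_nonneg (v.1 : ℝ)])
  have c := k (v.1 + v.2) (by push_cast; nlinarith [sq_nonneg (v.1 : ℝ), sq_nonneg (v.2 : ℝ)])
  exact nrm_le_iff.2 ⟨a.1, a.2, b.1, b.2, c.1, c.2⟩

theorem supp {f : V → ℝ} {m : ℕ} (h : ∀ v, 2 * m < nrm v → f v = 0) {x : V} (hx : lap f x ≠ 0) :
    x ∈ hex 0 (2 * (m + 3)) := by
  by_contra hn
  have k : ∀ i j : ℤ, i.natAbs ≤ 1 → j.natAbs ≤ 2 → f (x.1 + i, x.2 + j) = 0 := fun i j _ _ =>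
    h _ (by
      rw [mem_hex, sub_zero, nrm_le_iff] at hn
      rw [← not_le, nrm_le_iff]
      omega)
  have k0 := k 0 0 (by simp) (by simp)
  have k1 := k (-1) 2 (by simp) (by simp)
  have k2 := k 1 (-2) (by simp) (by simp)
  have k3 := k 1 0 (by simp) (by simp)
  have k4 := k (-1) 0 (by simp) (by simp)
  simp only [add_zero, ← sub_eq_add_neg, Prod.mk.eta] at k0 k1 k2 k3 k4
  exact hx (by simp [lap, k0, k1, k2, k3, k4])

theorem unif (tv : Nu.TVI) {X : Cfg → ℝ} (hX : Loc X) {r : ℕ} (dX : DepOn X (hex 0 r)) {e : ℝ}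
    (he : 0 < e) : ∃ R : ℕ, ∀ N ≥ R, ∀ N' ≥ R, ∀ G, Pc (hex 0 r) G →
      |Ex (mu N) (fun H => X H * G H) - Ex (mu N') fun H => X H * G H| ≤ e := by
  obtain ⟨-, h2, C, h3⟩ := hX
  have hC : 0 < |C| + 1 := by positivity
  obtain ⟨R, hR⟩ := tv r (e / (|C| + 1)) (by positivity)
  refine ⟨R, fun N hN N' hN' G hG => ?_⟩
  have := hR 0 0 N N' (hex_mono hN) (hex_mono hN') (fun H => X H * G H / (|C| + 1))
    ⟨fun H H' h => by simp only [dX H H' h, hG.1 H H' h], fun H => by simp only [h2 H, hG.2.1 H],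
      fun H hH => by
        rw [abs_div, abs_of_pos hC, div_le_one hC, abs_mul]
        linarith [mul_le_of_le_one_right (abs_nonneg (X H)) (hG.2.2 H hH), h3 H hH, le_abs_self C]⟩
  rwa [Ex_div, Ex_div, ← sub_div, abs_div, abs_of_pos hC, div_le_div_iff_of_pos_right hC] at this

end BridgeX

open BridgeX P153.Spec in
theorem bridge (h1 : Nu.Moves) (h2 : Nu.TVI) (h3 : Nu.S_nu) (h4 : Nu.S_loc) : Bridge := by
  intro δ hδ h0 φ hφ sp a ha
  have hc : HasCompactSupport φ :=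
    Metric.isCompact_of_isClosed_isBounded (isClosed_tsupport φ) (Metric.isBounded_ball.subset sp)
  have z1 : ∀ z : ℂ, 1 ≤ ‖z‖ → φ z = 0 := fun z hz => image_eq_zero_of_notMem_tsupport
    fun h => (mem_ball_zero_iff.1 (sp h)).not_ge hz
  have ha' : ∀ n x, a n x = lap (fun y => φ (δ n * pos y + (fun _ => 0) n)) x := fun n x => by
    simp only [ha, emb_eq, add_zero]
  have c1 : ∀ n, 1 ≤ δ n * ⌈1 / δ n⌉₊ := fun n => by
    have := Nat.le_ceil (1 / δ n)
    rwa [div_le_iff₀' (hδ n)] at this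
  obtain ⟨D, hD⟩ := h0.bddAbove_range
  have c2 : ∀ n, δ n * (⌈1 / δ n⌉₊ + 3 : ℕ) ≤ 1 + 4 * D := fun n => by
    have e1 := mul_le_mul_of_nonneg_left
      (Nat.ceil_lt_add_one (one_div_pos.2 (hδ n)).le).le (hδ n).le
    have e2 : δ n ≤ D := hD ⟨n, rfl⟩
    rw [mul_add, mul_one_div_cancel (hδ n).ne'] at e1
    push_cast
    linarith
  have hB : 0 < 1 + 4 * D := lt_of_lt_of_le (mul_pos (hδ 0) (by positivity)) (c2 0)
  have zs : ∀ n, ((a n).sum fun _ c => c) = 0 := fun n =>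
    Nu.Lap.zero_sum (Nu.Lap.fin_supp hc (hδ n) 0) _ (ha' n)
  have su : ∀ n, ∀ x ∈ (a n).support, x ∈ hex 0 (2 * (⌈1 / δ n⌉₊ + 3)) := fun n x hx => by
    refine supp (fun v hv => z1 _ ?_) (ha' n x ▸ Finsupp.mem_support_iff.1 hx)
    have : (⌈1 / δ n⌉₊ : ℝ) ≤ ‖pos v‖ := le_of_not_ge fun h => (nrm_le v h).not_gt hv
    rw [add_zero, norm_mul, Complex.norm_real, Real.norm_of_nonneg (hδ n).le]
    exact (c1 n).trans (mul_le_mul_of_nonneg_left this (hδ n).le)
  have ts : Tendsto (fun n => 2 * (⌈1 / δ n⌉₊ + 3)) atTop atTop := by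
    have : Tendsto (fun n => ⌈1 / δ n⌉₊) atTop atTop := by
      simp only [one_div]
      exact tendsto_nat_ceil_atTop.comp (tendsto_inv_nhdsGT_zero.comp
        (tendsto_nhdsWithin_iff.2 ⟨h0, Eventually.of_forall hδ⟩))
    exact tendsto_atTop_mono (fun n => by omega) this
  obtain ⟨M, hM, hs⟩ := Nu.Lap.second hφ hc
  refine ⟨⟨ts, (2 * M + 1) * (2 * (1 + 4 * D)) ^ 2, by positivity, Eventually.of_forall fun n =>
    ⟨zs n, fun x => ?_, fun x hx => hex_subset_rh (su n x hx)⟩⟩, fun θ hθ e he => ?_⟩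
  · rw [ha', le_div_iff₀ (by positivity)]
    refine (mul_le_mul_of_nonneg_right (Nu.Lap.lap_le hM hs _ _ x) (sq_nonneg _)).trans ?_
    rw [mul_assoc, ← mul_pow]
    refine mul_le_mul_of_nonneg_left (pow_le_pow_left₀ (mul_pos (hδ n) (by positivity)).le ?_ 2)
      (by positivity)
    have := c2 n
    push_cast at this ⊢
    linarith
  generalize hk : (fun n => ⌈1 / δ n⌉₊ + 3) = k
  have ek : ∀ n, ⌈1 / δ n⌉₊ + 3 = k n := congrFun hk
  simp only [ek] at c2 su ts ⊢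
  have key := h1 φ hφ hc δ (fun _ => 0) k (1 + 4 * D) a hδ h0 (fun _ => by simpa using hB.le) c2
    (fun n z hz => z1 _ (by
      have e1 : 1 ≤ δ n * k n := (c1 n).trans (mul_le_mul_of_nonneg_left
        (by rw [← ek]; push_cast; linarith) (hδ n).le)
      have e2 : 1 ≤ √3 := Real.one_le_sqrt.2 (by norm_num)
      rw [add_zero]
      linarith [neg_abs_le z.im, neg_le_abs z.im, Complex.abs_im_le_norm z,
        one_le_mul_of_one_le_of_one_le e1 e2]))
    ha' su (fun n => 2 * (2 * k n))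
    (fun n => if 2 * θ ≤ 2 * k n then 2 * k n / θ / 2 else 2 * k n) (fun n => 10 * (2 * k n))
    (fun n => 40 * (2 * k n)) (160 * θ) (fun n => by
      have d1 := Nat.div_le_self (2 * k n) θ
      split_ifs with h
      · have d2 : 2 ≤ 2 * k n / θ := (Nat.le_div_iff_mul_le hθ).2 h
        have d3 := Nat.lt_mul_div_succ (2 * k n) hθ
        have d4 : θ * (2 * k n / θ + 1) ≤ θ * (4 * (2 * k n / θ / 2)) :=
          Nat.mul_le_mul_left _ (by omega)
        refine ⟨by omega, by omega, by omega, ?_⟩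
        linarith
      · exact ⟨by omega, by omega, by omega, Nat.mul_le_mul_right _ (by omega)⟩)
    (e / 4) (by positivity)
  filter_upwards [key, ts.eventually_ge_atTop (2 * θ)] with t ht hn
  obtain ⟨R, hR⟩ := unif h2 (h4.lin _ (zs t)) (r := 40 * (2 * k t))
    (fun H H' h => Finset.sum_congr rfl fun x hx => by
      simp only [h x (hex_mono (by omega) (su t x hx))]) (half_pos he)
  filter_upwards [eventually_ge_atTop R] with N hN Φ b d i
  rw [if_pos hn] at ht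
  have p : ∀ j {A : Set V}, mp (2 * k t) (2 * k t / θ) j ⊆ A → Pc A (Φ j) := fun j A h =>
    ⟨fun H H' e => d j H H' fun x hx => e x (h hx), i j, fun H _ => b j H⟩
  generalize 2 * k t / θ = w at *
  obtain ⟨N', n1, n2⟩ := ((ht (Φ 0) (Φ 1) (Φ 2) (Φ 3)
    (p 0 fun x hx => ⟨hx.1, by have := hx.2; omega⟩)
    (p 1 fun x hx => ⟨hx.1, by have := hx.2; omega⟩)
    (p 2 fun x hx => ⟨hx.1, by have := abs_le.1 hx.2.1; have := hx.2.2; omega⟩)
    (p 3 fun x hx => ⟨hx.1, by have := abs_le.1 hx.2.1; have := hx.2.2; omega⟩)).2.and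
      (eventually_ge_atTop R)).exists
  have q : ∀ j, Pc (hex 0 (40 * (2 * k t))) (Φ j) := fun j => p j (by
    fin_cases j <;> exact fun x hx => hx.1)
  have := hR N hN N' n2 (fun H => ∏ j, Φ j H)
    ⟨fun H H' h => Finset.prod_congr rfl fun j _ => (q j).1 H H' h,
      fun H => Finset.prod_congr rfl fun j _ => i j H, fun H _ => by
        rw [Finset.abs_prod]
        exact Finset.prod_le_one (fun _ _ => abs_nonneg _) fun j _ => b j H⟩
  simp only [Fin.prod_univ_four] at this ⊢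
  have e3 := abs_sub_abs_le_abs_sub
    (Ex (mu N) fun H => lin (a t) H * (Φ 0 H * Φ 1 H * Φ 2 H * Φ 3 H))
    (Ex (mu N') fun H => lin (a t) H * (Φ 0 H * Φ 1 H * Φ 2 H * Φ 3 H))
  change |Ex (mu N') _| ≤ _ at n1
  linarith

end Vale.Agent.P153.Seal
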