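import Vale.Agent.P153.Seal.Stm2

/-! P153, module Seal: the covariance in one cell. -/

open Set Filter

namespace Vale.Agent.P153.Seal

namespace CellBX

theorem prod_le {m : ℕ} {t : ℕ → ℝ} {c : ℝ} {J : ℕ → Prop} (h0 : ∀ j < m, 0 ≤ t j ∧ t j ≤ 1)
    (h1 : ∀ j < m, J j → t j ≤ c) : ∏ j ∈ Finset.range m, t j ≤ c ^ {j | j < m ∧ J j}.ncard := by
  classical
  have e : {j | j < m ∧ J j} = ↑((Finset.range m).filter J) := by ext j; simp
  rw [e, ncard_coe_finset, ← Finset.prod_const, Finset.prod_filter]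
  refine Finset.prod_le_prod (fun j hj => (h0 j (Finset.mem_range.1 hj)).1) fun j hj => ?_
  split_ifs with h
  · exact h1 j (Finset.mem_range.1 hj) h
  · exact (h0 j (Finset.mem_range.1 hj)).2

variable {N n w p m : ℕ}

theorem za_ge (h : Par N n w p m) {j : ℕ} (hj : j < m) : (9 * n : ℤ) ≤ za n w p j := by
  have h1 : (j + 1) * p * w ≤ 7 * n :=
    (Nat.mul_le_mul_right _ (Nat.mul_le_mul_right _ hj)).trans h.2.2.2.1
  have h2 : (((j + 1) * p * w : ℕ) : ℤ) ≤ (7 * n : ℕ) := by exact_mod_cast h1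
  push_cast at h2
  unfold za
  linarith

theorem za_gap (h : Par N n w p m) {i j : ℕ} (hij : i < j) :
    za n w p j + 12 * w ≤ za n w p i := by
  have h1 : (i + 1) * p * w + 12 * w ≤ (j + 1) * p * w := by
    rw [← add_mul]
    refine Nat.mul_le_mul_right _ ?_
    have := Nat.mul_le_mul_right p (Nat.succ_le_succ hij)
    have := h.2.2.1
    simp only [Nat.succ_eq_add_one, add_mul, one_mul] at *
    omega
  have h2 : (((i + 1) * p * w + 12 * w : ℕ) : ℤ) ≤ ((j + 1) * p * w : ℕ) := by exact_mod_cast h1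
  push_cast at h2
  unfold za
  linarith

theorem obd_sub (h : Par N n w p m) {i j : ℕ} (hij : i < j) (hj : j < m) (H : Cfg) :
    obd (Zf n w (za n w p i) H) ⊆ OutS n w (za n w p j) ∪ Pcs n w := by
  rintro y ⟨-, x, hx, a⟩
  have h1 := za_ge h hj
  have h2 := za_gap h hij
  have h3 := hx.1.2.1
  have h4 := h.1
  have h5 : za n w p i - 1 ≤ |y.1| := by
    rw [adj_iff] at a
    rw [le_abs] at h3 ⊢
    omega
  by_cases hQ : y ∈ Q n
  · by_cases hc : Ch n w y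
    · exact Or.inl (Or.inr ⟨hc, by omega⟩)
    · refine Or.inr ⟨hQ, ?_⟩
      unfold Ch at hc
      omega
  · exact Or.inl (Or.inl hQ)

theorem rh_sub (h : Par N n w p m) {j : ℕ} (hj : j < m) :
    rh 0 n ⊆ InS n w (za n w p j) ∪ Pcs n w := by
  intro x hx
  have h1 := za_ge h hj
  have h2 := h.1
  have h3 := h.2.1
  by_cases hP : x ∈ Pcs n w
  · exact Or.inr hP
  · simp only [rh, sub_zero, mem_ofPred_eq] at hx
    refine Or.inl ⟨?_, hP, ?_⟩
    · simp only [Q, rh, sub_zero, mem_ofPred_eq]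
      omega
    · rw [abs_lt]
      omega

theorem gst {c : ℝ} (hc : ∀ r : ℕ, 1 ≤ r → ∀ (z : Finset V) (U D : Set V), z.card ≤ 4 →
    (∀ x ∈ U, ∃ y ∈ z, x ∈ hex y (20 * r)) →
    (∀ y ∈ z, ∀ y' ∈ z, y ≠ y' → 2 * (20 * r) + 3 ≤ nrm (y' - y)) →
    c ≤ Pr (freeD U D) {H | ¬ Long (star (big 0 0 H)) univ r}) (h : Par N n w p m) {a : ℤ}
    (ha : (9 * n : ℤ) ≤ a) {U : Set V} (hU : U ⊆ Zb n w a) (D : Set V) :
    c ≤ Pr (freeD U D) {H | ¬ Long (star (big 0 0 H)) univ w} := by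
  have h2 := h.1
  have h3 := h.2.1
  refine hc w h.1 (({a + 5 * w, -(a + 5 * w)} : Finset ℤ) ×ˢ ({(2 * n : ℤ), -(2 * n : ℤ)} : Finset ℤ))
    U D ?_ (fun x hx => ?_) fun y hy y' hy' hn => ?_
  · rw [Finset.card_product]
    exact Nat.mul_le_mul Finset.card_le_two Finset.card_le_two
  · obtain ⟨⟨c1, c2⟩, c3, c4⟩ := hU hx
    refine ⟨zc n w a x, ?_, ?_⟩
    · simp only [zc, Finset.mem_product, Finset.mem_insert, Finset.mem_singleton]
      constructor <;> split_ifs <;> simp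
    · rw [mem_hex, nrm_sub_le_iff]
      simp only [zc]
      rw [abs_lt] at c2
      rw [abs_le] at c4
      rw [lt_abs] at c1
      rw [le_abs] at c3
      split_ifs <;> omega
  · simp only [Finset.mem_product, Finset.mem_insert, Finset.mem_singleton] at hy hy'
    rw [Ne, Prod.ext_iff] at hn
    rw [le_nrm_sub_iff]
    omega

end CellBX

open CellBX in
theorem cellB (h1 : ZoneGeo) (h2 : ZoneL) (h3 : RBar) (h4 : Swap) (h5 : RLow) (h6 : GstarQ)
    (h7 : CellL) : CellB := by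
  intro M
  obtain ⟨c₂, p₂, hw⟩ := h5 M
  obtain ⟨c₁, p₁, hg⟩ := h6 20 4
  refine ⟨min 1 ((c₁ * (c₂ / 2)) ^ 2), by positivity, min_le_left _ _, hw.mono ?_⟩
  intro w hw N n p m H₀ X Φ hP h0 dX dΦ bΦ
  by_cases hS : (cell3 N n w p m H₀).Finite
  swap
  · simp [Ex_inf hS]
  have key : ∀ j, ∃ ρ : Cfg → ℝ, j < m → (∀ H ∈ cell3 N n w p m H₀, 0 ≤ ρ H ∧ ρ H ≤ 1) ∧
      Fact (cell3 N n w p m H₀) (OutS n w (za n w p j) ∪ (Pcs n w ∪ PW n w (za n w p j) H₀))
        (InS n w (za n w p j) ∪ (Pcs n w ∪ PW n w (za n w p j) H₀)) ρ ∧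
      DepS (cell3 N n w p m H₀) (obd (Zf n w (za n w p j) H₀)) ρ ∧
      (GoodW n w (za n w p j) H₀ → ∀ H ∈ cell3 N n w p m H₀, Bbar N n w p m M j H →
        c₁ * (c₂ / 2) ≤ ρ H) := fun j => by
    by_cases hj : j < m ∧ GoodW n w (za n w p j) H₀
    swap
    · exact ⟨fun _ => 0, fun h => ⟨fun _ _ => ⟨le_rfl, zero_le_one⟩, fun F G _ _ => by
        simp [Ex_zero], fun _ _ _ _ _ => rfl, fun g => absurd ⟨h, g⟩ hj⟩⟩
    have Z := h1 N n w p m j H₀ hP hj.1 h0 hj.2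
    obtain ⟨ρ, r1, r2, r3, r4⟩ := h2 _ _ _ _ _ _ _ _ _ _ _ c₁ Z p₁ fun U hU =>
      gst hg hP (za_ge hP hj.1) (hU.trans sdiff_subset) _
    obtain ⟨b1, b2, -⟩ := h3 _ _ _ _ _ _ _ _ _ _ _ ρ Z r3 r4
    refine ⟨_, fun _ => ⟨fun H _ => ⟨Ex_nonneg fun K hK => (r1 K hK.1).1,
      Ex_le' zero_le_one fun K hK => (r1 K hK.1).2⟩, b2, b1, fun _ H hH hB => ?_⟩⟩
    have e1 : cell3 N n w p m H = cell3 N n w p m H₀ := by
      unfold cell3; rw [show lab3 n w p m H = _ from hH.2]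
    have e2 : Zf n w (za n w p j) H = Zf n w (za n w p j) H₀ := by
      unfold Zf; rw [((h7 N n w p m hP).2 H₀ H hH.2 j hj.1).2.1]
    unfold Bbar at hB
    rw [e1, e2] at hB
    refine le_trans (mul_le_mul_of_nonneg_left (le_trans ?_ (hw N n p m j H₀ H hP hj.1 h0 hj.2 hH))
      p₁.le) (markov (fun K hK => (r1 K hK.1).1) fun K hK hc => r2 K hK.1 hc)
    linarith [mul_le_mul_of_nonneg_left hB p₂.le]
  choose ρ hρ using key
  refine (h4 _ m _ _ ρ X Φ ⟨hS, H₀, h0, rfl⟩ (fun j hj => (hρ j hj).1) (fun j hj => (hρ j hj).2.1)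
    (fun j hj => ⟨fun H _ H' _ h => dΦ H H' fun x hx => h x (Or.inl (Or.inl hx)),
      fun H _ H' _ h => dX H H' fun x hx =>
        h x (union_subset_union_right _ subset_union_left (rh_sub hP hj hx)),
      fun i hi H a H' b h => (hρ i (hi.trans hj)).2.2.1 H a H' b fun x hx =>
        h x (union_subset_union_right _ subset_union_left (obd_sub hP hi hj H₀ hx))⟩)
    fun H _ => bΦ H).trans (mul_le_mul_of_nonneg_left (Ex_mono fun H hH => Ex_mono fun H' hH' =>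
      mul_le_mul_of_nonneg_left (prod_le (fun j hj => ?_) fun j hj hJ => ?_) (abs_nonneg _))
      zero_le_two)
  · have a := (hρ j hj).1 H hH
    have b := (hρ j hj).1 H' hH'
    exact ⟨sub_nonneg.2 (mul_le_one₀ a.2 b.1 b.2), sub_le_self _ (mul_nonneg a.1 b.1)⟩
  · have g := ((h7 N n w p m hP).2 H₀ H hH.2 j hj).2.2.1 hJ.1
    have a := (hρ j hj).2.2.2 g H hH hJ.2.1
    have b := (hρ j hj).2.2.2 g H' hH' hJ.2.2
    refine sub_le_sub_left ((min_le_right _ _).trans ?_) _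
    rw [sq]
    exact mul_le_mul a b (by positivity) ((hρ j hj).1 H hH).1

end Vale.Agent.P153.Seal
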