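import Vale.Agent.P153.Seal.Stm2

/-! P153, module Seal: facts on cells and uniqueness of the level. -/

open Set Filter

namespace Vale.Agent.P153.Seal

variable {N n w p m j : ℕ} {a : ℤ} {H H' : Cfg}

theorem cellL_conn {κ : V → ℤ} {M : ℕ} {A : Set V} (h : ∀ x ∈ A, H' x = H x) (u v : V) :
    Conn (star (big κ M H')) A u v ↔ Conn (star (big κ M H)) A u v := by
  have e : ∀ x ∈ A, x ∈ big κ M H' ↔ x ∈ big κ M H := fun x hx => by
    simp only [big, mem_ofPred_eq, h x hx]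
  exact ⟨fun k => k.mono' fun x y _ h1 h2 h3 => ⟨h1.imp (e x h2).1 (e y h3).1, h2, h3⟩,
    fun k => k.mono' fun x y _ h1 h2 h3 => ⟨h1.imp (e x h2).2 (e y h3).2, h2, h3⟩⟩

theorem cellL_za (hp : Par N n w p m) (hj : j < m) :
    9 * (n : ℤ) ≤ za n w p j ∧ za n w p j + 12 * w ≤ 16 * n := by
  obtain ⟨-, -, h3, h4, -⟩ := hp
  have h5 : (j + 1) * p * w ≤ 7 * n :=
    (Nat.mul_le_mul_right w (Nat.mul_le_mul_right p hj)).trans h4
  have h6 : 12 * w ≤ (j + 1) * p * w :=
    Nat.mul_le_mul_right w (h3.trans (Nat.le_mul_of_pos_left p j.succ_pos))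
  have h7 : (((j + 1) * p * w : ℕ) : ℤ) = (j + 1) * p * w := by push_cast; rfl
  unfold za
  omega

theorem cellL_rh (hp : Par N n w p m) (hj : j < m) (x : V) :
    rh (yc n w (za n w p j) x) w ⊆ Pcs n w := fun y hy => by
  obtain ⟨h1, h2⟩ := cellL_za hp hj
  have h3 := hp.2.1
  rw [mem_rh] at hy
  simp only [Pcs, Q, mem_ofPred_eq, mem_rh, Prod.fst_zero, Prod.snd_zero, Int.abs_eq_natAbs]
  simp only [yc] at hy
  split_ifs at hy <;> omega

theorem cellL_sees (hp : Par N n w p m) (hj : j < m) (h : ∀ x ∈ Pcs n w, H' x = H x) (x : V) :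
    Sees w (yc n w (za n w p j) x) H' = Sees w (yc n w (za n w p j) x) H := by
  funext k
  simp only [Sees, Long, cellL_conn fun y hy => h y (cellL_rh hp hj x hy)]

theorem cellL_kap (hp : Par N n w p m) (hj : j < m) (h : ∀ x ∈ Pcs n w, H' x = H x) :
    kap n w (za n w p j) H' = kap n w (za n w p j) H := by
  funext x
  unfold kap
  rw [cellL_sees hp hj h]

theorem cellL_wp (hp : Par N n w p m) {x : V}
    (hx : x ∈ Pcs n w ∨ ∃ j < m, x ∈ Mg n w (za n w p j)) : x ∈ ⋃ i, wp n w i := by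
  have h3 := hp.2.1
  have k : x ∈ Q n ∧ ((2 * n + 2 * w : ℤ) ≤ |x.2| ∨ (|x.2| ≤ 2 * n - w ∧ (8 * n : ℤ) ≤ |x.1|)) := by
    rcases hx with hx | ⟨j, hj, hx⟩
    · exact ⟨hx.1, by have := hx.2; omega⟩
    · obtain ⟨h1, h2⟩ := cellL_za hp hj
      simp only [Mg, Zb, Ch, mem_ofPred_eq, Int.abs_eq_natAbs] at hx
      simp only [Q, mem_rh, Prod.fst_zero, Prod.snd_zero, Int.abs_eq_natAbs]
      omega
  rw [mem_iUnion]
  obtain ⟨k1, k2 | ⟨k2, k3⟩⟩ := k
  · rcases le_abs'.1 k2 with k4 | k4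
    · exact ⟨1, k1, k4⟩
    · exact ⟨0, k1, k4⟩
  · rcases le_abs'.1 k3 with k4 | k4
    · exact ⟨2, k1, k2, k4⟩
    · exact ⟨3, k1, k2, k4⟩

theorem cellL_nm {x : V} (h : H ∈ mun N x) : nm x H = H := by
  funext y
  have h1 := h.1
  have h2 := h.2.1
  unfold nm
  omega

theorem cellL (h : ReachL) : CellL := by
  have _ := h
  intro N n w p m hp
  refine ⟨fun H hH H' hH' e => ?_, fun H H' e j hj => ?_⟩
  · have e1 : ∀ x ∈ ⋃ i, wp n w i, H' x = H x := fun x hx => by
      simpa only [lab2, res, if_pos hx, cellL_nm hH, cellL_nm hH'] using congrFun e x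
    have e2 : ∀ x ∈ Pcs n w, H' x = H x := fun x hx => e1 x (cellL_wp hp (Or.inl hx))
    have e3 : ∀ j < m, PW n w (za n w p j) H' = PW n w (za n w p j) H := fun j hj => by
      have e3 : ∀ x ∈ Pcs n w ∪ Mg n w (za n w p j), H' x = H x := fun x hx =>
        e1 x (cellL_wp hp (hx.imp_right fun k => ⟨j, hj, k⟩))
      simp only [PW, reach, cellL_kap hp hj e2, cellL_conn e3]
    have e4 : ⋃ j < m, PW n w (za n w p j) H' = ⋃ j < m, PW n w (za n w p j) H :=
      iUnion₂_congr e3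
    refine Prod.ext (funext fun j => ?_) (funext fun x => ?_)
    · exact ite_congr rfl (e3 j) fun _ => rfl
    · simp only [lab3, res, e4]
      split_ifs with hx
      · refine e1 x (cellL_wp hp (hx.imp_right fun k => ?_))
        obtain ⟨j, hj, k⟩ := mem_iUnion₂.1 k
        exact ⟨j, hj, k.1⟩
      · rfl
  · have e1 : PW n w (za n w p j) H' = PW n w (za n w p j) H := by
      simpa only [lab3, if_pos hj] using congrFun (congrArg Prod.fst e) j
    have e2 : ∀ x ∈ Pcs n w, H' x = H x := fun x hx => by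
      simpa only [lab3, res, mem_union, hx, true_or, if_true] using
        congrFun (congrArg Prod.snd e) x
    refine ⟨cellL_kap hp hj e2, e1, ?_⟩
    simp only [GoodW, e1, cellL_sees hp hj e2]

theorem kapL (h : HexU) : KapL := by
  intro n w a H x k hw hk
  have h0 : ∃ k, Sees w (yc n w a x) H k := ⟨k, hk⟩
  have e : ∀ l, Sees w (yc n w a x) H l →
      ¬ Long (both (big (fun _ => 4 * l) 0 H)) (rh (yc n w a x) w) w :=
    fun l hl ⟨u, v, h1, h2⟩ => hl ⟨u, v, h1, h2.mono (fun _ _ k => Or.inl k.1) le_rfl⟩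
  have h1 := abs_le.1 (h H _ w 0 0 _ _ hw (e _ h0.choose_spec) (e k hk))
  rw [kap, dif_pos h0]
  omega

end Vale.Agent.P153.Seal
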