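import Vale.Agent.P153.Seal.Stm2

/-! Module Seal of P153: the conditional covariance is small. -/

open Set Filter

namespace Vale.Agent.P153.Seal

theorem cov_exp {c t d : ℝ} (hc : 0 < c) (ht : 0 < t) (hd : 0 < d) :
    ∀ᶠ m : ℕ in atTop, Real.exp (-(c * t * m / 2)) ≤ d := by
  have h1 : Tendsto (fun m : ℕ => c * t * m / 2) atTop atTop :=
    (tendsto_natCast_atTop_atTop.const_mul_atTop (mul_pos hc ht)).atTop_div_const two_pos
  exact (Real.tendsto_exp_neg_atTop_nhds_zero.comp h1).eventually (ge_mem_nhds hd)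

theorem cov_par {θ n N p m : ℕ} (h1 : 20 ≤ θ) (h2 : m * p ≤ θ) (h3 : 12 ≤ p) (h4 : 1 ≤ n / θ)
    (h5 : 40 * n + 2 ≤ N) : Par N n (n / θ) p m := by
  have h6 : θ * (n / θ) ≤ n := Nat.mul_div_le n θ
  have h7 := Nat.mul_le_mul_right (n / θ) h1
  have h8 := Nat.mul_le_mul_right (n / θ) h2
  exact ⟨h4, by omega, h3, by omega, h5⟩

/-- averaging a two-copy bound over the cells -/
theorem cov_tower {ι : Type} (S : Set Cfg) (l : Cfg → ι) (u : Cfg → ℝ) (ψ : Cfg → Cfg → ℝ)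
    (h : ∀ H ∈ S, u H ≤ 2 * Ex (S ∩ {H' | l H' = l H}) fun K =>
      Ex (S ∩ {H' | l H' = l H}) (ψ K)) :
    Ex S u ≤ 2 * Ex S fun K => Ex (S ∩ {H' | l H' = l K}) (ψ K) := by
  rw [tower S l fun K => Ex (S ∩ {H' | l H' = l K}) (ψ K), ← Ex_mul_left]
  refine Ex_mono fun H hH => (h H hH).trans (le_of_eq ?_)
  congr 1
  exact Ex_congr fun K hK => by rw [show l K = l H from hK.2]

theorem cov (h1 : GoodLLN) (h2 : BadB) (h3 : BadBar) (h4 : CellB) (h5 : CovNum) (h6 : CellL)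
    (h7 : NormL) : Cov := by
  have _ := h7
  intro e he
  obtain ⟨t, ht, h1⟩ := h1
  obtain ⟨η, hη, hη'⟩ : ∃ η : ℝ, 0 < η ∧ η + 8 * η / t = e ^ 2 / 8 :=
    ⟨e ^ 2 / 8 / (1 + 8 / t), by positivity, by field_simp⟩
  obtain ⟨M, h2⟩ := h2 (η / 2) (half_pos hη)
  obtain ⟨c, hc, hc1, h4⟩ := h4 M
  obtain ⟨p, h1, hp⟩ := ((h1 η hη).and (eventually_ge_atTop 12)).exists
  obtain ⟨m, h1, hm, hm1⟩ := (h1.and ((cov_exp hc ht (show 0 < e ^ 2 / 8 by positivity)).and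
    (eventually_ge_atTop 1))).exists
  filter_upwards [eventually_ge_atTop 20, eventually_ge_atTop (m * p)] with θ t1 t2
  filter_upwards [(Nat.tendsto_div_const_atTop (show θ ≠ 0 by omega)).eventually
    (h4.and (eventually_ge_atTop 2))] with n ⟨h4, hw⟩
  filter_upwards [h1 n (n / θ), h2 n (n / θ) p m hw, eventually_ge_atTop (40 * n + 2)]
    with N h1 h2 hN
  have hP : Par N n (n / θ) p m := cov_par t1 t2 hp (by omega) hN
  refine ⟨p, m, hP, fun X Φ hX hΦ hΦ1 => ?_⟩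
  by_cases hS : Good (mun N (bp n 0))
  swap
  · refine le_trans (le_of_eq ?_) (mul_nonneg he.le (Real.sqrt_nonneg _))
    by_cases hf : (mun N (bp n 0)).Finite
    · rw [not_nonempty_iff_eq_empty.1 fun h => hS ⟨hf, h⟩, Ex_empty]
    · exact Ex_inf hf _
  have k1 := h5 (mun N (bp n 0)) (lab3 n (n / θ) p m) m
    (fun j H => GoodW n (n / θ) (za n (n / θ) p j) H) (fun j H => Bbar N n (n / θ) p m M j H) X c t η
    hS hc hc1 ht hη.le hm1 (fun H _ H' _ e j hj => ((h6 N n (n / θ) p m hP).2 H H' e j hj).2.2)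
    (h1 hP) fun j hj => (h3 N n (n / θ) p m M j hP hj).trans (by linarith [h2 hP j hj])
  have k2 : √(Real.exp (-(c * t * m / 2)) + η + 8 * η / t) ≤ e / 2 :=
    Real.sqrt_le_iff.2 ⟨by positivity, by nlinarith⟩
  have k3 := mul_le_mul_of_nonneg_left k2
    (Real.sqrt_nonneg (Ex (mun N (bp n 0)) fun H => X H ^ 2))
  refine (cov_tower _ (lab3 n (n / θ) p m) _ _
    fun H hH => h4 N n p m H X Φ hP hH hX hΦ hΦ1).trans ?_
  linarith

end Vale.Agent.P153.Seal
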