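import Vale.Agent.P153.Seal.Stm2

/-! P153, module Seal: averaging the two-copy bound. -/

open Set Filter

namespace Vale.Agent.P153.Seal

namespace CovNum

open Classical in
theorem cnt (m : ℕ) (P : ℕ → Prop) :
    (({j | j < m ∧ P j}.ncard : ℕ) : ℝ) = ∑ j ∈ Finset.range m, if P j then 1 else 0 := by
  rw [Finset.sum_boole, ← ncard_coe_finset]
  congr 2
  ext j
  simp

theorem split {m : ℕ} {g b : ℕ → Cfg → Prop} {H H' : Cfg} (h : ∀ j < m, (g j H' ↔ g j H)) :
    (({j | j < m ∧ g j H}.ncard : ℕ) : ℝ) ≤ ({j | j < m ∧ g j H ∧ b j H ∧ b j H'}.ncard : ℕ) +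
      ∑ j ∈ Finset.range m, {K | g j K ∧ ¬ b j K}.indicator (1 : Cfg → ℝ) H +
      ∑ j ∈ Finset.range m, {K | g j K ∧ ¬ b j K}.indicator (1 : Cfg → ℝ) H' := by
  rw [cnt, cnt, ← Finset.sum_add_distrib, ← Finset.sum_add_distrib]
  refine Finset.sum_le_sum fun j hj => ?_
  have := h j (Finset.mem_range.1 hj)
  by_cases h1 : g j H <;> by_cases h2 : b j H <;> by_cases h3 : b j H' <;>
    simp [indicator, h1, h2, h3, this]

theorem num {c s G u u' a : ℝ} {J : ℕ} (hc : 0 < c) (hc' : c ≤ 1) (hs : 0 < s) (hu : 0 ≤ u)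
    (hu' : 0 ≤ u') (ha : 0 ≤ a) (hG : G < s → a = 1) (h : G ≤ J + u + u') :
    (1 - c) ^ J ≤ Real.exp (-(c * s / 2)) + a + 4 / s * u + 4 / s * u' := by
  have h1 : (1 - c) ^ J ≤ 1 := pow_le_one₀ (by linarith) (by linarith)
  have h2 := Real.exp_pos (-(c * s / 2))
  have h3 : 0 ≤ 4 / s * u := by positivity
  have h4 : 0 ≤ 4 / s * u' := by positivity
  have h5 : ∀ x, s / 4 ≤ x → 1 ≤ 4 / s * x := fun x hx => by
    rw [div_mul_eq_mul_div, le_div_iff₀ hs]
    linarith
  rcases lt_or_ge G s with k1 | k1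
  · linarith [hG k1]
  rcases le_or_gt (s / 4) u with k2 | k2
  · linarith [h5 u k2]
  rcases le_or_gt (s / 4) u' with k3 | k3
  · linarith [h5 u' k3]
  have h6 : (1 - c) ^ J ≤ Real.exp (-(c * s / 2)) := by
    refine (pow_le_pow_left₀ (by linarith) (Real.one_sub_le_exp_neg c) J).trans ?_
    rw [← Real.exp_nat_mul, Real.exp_le_exp]
    have : c * (s / 2) ≤ c * J := mul_le_mul_of_nonneg_left (by linarith) hc.le
    linarith
  linarith

end CovNum

theorem covNum : CovNum := by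
  intro ι S l m g b X c t η hS hc hc' ht hη hm hg hA hB
  have hm' : (0 : ℝ) < m := by exact_mod_cast hm
  have hs : 0 < t * m := mul_pos ht hm'
  have good : ∀ H ∈ S, Good (S ∩ {H' | l H' = l H}) := fun H hH =>
    ⟨hS.1.inter_of_left _, H, hH, rfl⟩
  let u : Cfg → ℝ := fun H => ∑ j ∈ Finset.range m, {K | g j K ∧ ¬ b j K}.indicator 1 H
  have hu : ∀ H, 0 ≤ u H := fun H => Finset.sum_nonneg fun _ _ => ind_nonneg _ _
  have hEu : 4 / (t * m) * Ex S u ≤ 4 * η / t := by
    have h1 : Ex S u ≤ m * η := by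
      rw [Ex_sum]
      refine (Finset.sum_le_sum fun j hj => hB j (Finset.mem_range.1 hj)).trans_eq ?_
      simp
    refine (mul_le_mul_of_nonneg_left h1 (by positivity)).trans_eq ?_
    field_simp
  simp only [Ex_mul_left]
  refine (le_abs_self _).trans ((abs_Ex_mul_le S _ _).trans ?_)
  simp only [sq_abs]
  refine mul_le_mul_of_nonneg_left (Real.sqrt_le_sqrt ?_) (Real.sqrt_nonneg _)
  have key : ∀ H ∈ S, (Ex (S ∩ {H' | l H' = l H}) fun H' =>
      (1 - c) ^ {j | j < m ∧ g j H ∧ b j H ∧ b j H'}.ncard) ^ 2 ≤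
      Real.exp (-(c * (t * m) / 2)) +
        {H | (({j | j < m ∧ g j H}.ncard : ℝ)) < t * m}.indicator 1 H + 4 / (t * m) * u H +
        4 / (t * m) * Ex (S ∩ {H' | l H' = l H}) u := by
    intro H hH
    refine (pow_le_of_le_one (Ex_nonneg fun _ _ => pow_nonneg (by linarith) _)
      (Ex_le' zero_le_one fun _ _ => pow_le_one₀ (by linarith) (by linarith)) two_ne_zero).trans ?_
    rw [← Ex_mul_left, ← Ex_const (good H hH) (Real.exp _ + _ + _), ← Ex_add]
    exact Ex_mono fun H' h' => CovNum.num hc hc' hs (hu H) (hu H') (ind_nonneg _ _)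
      (fun h => by simp [indicator, h]) (CovNum.split (hg H hH H' h'.1 h'.2))
  refine (Ex_mono key).trans ?_
  rw [Ex_add, Ex_add, Ex_add, Ex_mul_left, Ex_mul_left, ← tower, Ex_const hS, ← mul_assoc c]
  have e : 8 * η / t = 4 * η / t + 4 * η / t := by ring
  unfold Pr at hA
  linarith

end Vale.Agent.P153.Seal
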