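import Vale.Agent.P153.Seal.Stm2

/-! Exploration of star clusters and counting of two-valued regions. -/

open Set Filter

namespace Vale.Agent.P153.Seal

namespace ReachLAux

variable {E : V → V → Prop} {O A : Set V}

theorem step {x y : V} (hx : x ∈ A) (hy : y ∈ O ∪ reach E O A) (h : Adj y x) (he : E y x) :
    x ∈ reach E O A := by
  rcases hy with hy | ⟨hy, z, hz, hc⟩
  · exact ⟨hx, y, hy, Relation.ReflTransGen.single ⟨h, he, Or.inl hy, Or.inr hx⟩⟩
  · exact ⟨hx, z, hz, Relation.ReflTransGen.tail hc ⟨h, he, Or.inr hy, Or.inr hx⟩⟩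

theorem ind (hd : Disjoint O A) {P : Set V}
    (h : ∀ x ∈ A, ∀ y ∈ O ∪ reach E O A ∩ P, Adj y x → E y x → x ∈ P) : reach E O A ⊆ P := by
  rintro x ⟨hx, z, hz, hc⟩
  have h1 : x ∈ O ∪ reach E O A ∩ P := by
    clear hx
    induction hc with
    | refl => exact Or.inl hz
    | tail _ h2 ih =>
      rcases h2.2.2.2 with h3 | h3
      · exact Or.inl h3
      · exact Or.inr ⟨step h3 (ih.imp_right And.left) h2.1 h2.2.1, h _ h3 _ ih h2.1 h2.2.1⟩
  rcases h1 with h1 | h1
  · exact absurd hx (Set.disjoint_left.1 hd h1)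
  · exact h1.2

theorem out {B : Set V} {x y : V} (hx : x ∈ A) (hx' : x ∉ reach (star B) O A)
    (hy : y ∈ O ∪ reach (star B) O A) (h : Adj x y) : x ∉ B ∧ y ∉ B :=
  ⟨fun h1 => hx' (step hx hy h.symm (Or.inr h1)), fun h1 => hx' (step hx hy h.symm (Or.inl h1))⟩

theorem two {W : Set V} {K : Cfg} (hK : K ∈ free W 0) {x y : V} (hy : y ∉ W) (h : Adj x y) :
    K x = 0 ∨ K x = 1 := by
  by_cases hx : x ∈ W
  · simpa using hK.2.2 x ⟨hx, y, hy, h⟩
  · exact Or.inl (hK.2.1 x hx)

open Classical in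
/-- put the value one on `T` -/
noncomputable def put (z : Set V × Cfg) : Cfg := fun x => if x ∈ z.1 then 1 else z.2 x

theorem put_two {T : Set V} {K : Cfg} {x : V} (h : K x = 0 ∨ K x = 1) :
    put (T, K) x = 0 ∨ put (T, K) x = 1 := by
  unfold put
  split_ifs
  · exact Or.inr rfl
  · exact h

end ReachLAux

open ReachLAux

theorem reachL : ReachL := by
  intro O A κ M H H' hd
  refine ⟨fun x hx hx' y hy h => out hx hx' hy h, fun he => ⟨fun e x hx hx' ⟨y, hy, h⟩ => ?_,
    fun h => ?_⟩⟩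
  · rw [← e] at hx' hy
    exact (out hx hx' hy h).1
  have h1 : ∀ x ∈ A, ∀ y ∈ O ∪ reach (star (big κ M H)) O A, Adj y x →
      (y ∈ big κ M H' ↔ y ∈ big κ M H) := fun x hx y hy hxy => by
    have h2 : H' y = H y := he y (hy.imp_left fun h2 =>
      ⟨⟨Set.disjoint_left.1 hd h2, x, hx, hxy⟩, h2⟩)
    simp only [big, mem_ofPred_eq, h2]
  refine Subset.antisymm (ind hd fun x hx y hy hxy hE => ?_) (ind hd fun x hx y hy hxy hE => ?_)
  · have h2 : y ∈ O ∪ reach (star (big κ M H)) O A := hy.imp_right And.right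
    by_contra h3
    rcases hE with h4 | h4
    · exact (out hx h3 h2 hxy.symm).2 ((h1 x hx y h2 hxy).1 h4)
    · exact h x hx h3 ⟨y, h2, hxy.symm⟩ h4
  · have h2 : y ∈ O ∪ reach (star (big κ M H)) O A := hy.imp_right And.left
    refine step hx (hy.imp_right And.right) hxy (hE.imp (h1 x hx y h2 hxy).2 fun h3 => ?_)
    have h4 : H' x = H x := he x (Or.inr (step hx h2 hxy hE))
    simpa only [big, mem_ofPred_eq, h4] using h3

theorem count : Count := by
  intro U D R hU hR
  have h1 : BijOn put (𝒫 R ×ˢ freeD (U \ R) D)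
      {H | H ∈ freeD U D ∧ ∀ x ∈ R ∪ obd R, H x = 0 ∨ H x = 1} := by
    refine ⟨?_, ?_, ?_⟩
    · rintro ⟨T, K⟩ ⟨hT, hK, hD⟩
      have h2 : ∀ x y, Adj x y → y ∈ T → K x = 0 ∨ K x = 1 := fun x y h hy =>
        two hK (fun h3 => h3.2 (hT hy)) h
      refine ⟨⟨⟨fun x y h => ?_, fun x hx => ?_, fun x ⟨_, y, hy, h⟩ => ?_⟩,
        fun x hx => put_two (hD x hx)⟩, fun x hx => put_two ?_⟩
      · unfold put
        split_ifs with h3 h4 h4
        · simp
        · rcases h2 y x h.symm h3 with h5 | h5 <;> simp [h5]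
        · rcases h2 x y h h4 with h5 | h5 <;> simp [h5]
        · exact hK.1 x y h
      · unfold put
        rw [if_neg fun h3 => hx (hR (hT h3))]
        exact hK.2.1 x fun h3 => hx h3.1
      · rw [zero_add]
        exact put_two (two hK (fun h3 => hy h3.1) h)
      · rcases hx with hx | ⟨_, y, hy, h⟩
        · exact Or.inl (hK.2.1 x fun h3 => h3.2 hx)
        · exact two hK (fun h3 => h3.2 hy) h
    · have h2 : ∀ T K T' K', T ⊆ R → K' ∈ free (U \ R) 0 → put (T, K) = put (T', K') → T ⊆ T' := by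
        intro T K T' K' hT hK e x hx
        by_contra h3
        have h4 := congrFun e x
        have h5 := hK.2.1 x fun h5 => h5.2 (hT hx)
        simp [put, hx, h3, h5] at h4
      rintro ⟨T, K⟩ ⟨hT, hK, -⟩ ⟨T', K'⟩ ⟨hT', hK', -⟩ e
      obtain rfl : T = T' := Subset.antisymm (h2 _ _ _ _ hT hK' e) (h2 _ _ _ _ hT' hK e.symm)
      refine Prod.ext rfl (funext fun x => ?_)
      by_cases hx : x ∈ T
      · exact (hK.2.1 x fun h5 => h5.2 (hT hx)).trans (hK'.2.1 x fun h5 => h5.2 (hT hx)).symm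
      · simpa [put, hx] using congrFun e x
    · rintro H ⟨⟨hH, hD⟩, h2⟩
      have h3 : ∀ x y, x ∈ U \ R → y ∉ U \ R → Adj x y → H x = 0 ∨ H x = 1 := fun x y hx hy h => by
        by_cases h4 : y ∈ R
        · exact h2 x (Or.inr ⟨hx.2, y, h4, h⟩)
        · exact two hH (fun h5 => hy ⟨h5, h4⟩) h
      refine ⟨({x | x ∈ R ∧ H x = 1}, res (U \ R) H), ⟨fun x hx => hx.1, ⟨fun x y h => ?_,
        fun x hx => if_neg hx, fun x ⟨hx, y, hy, h⟩ => ?_⟩, fun x hx => ?_⟩, funext fun x => ?_⟩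
      · dsimp only [res]
        split_ifs with h4 h5 h5
        · exact hH.1 x y h
        · rcases h3 x y h4 h5 h with h6 | h6 <;> simp [h6]
        · rcases h3 y x h5 h4 h.symm with h6 | h6 <;> simp [h6]
        · simp
      · dsimp only [res]
        rw [if_pos hx, zero_add]
        exact h3 x y hx hy h
      · dsimp only [res]
        split_ifs
        · exact hD x hx
        · exact Or.inl rfl
      · dsimp only [put, res]
        split_ifs with h4 h5
        · exact h4.2.symm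
        · rfl
        · by_cases h6 : x ∈ R
          · exact ((h2 x (Or.inl h6)).resolve_right fun h7 => h4 ⟨h6, h7⟩).symm
          · exact (hH.2.1 x fun h7 => h5 ⟨h7, h6⟩).symm
  rw [← h1.ncard_eq, ncard_prod, ncard_powerset _ (hU.subset hR)]
  push_cast
  rfl

end Vale.Agent.P153.Seal
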