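import Vale.Agent.P153.Seal.Small
import Vale.Agent.P153.Seal.ReachL

/-! The cross ratio bound of the module Seal. -/

open Set Filter

namespace Vale.Agent.P153.Seal

namespace CrossX

theorem nb00 {H : Cfg} {x : V} : x ∉ big 0 0 H ↔ H x = 0 ∨ H x = 1 := by
  rw [not_big0]; simp

/-- The unexplored part of `W`. -/
def Un (W : Set V) (H : Cfg) : Set V := W \ reach (star (big 0 0 H)) Wᶜ W

/-- The cell of the exploration. -/
def cell (W D : Set V) (H : Cfg) : Set Cfg :=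
  {H' | H' ∈ fill (Un W H) H ∧ ∀ x ∈ D ∪ ibd (Un W H), x ∈ Un W H → x ∉ big 0 0 H'}

variable {U W D R : Set V} {H H' : Cfg}

theorem not_un {x : V} (hx : x ∉ Un W H) : x ∈ Wᶜ ∪ reach (star (big 0 0 H)) Wᶜ W := by
  by_cases h : x ∈ W
  · exact Or.inr (by_contra fun h' => hx ⟨h, h'⟩)
  · exact Or.inl h

theorem not_un' {x : V} (hx : x ∈ Wᶜ ∪ reach (star (big 0 0 H)) Wᶜ W) : x ∉ Un W H :=
  fun h => hx.elim (fun h' => h' h.1) h.2

theorem edge (h3 : ReachL) {x y : V} (hx : x ∈ Un W H) (hy : y ∉ Un W H) (h : Adj x y) :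
    x ∉ big 0 0 H ∧ y ∉ big 0 0 H :=
  (h3 Wᶜ W 0 0 H H disjoint_compl_left).1 x hx.1 hx.2 y (not_un hy) h

theorem un_eq (h3 : ReachL) (h : H' ∈ cell W D H) : Un W H' = Un W H := by
  have e := ((h3 Wᶜ W 0 0 H H' disjoint_compl_left).2 fun x hx =>
    h.1.2 x (not_un' (hx.imp_left And.right))).2 fun x hx hx' ⟨y, hy, hxy⟩ =>
      h.2 x (Or.inr ⟨⟨hx, hx'⟩, y, not_un' hy, hxy⟩) ⟨hx, hx'⟩
  rw [Un, e, Un]

theorem cell_eq (h3 : ReachL) (h : H' ∈ cell W D H) : cell W D H' = cell W D H := by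
  ext K
  simp only [cell, un_eq h3 h, fill, mem_ofPred_eq]
  refine and_congr_left fun _ => and_congr_right fun _ => forall₂_congr fun x hx => ?_
  rw [h.1.2 x hx]

theorem self_mem (h3 : ReachL) (hH : H ∈ freeD U D) : H ∈ cell W D H := by
  refine ⟨⟨hH.1.1, fun _ _ => rfl⟩, fun x hx hx' => ?_⟩
  rcases hx with hx | ⟨-, y, hy, hxy⟩
  · exact nb00.2 (hH.2 x hx)
  · exact (edge h3 hx' hy hxy).1

theorem cell_sub (hW : W ⊆ U) (hH : H ∈ freeD U D) : cell W D H ⊆ freeD U D := by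
  intro K hK
  have hn : ∀ y, y ∉ U → y ∉ Un W H := fun y hy h => hy (hW h.1)
  refine ⟨⟨hK.1.1, fun x hx => (hK.1.2 x (hn x hx)).trans (hH.1.2.1 x hx), fun x hx => ?_⟩,
    fun x hx => ?_⟩
  · by_cases h : x ∈ Un W H
    · obtain ⟨-, y, hy, hxy⟩ := hx
      simpa using nb00.1 (hK.2 x (Or.inr ⟨h, y, hn y hy, hxy⟩) h)
    · rw [hK.1.2 x h]
      exact hH.1.2.2 x hx
  · by_cases h : x ∈ Un W H
    · exact nb00.1 (hK.2 x (Or.inl hx) h)
    · rw [hK.1.2 x h]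
      exact hH.2 x hx

theorem cell_ge (h2 : MonoD) (h3 : ReachL) (h4 : LocB) (hW : W.Finite) (hH : Lip H)
    (hR : R ⊆ Un W H) :
    Pr (freeD W D) {K | ∀ x ∈ R ∪ obd R, K x = 0 ∨ K x = 1} ≤
      Pr (cell W D H) {K | ∀ x ∈ R ∪ obd R, K x = 0 ∨ K x = 1} := by
  have hb : ∀ y ∈ obd (Un W H), y ∉ big 0 0 H := fun y ⟨hy, x, hx, hxy⟩ =>
    (edge h3 hx hy hxy.symm).2
  have bij := h4 (Un W H) D 0 H (hW.subset fun _ h => h.1) hH (fun _ _ _ _ => rfl) hb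
  refine (h2 (Un W H) W D D _ hW (fun _ h => h.1) Subset.rfl).trans ?_
  rw [← Pr_bij bij]
  refine Pr_mono fun K hK hT x hx => ?_
  by_cases h : x ∈ Un W H
  · have := hT x hx
    simp only [res_in h, Pi.zero_apply, sub_zero] at this
    exact this
  · rcases hx with hx | ⟨-, y, hy, hxy⟩
    · exact absurd (hR hx) h
    · rw [hK.1.2 x h]
      exact nb00.1 (hb x ⟨h, y, hR hy, hxy⟩)

/-- The lower bound of the ratio. -/
theorem low (h2 : MonoD) (h3 : ReachL) (h4 : LocB) {r : ℕ} (hU : U.Finite) (hW : W ⊆ U)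
    (hR : R ⊆ W) (hfar : ∀ x ∈ R, ∀ y ∈ U, y ∉ W → r ≤ nrm (x - y)) :
    Pr (freeD W D) {K | ∀ x ∈ R ∪ obd R, K x = 0 ∨ K x = 1} *
        Pr (freeD U D) {K | ¬ Long (star (big 0 0 K)) univ r} ≤
      Pr (freeD U D) {K | ∀ x ∈ R ∪ obd R, K x = 0 ∨ K x = 1} := by
  have key := Pr_tower_ge (S := freeD U D) (E := {K | R ⊆ Un W K})
    (E' := {K | ∀ x ∈ R ∪ obd R, K x = 0 ∨ K x = 1}) (cell W D)
    (fun H hH => ⟨self_mem h3 hH, cell_sub hW hH⟩) (fun H _ H' h' => cell_eq h3 h')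
    (fun H _ hE H' h' => by
      show R ⊆ Un W H'
      rw [un_eq h3 h']
      exact hE)
    fun H hH hE => cell_ge h2 h3 h4 (hU.subset hW) hH.1.1 hE
  refine le_trans (mul_le_mul_of_nonneg_left (Pr_mono fun K hK hL => ?_) (Pr_nonneg _ _))
    (key.trans (Pr_mono fun K _ h => h.2))
  intro x hx
  refine ⟨hR hx, fun ⟨hxW, y, hy, hc⟩ => hL ?_⟩
  obtain ⟨u, v, -, huv, hE, -, hu, -, -, hc'⟩ := hc.last (B := Wᶜ) hy fun h => h hxW
  have huU : u ∈ U := by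
    by_contra hn
    rcases hE with hE | hE
    · exact nb00.2 (Or.inl (hK.1.2.1 u hn)) hE
    · exact nb00.2 (ReachLAux.two hK.1 hn huv.symm) hE
  exact ⟨u, x, hfar x hx u huU hu,
    Conn.head huv hE trivial trivial (hc'.monoA (subset_univ _))⟩

end CrossX

open CrossX in
theorem cross (h1 : Count) (h2 : MonoD) (h3 : ReachL) (h4 : LocB) : Cross := by
  intro Z D Za Zc Zm r c hZ ha hm hc hd hfar c0 hG
  refine ⟨fun A => 2 ^ (Za \ A).ncard /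
      Pr (freeD (Zm \ A) D) {K | ∀ x ∈ (Za \ A) ∪ obd (Za \ A), K x = 0 ∨ K x = 1},
    fun B => (freeD (Z \ (Za ∪ B)) D).ncard, fun A hA B hB => ?_⟩
  have hU : (Z \ (A ∪ B)).Finite := hZ.subset sdiff_subset
  have hW : Zm \ A ⊆ Z \ (A ∪ B) := fun x hx =>
    ⟨hm hx.1, fun h => h.elim hx.2 fun h => Set.disjoint_left.1 hd hx.1 (hB h)⟩
  have hR : Za \ A ⊆ Zm \ A := sdiff_subset_sdiff_left ha
  have e : (Z \ (A ∪ B)) \ (Za \ A) = Z \ (Za ∪ B) := by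
    ext x
    have := @hA x
    simp only [Set.mem_sdiff, mem_union]
    tauto
  have hcnt := h1 (Z \ (A ∪ B)) D (Za \ A) hU (hR.trans hW)
  rw [e] at hcnt
  have g := good_freeD hU D
  have g0 := good_freeD (hU.subset hW) D
  have g1 := good_freeD (hZ.subset (sdiff_subset (t := Za ∪ B))) D
  have hup := h2 (Zm \ A) (Z \ (A ∪ B)) D D ((Za \ A) ∪ obd (Za \ A)) hU hW Subset.rfl
  have hlow := low (D := D) h2 h3 h4 (r := r) hU hW hR fun x hx y hy hy' => by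
    have := hfar x hx.1 y hy.1 fun h => hy' ⟨h, fun h' => hy.2 (Or.inl h')⟩
    rw [nrm_sub_comm]
    omega
  have hc' := hG (Z \ (A ∪ B)) sdiff_subset
  have hp := Pr_eq g.1 {K | ∀ x ∈ (Za \ A) ∪ obd (Za \ A), K x = 0 ∨ K x = 1}
  have hp0 : 0 < Pr (freeD (Zm \ A) D) {K | ∀ x ∈ (Za \ A) ∪ obd (Za \ A), K x = 0 ∨ K x = 1} :=
    Pr_pos g0.1 (H₀ := fun _ => 0)
      ⟨⟨lip_const 0, fun _ _ => rfl, fun _ _ => Or.inl rfl⟩, fun _ _ => Or.inl rfl⟩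
      fun _ _ => Or.inl rfl
  have hM := g.card_pos
  have hv := g1.card_pos
  rw [eq_div_iff hM.ne'] at hp
  have hcnt' : ((freeD (Z \ (A ∪ B)) D ∩
      {K | ∀ x ∈ (Za \ A) ∪ obd (Za \ A), K x = 0 ∨ K x = 1}).ncard : ℝ) =
      2 ^ (Za \ A).ncard * (freeD (Z \ (Za ∪ B)) D).ncard := hcnt
  rw [hcnt'] at hp
  beta_reduce
  rw [div_mul_eq_mul_div, ← hp]
  generalize Pr (freeD (Zm \ A) D) {K | ∀ x ∈ (Za \ A) ∪ obd (Za \ A), K x = 0 ∨ K x = 1} = p0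
    at *
  generalize Pr (freeD (Z \ (A ∪ B)) D)
    {K | ∀ x ∈ (Za \ A) ∪ obd (Za \ A), K x = 0 ∨ K x = 1} = p at *
  have k1 : p0 * c ≤ p := (mul_le_mul_of_nonneg_left hc' hp0.le).trans hlow
  have k2 : 0 < p := (mul_pos hp0 c0).trans_le k1
  refine ⟨by positivity, ?_, ?_⟩
  · rw [div_le_iff₀ hp0, mul_comm]
    exact mul_le_mul_of_nonneg_left hup hM.le
  · rw [le_div_iff₀ hp0, mul_right_comm, mul_comm c]
    exact mul_le_mul_of_nonneg_right k1 hM.le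

end Vale.Agent.P153.Seal
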