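import Vale.Agent.P153.Seal.Stm2

/-! From bounded ends to band ends. -/

open Set Filter

namespace Vale.Agent.P153.Seal

namespace RLowX

theorem pin_cell (S : Set Cfg) (R : Set V) :
    (∀ H ∈ S, H ∈ pin S R H ∧ pin S R H ⊆ S) ∧
      ∀ H ∈ S, ∀ H' ∈ pin S R H, pin S R H' = pin S R H := by
  refine ⟨fun H h => ⟨⟨h, fun _ _ => rfl⟩, fun _ h => h.1⟩, fun H _ H' h' => ?_⟩
  ext K
  exact and_congr_right fun _ => forall₂_congr fun x hx => by rw [h'.2 x hx]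

theorem Pr_all {ι : Type} [DecidableEq ι] {S : Set Cfg} (hS : Good S) (U : ι → Set V)
    (E : ι → Set Cfg) {c : ℝ} (hc : 0 ≤ c) (h1 : ∀ q, ∀ H ∈ S, c ≤ Pr (pin S (U q)ᶜ H) (E q))
    (h2 : ∀ q q', q ≠ q' → DepOn (fun H => H ∈ E q') (U q)ᶜ) (s : Finset ι) :
    c ^ s.card ≤ Pr S {H | ∀ q ∈ s, H ∈ E q} := by
  induction s using Finset.induction_on with
  | empty => simp [Pr_univ hS]
  | insert q s hq ih =>
    rw [Finset.card_insert_of_notMem hq, pow_succ']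
    have := Pr_tower_ge (S := S) (E := {H | ∀ q ∈ s, H ∈ E q}) (E' := E q) (c := c)
      (fun H => pin S (U q)ᶜ H) (pin_cell S _).1 (pin_cell S _).2 (fun H _ hE K hK q' hq' => by
        have := h2 q q' (fun e => hq (e ▸ hq')) K H hK.2
        exact (Eq.to_iff this).2 (hE q' hq')) (fun H hH _ => h1 q H hH)
    refine (mul_le_mul_of_nonneg_left ih hc).trans (this.trans (Pr_mono fun H _ h q' hq' => ?_))
    rcases Finset.mem_insert.1 hq' with rfl | hq'
    · exact h.2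
    · exact h.1 q' hq'

theorem conn_dep {κ : V → ℤ} {M : ℕ} {H H' : Cfg} {A : Set V} {a b : V}
    (h : ∀ x ∈ A, H x = H' x) (hc : Conn (star (big κ M H)) A a b) :
    Conn (star (big κ M H')) A a b :=
  hc.mono' fun u v _ hE hu hv => ⟨by
    simp only [star, big, mem_ofPred_eq] at hE ⊢
    rwa [← h u hu, ← h v hv], hu, hv⟩

/-- explored set together with its frontier -/
def Lay (κ : V → ℤ) (M : ℕ) (O Z : Set V) (H : Cfg) : Set V :=
  {x | x ∈ Z ∧ (x ∈ reach (star (big κ M H)) O Z ∨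
    ∃ y ∈ O ∪ reach (star (big κ M H)) O Z, Adj x y)}

/-- the frontier -/
def Fr (κ : V → ℤ) (M : ℕ) (O Z : Set V) (H : Cfg) : Set V :=
  {x | x ∈ Z ∧ x ∉ reach (star (big κ M H)) O Z ∧
    ∃ y ∈ O ∪ reach (star (big κ M H)) O Z, Adj x y}

theorem lay_eq (h4 : ReachL) {κ : V → ℤ} {M : ℕ} {O Z : Set V} (hd : Disjoint O Z) {H H' : Cfg}
    (h : ∀ x ∈ (Z \ Lay κ M O Z H)ᶜ, H' x = H x) : Lay κ M O Z H' = Lay κ M O Z H := by
  obtain ⟨r1, r2⟩ := h4 O Z κ M H H' hd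
  have e : reach (star (big κ M H')) O Z = reach (star (big κ M H)) O Z := by
    refine (r2 fun x hx => h x fun hx' => ?_).2 fun x hx hn hy => ?_
    · rcases hx with hx | hx
      · exact hx.1.1 hx'.1
      · exact hx'.2 ⟨hx'.1, Or.inl hx⟩
    · obtain ⟨y, hy, ha⟩ := hy
      have h1 := (r1 x hx hn y hy ha).1
      have h2 := h x fun hx' => hx'.2 ⟨hx, Or.inr ⟨y, hy, ha⟩⟩
      simp only [big, mem_ofPred_eq] at h1 ⊢
      rwa [h2]
  simp only [Lay, e]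

/-- The abstract form of the estimate. -/
theorem core (h4 : ReachL) {S : Set Cfg} {O I Z P D Za Zc Zm : Set V} {κ : V → ℤ} {r : ℕ}
    (hZ : Zone S O I Z P D Za Zc Zm κ r) {H : Cfg}
    (hpin : pin S Zᶜ H = {H' | H' ∈ fill Z H ∧ ∀ x ∈ D, x ∈ Z → x ∉ big κ 0 H'})
    (qd : V → Bool × Bool) (k : Bool × Bool → ℤ) (hq : ∀ x ∈ Z, ∀ y, Adj x y → qd y = qd x)
    (hk : ∀ x, κ x = k (qd x)) (M : ℕ) (Near T : Set V) (hT : Disjoint T Near) {c : ℝ}
    (hc : 0 ≤ c)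
    (hs : ∀ (k : ℤ) (U P : Set V) (H : Cfg), U.Finite → Disjoint U P → P ⊆ Near →
      (∀ y ∈ obd U, (y ∈ P ∧ y ∉ big (fun _ => k) M H) ∨
        (y ∉ big (fun _ => k) 0 H ∧ ∀ x ∈ U, Adj x y → x ∈ D)) →
      {H' | H' ∈ fill U H ∧ ∀ x ∈ D, x ∈ U → x ∉ big (fun _ => k) 0 H'}.Nonempty →
      c ≤ Pr {H' | H' ∈ fill U H ∧ ∀ x ∈ D, x ∈ U → x ∉ big (fun _ => k) 0 H'}
        {H' | ¬ ∃ a ∈ P, ∃ b ∈ T, Conn (star (big (fun _ => k) 0 H')) (U ∪ P) a b}) :
    c ^ 4 * Pr (pin S Zᶜ H) {H' | Lay κ M (O ∪ I) Z H' ⊆ Near} ≤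
      Pr (pin S Zᶜ H) {H' | ∀ u ∈ Z, (∃ y ∈ O ∪ I, Adj u y) → ∀ b ∈ T,
        ¬ Conn (star (big κ 0 H')) Z u b} := by
  have hd : Disjoint (O ∪ I) Z := (hZ.dZ.mono_right subset_union_left).symm
  set S' := pin S Zᶜ H with hS'
  have hfin : S'.Finite := hZ.good.1.subset fun _ h => h.1
  refine (Pr_tower_ge (S := S') (fun K => pin S' (Z \ Lay κ M (O ∪ I) Z K)ᶜ K)
    (fun K h => ⟨⟨h, fun _ _ => rfl⟩, fun _ h => h.1⟩) (fun K _ K' h' => ?_)
    (fun K _ hK K' h' => ?_) (fun K hK hN => ?_)).trans (Pr_mono fun _ _ h => h.2)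
  · have e := lay_eq h4 hd h'.2
    ext G
    simp only [pin, mem_ofPred_eq, e]
    exact and_congr_right fun _ => forall₂_congr fun x hx => by rw [h'.2 x hx]
  · show Lay κ M (O ∪ I) Z K' ⊆ Near
    rw [lay_eq h4 hd h'.2]
    exact hK
  set L := Lay κ M (O ∪ I) Z K with hL
  set F := Fr κ M (O ∪ I) Z K with hF
  have hFL : F ⊆ L := fun x hx => ⟨hx.1, Or.inr hx.2.2⟩
  have hfr : ∀ u ∈ L, ∀ v ∈ Z \ L, Adj v u → u ∈ F := fun u hu v hv ha =>
    ⟨hu.1, fun h => hv.2 ⟨hv.1, Or.inr ⟨u, Or.inr h, ha⟩⟩,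
      hu.2.resolve_left fun h => hv.2 ⟨hv.1, Or.inr ⟨u, Or.inr h, ha⟩⟩⟩
  have hS1 : Good (pin S' (Z \ L)ᶜ K) := ⟨hfin.subset fun _ h => h.1, K, hK, fun _ _ => rfl⟩
  have key := Pr_all hS1 (fun q => (Z \ L) ∩ {x | qd x = q})
    (fun q => {H' | ¬ ∃ a ∈ F, ∃ b ∈ T,
      Conn (star (big (fun _ => k q) 0 H')) ((Z \ L) ∩ {x | qd x = q} ∪ F) a b}) hc
    (fun q G hG => ?_) (fun q q' hqq G G' hGG => ?_) Finset.univ
  · refine (le_of_eq (by simp)).trans (key.trans (Pr_mono fun G _ hG u hu hy b hb hcon => ?_))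
    have huL : u ∈ L := ⟨hu, Or.inr (hy.imp fun y h => ⟨Or.inl h.1, h.2⟩)⟩
    have hbL : b ∉ L := fun h => disjoint_left.1 hT hb (hN h)
    obtain ⟨u', v', -, k2, k3, -, k5, k6, k7, k8⟩ := hcon.last huL hbL
    have hu' := hfr u' k5 v' ⟨k6, k7⟩ k2.symm
    have st : ∀ s t, s ∈ Z → Adj s t → qd s = qd v' → star (big κ 0 G) s t →
        star (big (fun _ => k (qd v')) 0 G) s t := fun s t hs ha e hE => by
      simp only [star, big, mem_ofPred_eq, hk, hq s hs t ha, e] at hE ⊢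
      exact hE
    refine hG (qd v') (Finset.mem_univ _) ⟨u', hu', b, hb, Conn.head k2
      (star_symm _ _ _ (st v' u' k6 k2.symm rfl (star_symm _ _ _ k3))) (Or.inr hu')
      (Or.inl ⟨⟨k6, k7⟩, rfl⟩) ?_⟩
    refine (k8.ind (P := fun b => qd b = qd v' ∧ Conn (star (big (fun _ => k (qd v')) 0 G))
      ((Z \ L) ∩ {x | qd x = qd v'} ∪ F) v' b) ⟨rfl, .rfl⟩ fun s t _ ha hE hs ht ih => ?_).2
    have e : qd t = qd v' := (hq s hs.1 t ha).trans ih.1
    exact ⟨e, ih.2.tail ha (st s t hs.1 ha ih.1 hE) (Or.inl ⟨hs, ih.1⟩) (Or.inl ⟨ht, e⟩)⟩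
  · have hG' := hG.1
    rw [hpin] at hG'
    have e : pin (pin S' (Z \ L)ᶜ K) ((Z \ L) ∩ {x | qd x = q})ᶜ G =
        {H' | H' ∈ fill ((Z \ L) ∩ {x | qd x = q}) G ∧
          ∀ x ∈ D, x ∈ (Z \ L) ∩ {x | qd x = q} → x ∉ big (fun _ => k q) 0 H'} := by
      ext G'
      constructor
      · intro h
        have h' := h.1.1
        rw [hpin] at h'
        refine ⟨⟨h'.1.1, h.2⟩, fun x hx hx' => ?_⟩
        have := h'.2 x hx hx'.1.1
        simp only [big, mem_ofPred_eq, hk, show qd x = q from hx'.2] at this ⊢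
        exact this
      · intro h
        refine ⟨⟨?_, fun x hx => (h.1.2 x fun h' => hx h'.1).trans (hG.2 x hx)⟩, h.1.2⟩
        rw [hpin]
        refine ⟨⟨h.1.1, fun x hx => (h.1.2 x fun h' => hx h'.1.1).trans (hG'.1.2 x hx)⟩,
          fun x hx hx' => ?_⟩
        by_cases hx2 : x ∈ (Z \ L) ∩ {x | qd x = q}
        · have := h.2 x hx hx2
          simp only [big, mem_ofPred_eq, hk, show qd x = q from hx2.2] at this ⊢
          exact this
        · have := hG'.2 x hx hx'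
          simp only [big, mem_ofPred_eq, h.1.2 x hx2] at this ⊢
          exact this
    rw [e]
    refine hs (k q) _ F G (hZ.fin.subset fun _ h => h.1.1)
      (disjoint_left.2 fun x hx hx' => hx.1.2 (hFL hx')) (hFL.trans hN) (fun y hy => ?_)
      (e ▸ ⟨G, hG, fun _ _ => rfl⟩)
    obtain ⟨hy1, x, hx, ha⟩ := hy
    have ey : qd y = q := (hq x hx.1.1 y ha.symm).trans hx.2
    by_cases hyZ : y ∈ Z
    · have hyL : y ∈ L := by
        by_contra h
        exact hy1 ⟨⟨hyZ, h⟩, ey⟩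
      have hyF := hfr y hyL x hx.1 ha.symm
      refine Or.inl ⟨hyF, ?_⟩
      obtain ⟨y', hy', ha'⟩ := hyF.2.2
      have h1 := ((h4 (O ∪ I) Z κ M K K hd).1 y hyZ hyF.2.1 y' hy' ha').1
      have h2 := hG.2 y fun h => h.2 hyL
      simp only [big, mem_ofPred_eq, hk, ey, h2] at h1 ⊢
      exact h1
    · have hyP : y ∈ P := by
        rcases hZ.cover y with h | h | h | h
        · exact absurd ⟨hx.1.1, Or.inr ⟨y, Or.inl (Or.inl h), ha.symm⟩⟩ hx.1.2
        · exact absurd ⟨hx.1.1, Or.inr ⟨y, Or.inl (Or.inr h), ha.symm⟩⟩ hx.1.2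
        · exact absurd h hyZ
        · exact h
      refine Or.inr ⟨?_, fun x' hx' ha' => (hZ.wall G hG.1.1 x' hx'.1.1 y hyP ha').1⟩
      have h1 := (hZ.wall G hG.1.1 x hx.1.1 y hyP ha.symm).2
      simp only [big, mem_ofPred_eq, hk, ey] at h1 ⊢
      exact h1
  · have hsub : ∀ x ∈ (Z \ L) ∩ {x | qd x = q'} ∪ F, G x = G' x := fun x hx => hGG x fun h => by
      rcases hx with hx | hx
      · exact hqq (h.2.symm.trans hx.2)
      · exact h.1.2 (hFL hx)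
    apply propext
    exact not_congr ⟨fun ⟨a, ha, b, hb, h⟩ => ⟨a, ha, b, hb, conn_dep hsub h⟩,
      fun ⟨a, ha, b, hb, h⟩ => ⟨a, ha, b, hb, conn_dep (fun x hx => (hsub x hx).symm) h⟩⟩

theorem both_of_star {κ : V → ℤ} {M : ℕ} {H : Cfg} (hl : Lip H) {u v : V} (ha : Adj u v)
    (e : κ u = κ v) (h : star (big κ (M + 1) H) u v) : both (big κ M H) u v := by
  have := abs_le.1 (hl u v ha)
  simp only [star, both, big, mem_ofPred_eq, e] at h ⊢
  push_cast at h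
  omega

/-- the ends of the zone -/
def Near (w : ℕ) (a : ℤ) : Set V := {x | 2 * a + 19 * w ≤ 2 * |x.1| ∨ 2 * |x.1| ≤ 2 * a + w}

/-- the two barrier columns -/
def Col (n w : ℕ) (a : ℤ) : Set V := {x | Ch n w x ∧ (|x.1| = a + 8 * w ∨ |x.1| = a + 2 * w)}

theorem nbr_ends {n w : ℕ} {a : ℤ} (hw : 1 ≤ w) (hn : 20 * w ≤ n) (ha : a + 12 * w ≤ 16 * n)
    {u v : V} (hu : u ∈ OutS n w a ∪ InS n w a) (hv : v ∈ Zb n w a) (h : Adj v u) :
    a + 10 * w < |u.1| ∨ |u.1| < a := by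
  rcases hu with (hu | hu) | hu
  · exfalso
    apply hu
    simp only [Q, mem_rh, Prod.fst_zero, Prod.snd_zero]
    simp only [Zb, Ch, mem_ofPred_eq, Int.abs_eq_natAbs] at hv
    rw [adj_iff] at h
    omega
  · exact Or.inl hu.2
  · exact Or.inr hu.2.2

theorem lay_near {n w M : ℕ} {a : ℤ} (hw : 1 ≤ w) (hn : 20 * w ≤ n) (ha : a + 12 * w ≤ 16 * n)
    {κ : V → ℤ} {Z : Set V} (hZ : Z ⊆ Zb n w a) (hk : ∀ x ∈ Z, ∀ y, Adj x y → κ y = κ x)
    (hd : Disjoint (OutS n w a ∪ InS n w a) Z) {H : Cfg} (hl : Lip H)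
    (hB : ¬ Long (both (big κ M H)) (nb (Zb n w a) 1) (w / 2)) :
    Lay κ (M + 1) (OutS n w a ∪ InS n w a) Z H ⊆ Near w a := by
  have h1 : ∀ x ∈ reach (star (big κ (M + 1) H)) (OutS n w a ∪ InS n w a) Z,
      2 * a + 19 * w + 2 ≤ 2 * |x.1| ∨ 2 * |x.1| + 2 ≤ 2 * a + w := by
    rintro x ⟨hx, y, hy, hc⟩
    obtain ⟨u, v, -, k2, k3, -, k5, k6, k7, k8⟩ := hc.last hy fun h => disjoint_left.1 hd h hx
    have hv : v ∈ Z := k6.resolve_left k7
    have hnb : ∀ s ∈ Z, s ∈ nb (Zb n w a) 1 := fun s hs => ⟨s, hZ hs, by simp⟩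
    have c : Conn (both (big κ M H)) (nb (Zb n w a) 1) u x :=
      Conn.head k2 (both_of_star hl k2 (hk v hv u k2.symm) k3)
        ⟨v, hZ hv, (adj_iff_nrm.1 k2.symm).le⟩ (hnb v hv) (k8.mono' fun s t ha hE hs ht =>
          ⟨both_of_star hl ha (hk s (hs.1.resolve_left hs.2) t ha).symm hE,
            hnb s (hs.1.resolve_left hs.2), hnb t (ht.1.resolve_left ht.2)⟩)
    have h2 : nrm (x - u) ≤ w / 2 - 1 ∧ 1 ≤ w / 2 := by
      have : ¬ w / 2 ≤ nrm (x - u) := fun h => hB ⟨u, x, h, c⟩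
      omega
    have h3 := nbr_ends hw hn ha k5 (hZ hv) k2.symm
    have h4 := nrm_sub_le_iff.1 h2.1
    simp only [Int.abs_eq_natAbs] at h3 ⊢
    omega
  rintro x ⟨hx, h | ⟨y, hy | hy, hxy⟩⟩
  · have := h1 x h
    simp only [Near, mem_ofPred_eq]
    omega
  · have := nbr_ends hw hn ha hy (hZ hx) hxy
    rw [adj_iff] at hxy
    simp only [Near, mem_ofPred_eq, Int.abs_eq_natAbs] at this ⊢
    omega
  · have := h1 y hy
    rw [adj_iff] at hxy
    simp only [Near, mem_ofPred_eq, Int.abs_eq_natAbs] at this ⊢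
    omega

/-- centres of the covering balls -/
def ctr (n w s K : ℕ) (a : ℤ) : Finset V :=
  ({a + 8 * w, -(a + 8 * w), a + 2 * w, -(a + 2 * w)} : Finset ℤ) ×ˢ
    ((Finset.range K).image (fun i : ℕ => (2 * n - 4 * w + i * s : ℤ)) ∪
      (Finset.range K).image (fun i : ℕ => -(2 * n - 4 * w + i * s : ℤ)))

theorem ctr_card (n w s K : ℕ) (a : ℤ) : (ctr n w s K a).card ≤ 8 * K := by
  rw [ctr, Finset.card_product]
  have h1 : ({a + 8 * w, -(a + 8 * w), a + 2 * w, -(a + 2 * w)} : Finset ℤ).card ≤ 4 :=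
    Finset.card_le_four
  have h2 := Finset.card_union_le ((Finset.range K).image (fun i : ℕ => (2 * n - 4 * w + i * s : ℤ)))
    ((Finset.range K).image (fun i : ℕ => -(2 * n - 4 * w + i * s : ℤ)))
  have h3 := Finset.card_image_le (s := Finset.range K)
    (f := fun i : ℕ => (2 * n - 4 * w + i * s : ℤ))
  have h4 := Finset.card_image_le (s := Finset.range K)
    (f := fun i : ℕ => -(2 * n - 4 * w + i * s : ℤ))
  rw [Finset.card_range] at h3 h4
  calc _ ≤ 4 * (K + K) := Nat.mul_le_mul h1 (by omega)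
    _ = _ := by ring

theorem ctr_cover {n w s K : ℕ} {a : ℤ} (hs : 1 ≤ s) (hK : 9 * w ≤ K * s) :
    ∀ x ∈ Col n w a, ∃ y ∈ ctr n w s K a, x ∈ hex y s := by
  rintro x ⟨⟨h1, h2⟩, h3⟩
  obtain ⟨d, hd⟩ : ∃ d : ℕ, |x.2| = 2 * n - 4 * w + d := ⟨(|x.2| - (2 * n - 4 * w)).toNat, by omega⟩
  have hi : d / s < K := by
    rw [Nat.div_lt_iff_lt_mul hs]
    omega
  have e1 := Nat.div_add_mod d s
  have e2 := Nat.mod_lt d hs
  have e3 : (((d / s : ℕ) : ℤ) * s) + (d % s : ℕ) = d := by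
    rw [mul_comm]; exact_mod_cast e1
  have hx1 : x.1 ∈ ({a + 8 * w, -(a + 8 * w), a + 2 * w, -(a + 2 * w)} : Finset ℤ) := by
    simp only [Finset.mem_insert, Finset.mem_singleton, Int.abs_eq_natAbs] at h3 ⊢
    omega
  rcases le_total 0 x.2 with h | h
  · refine ⟨(x.1, 2 * n - 4 * w + (d / s : ℕ) * s), Finset.mem_product.2 ⟨hx1,
      Finset.mem_union_left _ (Finset.mem_image.2 ⟨d / s, Finset.mem_range.2 hi, rfl⟩)⟩, ?_⟩
    rw [abs_of_nonneg h] at hd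
    rw [mem_hex, nrm_sub_le_iff]
    simp only
    generalize ((d / s : ℕ) : ℤ) * s = t at e3 ⊢
    omega
  · refine ⟨(x.1, -(2 * n - 4 * w + (d / s : ℕ) * s)), Finset.mem_product.2 ⟨hx1,
      Finset.mem_union_right _ (Finset.mem_image.2 ⟨d / s, Finset.mem_range.2 hi, rfl⟩)⟩, ?_⟩
    rw [abs_of_nonpos h] at hd
    rw [mem_hex, nrm_sub_le_iff]
    simp only
    generalize ((d / s : ℕ) : ℤ) * s = t at e3 ⊢
    omega

theorem ctr_far {n w s K ρ : ℕ} {a : ℤ} (hw : 1 ≤ w) (ha : 0 ≤ a) (hρ : ρ ≤ w) :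
    ∀ y ∈ ctr n w s K a, Disjoint (hex y ρ) (Near w a) := by
  intro y hy
  have h1 := (Finset.mem_product.1 hy).1
  simp only [Finset.mem_insert, Finset.mem_singleton] at h1
  refine disjoint_left.2 fun v hv hv' => ?_
  rw [mem_hex, nrm_sub_le_iff] at hv
  simp only [Near, mem_ofPred_eq, Int.abs_eq_natAbs] at hv'
  omega

/-- quadrant -/
def qd (x : V) : Bool × Bool := (decide (0 ≤ x.1), decide (0 ≤ x.2))

theorem kap_qd (n w : ℕ) (a : ℤ) (H : Cfg) (x : V) :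
    kap n w a H x = kap n w a H (if (qd x).1 then 0 else -1, if (qd x).2 then 0 else -1) := by
  have : yc n w a x = yc n w a (if (qd x).1 then 0 else -1, if (qd x).2 then 0 else -1) := by
    by_cases h1 : 0 ≤ x.1 <;> by_cases h2 : 0 ≤ x.2 <;> simp [yc, qd, h1, h2]
  unfold kap
  rw [this]

theorem lip_abs (u v : V) (h : Adj u v) : |(|u.1|) - (|v.1|)| ≤ 1 :=
  (abs_abs_sub_abs_le _ _).trans (lip_fst u v h)

end RLowX

open RLowX in
theorem rLow (h1 : ScrC) (h2 : ZoneGeo) (h3 : RBar) (h4 : ReachL) (_h5 : KapL) (h6 : CellL) :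
    RLow := by
  intro M
  obtain ⟨C, c, hc, hs⟩ := h1 (M + 1)
  refine ⟨(min c 1 ^ (8 * (18 * (C + 1)))) ^ 4, by positivity, ?_⟩
  filter_upwards [eventually_ge_atTop (C + 1)] with w hw N n p m j H₀ H hP hj hH₀ hG hH
  have hZ := h2 N n w p m j H₀ hP hj hH₀ hG
  obtain ⟨hw1, hn, hp, hm, -⟩ := id hP
  set a := za n w p j with ha
  have ha1 : a + 12 * w ≤ 16 * n ∧ 9 * n ≤ a := by
    have e1 : 12 * w ≤ (j + 1) * p * w := Nat.mul_le_mul_right w (by nlinarith)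
    have e2 : (j + 1) * p * w ≤ m * p * w :=
      Nat.mul_le_mul_right w (Nat.mul_le_mul_right p hj)
    have e3 : a = 16 * n - ((j + 1) * p * w : ℕ) := by rw [ha, za]; push_cast; ring
    omega
  have hpin := (h3 _ _ _ _ _ _ _ _ _ _ _ (fun _ => 0) hZ (fun _ _ _ _ _ => rfl)
    (fun F G _ _ => by simp [Ex_zero])).2.2 H hH
  set s := w / (C + 1) with hs'
  have s1 : 1 ≤ s := (Nat.le_div_iff_mul_le (by omega)).2 (by omega)
  have s2 : C * s ≤ w := (Nat.mul_le_mul_right s (Nat.le_succ C)).trans (Nat.mul_div_le w (C + 1))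
  have s3 : 9 * w ≤ 18 * (C + 1) * s := by
    have e1 := Nat.div_add_mod w (C + 1)
    have e2 := Nat.mod_lt w (show 0 < C + 1 by omega)
    have e3 : (C + 1) * 1 ≤ (C + 1) * s := Nat.mul_le_mul_left _ s1
    rw [← hs'] at e1
    rw [mul_assoc]
    omega
  have hZb : Zf n w a H₀ ⊆ Zb n w a := fun _ h => h.1
  have key := core h4 hZ hpin qd
    (fun q => kap n w a H₀ (if q.1 then 0 else -1, if q.2 then 0 else -1))
    (fun x hx y hxy => by
      have := hZb hx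
      simp only [Zb, Ch, mem_ofPred_eq, Int.abs_eq_natAbs] at this
      rw [adj_iff] at hxy
      simp only [qd, Prod.mk.injEq, decide_eq_decide]
      omega) (kap_qd n w a H₀) (M + 1) (Near w a) (Col n w a)
    (disjoint_left.2 fun x hx hx' => by
      have := hx.2
      simp only [Near, mem_ofPred_eq] at hx'
      omega) (c := min c 1 ^ (8 * (18 * (C + 1)))) (by positivity)
    (fun k U P G hU hd hPN hb hne => by
      refine le_trans ?_ (hs k s U (Df n w a H₀) P (Col n w a) G (ctr n w s (18 * (C + 1)) a) s1 hU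
        hd hb (ctr_cover s1 s3)
        (fun y hy => (ctr_far hw1 (by omega) s2 y hy).mono_right hPN) hne)
      exact (pow_le_pow_of_le_one (by positivity) (min_le_right _ _) (ctr_card _ _ _ _ _)).trans
        (pow_le_pow_left₀ (by positivity) (min_le_left _ _) _))
  refine (mul_le_mul_of_nonneg_left (Pr_mono fun G hG' hB => ?_) (by positivity)).trans
    (key.trans (Pr_mono fun G _ hG' => ⟨?_, ?_⟩))
  · have e := ((h6 N n w p m hP).2 H₀ G hG'.1.2 j hj).1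
    simp only [mem_ofPred_eq, BB] at hB
    rw [← ha] at e
    rw [e] at hB
    exact lay_near hw1 hn ha1.1 hZb hZ.hkap (hZ.dZ.mono_right subset_union_left).symm
      (hZ.lip G hG'.1) hB
  · rintro x ⟨hx, y, hy, hcon⟩
    by_contra hx'
    have dO : Disjoint (Zf n w a H₀) (OutS n w a) :=
      hZ.dZ.mono_right (subset_union_left.trans subset_union_left)
    obtain ⟨u, v, -, k2, -, -, k5, k6, k7, k8⟩ := hcon.last hy fun h => disjoint_left.1 dO hx h
    have hv := k6.resolve_left k7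
    have k9 := k8.monoA (A' := Zf n w a H₀) fun s hs => hs.1.resolve_left hs.2
    have hva := (hZ.nO u k5 v hv k2).2
    have hxa : ¬ a + 8 * w < |x.1| := fun h => hx' ⟨hx, h⟩
    obtain ⟨b, b1, b2, -⟩ := k9.first (φ := fun v => -|v.1|) (lip_neg lip_abs)
      (t := -(a + 8 * w)) (by omega) (by omega)
    have b3 := b2.monoA inter_subset_left
    exact hG' v hv ⟨u, Or.inl k5, k2.symm⟩ b ⟨(hZb (b3.mem hv)).1, Or.inl (by omega)⟩ b3
  · rintro x ⟨hx, y, hy, hcon⟩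
    by_contra hx'
    have dI : Disjoint (Zf n w a H₀) (InS n w a) :=
      hZ.dZ.mono_right (subset_union_right.trans subset_union_left)
    obtain ⟨u, v, -, k2, -, -, k5, k6, k7, k8⟩ := hcon.last hy fun h => disjoint_left.1 dI hx h
    have hv := k6.resolve_left k7
    have k9 := k8.monoA (A' := Zf n w a H₀) fun s hs => hs.1.resolve_left hs.2
    have hva := (hZ.nI u k5 v hv k2).2
    have hxa : ¬ |x.1| < a + 2 * w := fun h => hx' ⟨hx, h⟩
    obtain ⟨b, b1, b2, -⟩ := k9.first (φ := fun v => |v.1|) lip_abs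
      (t := a + 2 * w) (by omega) (by omega)
    have b3 := b2.monoA inter_subset_left
    exact hG' v hv ⟨u, Or.inr k5, k2.symm⟩ b ⟨(hZb (b3.mem hv)).1, Or.inr b1⟩ b3

end Vale.Agent.P153.Seal
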