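import Vale.Agent.P153.Seal.Small
import Vale.Agent.P153.Seal.RLow

/-! The core contiguity bound. -/

open Set Filter

namespace Vale.Agent.P153.Seal

theorem nb_step {W : Set V} {d e : ℕ} {x y : V} (hx : x ∈ nb W d) (h : nrm (y - x) ≤ e) :
    y ∈ nb W (d + e) := by
  obtain ⟨z, hz, h1⟩ := hx
  exact ⟨z, hz, (nrm_tri z x y).trans (add_le_add h1 h)⟩

theorem nb_le {W : Set V} {d d' : ℕ} (h : d ≤ d') : nb W d ⊆ nb W d' :=
  fun _ ⟨z, hz, h1⟩ => ⟨z, hz, h1.trans h⟩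

theorem sub_nb (W : Set V) (d : ℕ) : W ⊆ nb W d := fun x hx => ⟨x, hx, by simp⟩

theorem nb_hex {W : Set V} {c : V} {R : ℕ} (h : W ⊆ hex c R) (d : ℕ) : nb W d ⊆ hex c (R + d) :=
  fun y ⟨z, hz, h1⟩ => (nrm_tri c z y).trans (add_le_add (h hz) h1)

theorem nb_adj {W : Set V} {d : ℕ} {x y : V} (hx : x ∈ nb W d) (h : Adj x y) : y ∈ nb W (d + 1) :=
  nb_step hx (adj_iff_nrm.1 h).le

theorem obd_nb {W : Set V} {d : ℕ} : obd (nb W d) ⊆ nb W (d + 1) :=
  fun _ ⟨_, _, hx, h⟩ => nb_adj hx h.symm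

theorem big_eq (H : Cfg) : {z | 3 ≤ ab 0 H z} = big 0 0 H := by
  ext z
  rw [← not_iff_not, not_big0, mem_ofPred_eq, ab_ne_one, ab_eq_one]
  rfl

theorem mem_Rch0 {St : Set V} {H : Cfg} {x : V} :
    x ∈ Rch St (eA 0) H ↔ ∃ y ∈ St, Conn (star (big 0 0 H)) univ y x := by
  rw [Rch_eA, big_eq]; rfl

theorem big_shift0 (k : ℤ) (M : ℕ) (H : Cfg) :
    big (fun _ => k) M (fun y => H y + k) = big 0 M H := by
  ext z
  simp only [big, mem_ofPred_eq, Pi.zero_apply]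
  omega

theorem fill_shift (U : Set V) (H : Cfg) (k : ℤ) :
    BijOn (fun K y => K y + k) (fill U fun y => H y + -k) (fill U H) := by
  refine ⟨fun K hK => ⟨lip_add hK.1 k, fun x hx => by simp [hK.2 x hx]⟩, fun K _ K' _ e => ?_,
    fun K hK => ⟨fun y => K y + -k, ⟨lip_add hK.1 _, fun x hx => by simp only [hK.2 x hx]⟩,
      by simp⟩⟩
  funext y
  simpa using congrFun e y

theorem freeIn_fill (U : Set V) (H : Cfg) : FreeIn (fill U H) U :=
  ⟨fun _ h => h.1, fun _ hH _ hK e => ⟨hK, fun x hx => (e x hx).trans (hH.2 x hx)⟩⟩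

theorem pin_fill {S : Set Cfg} {B U : Set V} (h : FreeIn S B) (hU : U ⊆ B) {H : Cfg} (hH : H ∈ S) :
    pin S Uᶜ H = fill U H := h.pin_eq (by simpa using hU) hH

open RLowX in
theorem ct0_A (h5 : ReachL) {A T Nr : Set V} (hA : A.Finite) {S E : Set Cfg} (hF : FreeIn S A)
    {M : ℕ} {c : ℝ} (hE : DepOn (· ∈ E) Aᶜ) (hT : T ⊆ A) (hTN : Disjoint T Nr)
    (hs : ∀ (U P : Set V) (H : Cfg), Lip H → U.Finite → Disjoint U P → P ⊆ Nr →
      (∀ y ∈ obd U, y ∈ P ∧ y ∉ big 0 M H) →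
      c ≤ Pr (fill U H) {H' | ¬ ∃ a ∈ P, ∃ b ∈ T, Conn (star (big 0 0 H')) (U ∪ P) a b}) :
    c * Pr S (E ∩ {H | Lay 0 M Aᶜ A H ⊆ Nr}) ≤
      Pr S (E ∩ {H | ∀ a ∈ Aᶜ, ∀ b ∈ T, ¬ Conn (star (big 0 0 H)) univ a b}) := by
  have hd : Disjoint Aᶜ A := disjoint_compl_left
  refine (Pr_tower_ge (S := S) (E := E ∩ {H | Lay 0 M Aᶜ A H ⊆ Nr}) (E' := {H | ∀ a ∈ Aᶜ, ∀ b ∈ T, ¬ Conn (star (big 0 0 H)) univ a b})
    (fun K => pin S (A \ Lay 0 M Aᶜ A K)ᶜ K)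
    (fun K h => ⟨⟨h, fun _ _ => rfl⟩, fun _ h => h.1⟩) (fun K _ K' h' => ?_)
    (fun K _ hK K' h' => ⟨?_, ?_⟩) (fun K hK hN => ?_)).trans (Pr_mono fun _ _ h => ⟨h.1.1, h.2⟩)
  · have e := lay_eq h5 hd h'.2
    ext G
    simp only [pin, mem_ofPred_eq, e]
    exact and_congr_right fun _ => forall₂_congr fun x hx => by rw [h'.2 x hx]
  · exact (hE K' K fun x hx => h'.2 x fun h => hx h.1).mpr hK.1
  · show Lay 0 M Aᶜ A K' ⊆ Nr
    rw [lay_eq h5 hd h'.2]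
    exact hK.2
  set L := Lay 0 M Aᶜ A K with hL
  set F := Fr 0 M Aᶜ A K with hF'
  have hFL : F ⊆ L := fun x hx => ⟨hx.1, Or.inr hx.2.2⟩
  have hfr : ∀ u, u ∉ A \ L → ∀ v ∈ A \ L, Adj v u → u ∈ F := fun u hu v hv ha => by
    have h1 : u ∈ A := by_contra fun h => hv.2 ⟨hv.1, Or.inr ⟨u, Or.inl h, ha⟩⟩
    have h2 : u ∉ reach (star (big 0 M K)) Aᶜ A := fun h =>
      hv.2 ⟨hv.1, Or.inr ⟨u, Or.inr h, ha⟩⟩
    exact ⟨h1, h2, (by_contra fun h => hu ⟨h1, h⟩ : u ∈ L).2.resolve_left h2⟩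
  rw [pin_fill hF sdiff_subset hK]
  refine (hs (A \ L) F K (hF.1 K hK) (hA.subset sdiff_subset)
    (disjoint_left.2 fun x hx hx' => hx.2 (hFL hx')) (hFL.trans hN.2) ?_).trans
    (Pr_mono fun G _ hG a ha b hb hc => hG ?_)
  · rintro y ⟨hy, x, hx, ha⟩
    have h1 := hfr y hy x hx ha.symm
    obtain ⟨y', hy', ha'⟩ := h1.2.2
    exact ⟨h1, ((h5 Aᶜ A 0 M K K hd).1 y h1.1 h1.2.1 y' hy' ha').1⟩
  · obtain ⟨u, v, -, k2, k3, -, k5, -, k7, k8⟩ := hc.last (B := (A \ L)ᶜ) (fun h => ha h.1)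
      (not_not.2 ⟨hT hb, fun h => disjoint_left.1 hTN hb (hN.2 h)⟩)
    have hv : v ∈ A \ L := not_not.1 k7
    have hu := hfr u k5 v hv k2.symm
    exact ⟨u, hu, b, hb, Conn.head k2 k3 (Or.inr hu) (Or.inl hv)
      (k8.monoA fun s hs => Or.inl (not_not.1 hs.2))⟩

theorem ind_two (I E : Set Cfg) : I.indicator (E.indicator (1 : Cfg → ℝ)) = (E ∩ I).indicator 1 := by
  rw [indicator_indicator, inter_comm]

theorem conf_mono {B B' : Set V} {hull : Cfg → Set V} {E : Set Cfg} (h : Conf 0 B hull E)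
    (hB : B ⊆ B') : Conf 0 B' hull E := fun H hH l => ⟨(h H hH l).1.trans hB, (h H hH l).2⟩

theorem hull_dep {W D : Set V} {E : Set Cfg} (hE : DepOn (· ∈ E) W) :
    ∀ H K : Cfg, Lip H → Lip K → H ∈ {H | Rch W (eA 0) H ⊆ D} →
      (∀ x ∈ Rch W (eA 0) H, K x = H x) → E.indicator (1 : Cfg → ℝ) K = E.indicator 1 H := by
  intro H K _ _ _ e
  have := hE K H fun x hx => e x (subset_Rch _ _ _ hx)
  exact le_antisymm (ind_mono this.mp) (ind_mono this.mpr)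

theorem ct0_B {S E : Set Cfg} {U W B D : Set V} (hS : S.Finite) (hU : U.Finite) (hF : FreeIn S U)
    (hD : D ∪ obd D ⊆ B) (hE : DepOn (· ∈ E) W) :
    Pr S ({H | Disjoint (Rch Uᶜ (eA 0) H) B} ∩ (E ∩ {H | Rch W (eA 0) H ⊆ D})) ≤
      Pr (free B 0) (E ∩ {H | Rch W (eA 0) H ⊆ D}) := by
  have dep : ∀ K K' : Cfg, (∀ x ∈ B, K' x = K x) → K ∈ E ∩ {H | Rch W (eA 0) H ⊆ D} →
      K' ∈ E ∩ {H | Rch W (eA 0) H ⊆ D} := fun K K' e hK => by
    have h1 : Rch W (eA 0) K ⊆ D := hK.2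
    refine ⟨(hE K' K fun x hx => e x (hD (Or.inl (h1 (subset_Rch _ _ _ hx))))).mpr hK.1, ?_⟩
    show Rch W (eA 0) K' ⊆ D
    rwa [Rch_eq (fun x hx => e x (hD (Or.inl (h1 hx)))) fun a ha b hb hab => ?_]
    rw [e b (hD (or_iff_not_imp_left.2 fun h => ⟨h, a, h1 ha, hab.symm⟩))]
    exact explore_out ha hb hab
  refine (explore_le Uᶜ (eA 0) (fun H _ K _ e _ h => ?_) fun H hH h => ?_).trans
    (mul_le_of_le_one_right (Pr_nonneg _ _) (Pr_le_one _ _))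
  · show Disjoint (Rch Uᶜ (eA 0) K) B
    rwa [e]
  have hB : B ⊆ (Rch Uᶜ (eA 0) H)ᶜ := subset_compl_iff_disjoint_left.2 h
  have hf : (Rch Uᶜ (eA 0) H)ᶜ.Finite := hU.subset (compl_Rch_subset _ _ _)
  rw [Pr, cell_eA hS hU hF hH (f' := (E ∩ {H | Rch W (eA 0) H ⊆ D}).indicator 1)
    fun K _ K' _ e => le_antisymm (ind_mono (dep K K' fun x hx => (e x (hB hx)).symm))
      (ind_mono (dep K' K fun x hx => e x (hB hx))), Pr, ← ind_two]
  exact ratio_lo (swp_free hB 0) (good_free (hf.subset hB) 0) (good_free hf 0) (sdA_free hf hB 0)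
    (conf_mono (conf_Rch 0 W D) (subset_union_left.trans hD)) (ind_nonneg E) (hull_dep hE)

open RLowX in
theorem lay_nb {W : Set V} {w t M : ℕ} {K : Cfg} (l : Lip K)
    (h : ¬ Long (both (big 0 M K)) (nb W (w + 1)) t) :
    Lay 0 (M + 1) (nb W w \ W)ᶜ (nb W w \ W) K ⊆ nb (nb W w \ W)ᶜ t := by
  have h1 : ∀ x ∈ reach (star (big 0 (M + 1) K)) (nb W w \ W)ᶜ (nb W w \ W),
      ∃ u ∈ (nb W w \ W)ᶜ, nrm (x - u) < t := by
    rintro x ⟨hx, y, hy, hc⟩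
    obtain ⟨u, v, -, k2, k3, -, k5, -, k7, k8⟩ := hc.last hy (not_not.2 hx)
    refine ⟨u, k5, not_le.1 fun h' => h ⟨u, x, h', Conn.head k2 (both_of_star l k2 rfl k3)
      (nb_adj (not_not.1 k7).1 k2.symm) (nb_le (by omega) (not_not.1 k7).1)
      (k8.mono' fun s t ha hE hs ht => ⟨both_of_star l ha rfl hE,
        nb_le (by omega) (not_not.1 hs.2).1, nb_le (by omega) (not_not.1 ht.2).1⟩)⟩⟩
  have h0 : 1 ≤ t := Nat.one_le_iff_ne_zero.2 fun e => h ⟨0, 0, by simp [e], Conn.rfl⟩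
  rintro x ⟨-, hx | ⟨y, hy | hy, ha⟩⟩
  · obtain ⟨u, hu, k⟩ := h1 x hx
    exact ⟨u, hu, k.le⟩
  · exact ⟨y, hy, (adj_iff_nrm.1 ha.symm).le.trans h0⟩
  · obtain ⟨u, hu, k⟩ := h1 y hy
    exact ⟨u, hu, (ha.symm.nrm_le u).trans k⟩

theorem shell_far {W : Set V} {w d e : ℕ} (h1 : e ≤ d) (h2 : d + 1 + e ≤ w) {y u : V}
    (hy : y ∈ obd (nb W d)) (hu : u ∈ (nb W w \ W)ᶜ) : e < nrm (y - u) := by
  by_contra h
  by_cases hW : u ∈ W
  · exact hy.1 ⟨u, hW, by omega⟩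
  · exact hu ⟨nb_le h2 (nb_step (obd_nb hy) (by rw [nrm_sub_comm]; omega)), hW⟩

theorem ct0 (h1 : Scr) (h2 : Gstar) (h3 : Scrn) (h5 : ReachL) : Ct0 := by
  classical
  intro M L
  obtain ⟨C, c, hc, hs⟩ := h1 (M + 1)
  obtain ⟨K, hK⟩ := h3
  obtain ⟨g, hg, hG⟩ := h2 (K * (40 * (L + 2)))
  set q := (2 * (40 * (L + 2) * (C + 1)) + 3) ^ 2
  have hc' : 0 < min c 1 ^ q := by positivity
  refine ⟨2 / (min c 1 ^ q * g), 20 * (C + 1), fun w hw W hW => ?_⟩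
  obtain ⟨t, ht⟩ : ∃ t, t = w / 20 := ⟨_, rfl⟩
  obtain ⟨r, hr⟩ : ∃ r, r = t / (C + 1) := ⟨_, rfl⟩
  have t1 : C + 1 ≤ t := by omega
  have r1 : 1 ≤ r := hr ▸ (Nat.le_div_iff_mul_le (by omega)).2 (by omega)
  have r2 : r * (C + 1) ≤ t := hr ▸ Nat.div_mul_le_self _ _
  have r3 : t < (r + 1) * (C + 1) := hr ▸ (Nat.div_lt_iff_lt_mul (by omega)).1 (Nat.lt_succ_self _)
  have hR : (L + 2) * w ≤ 40 * (L + 2) * t := by nlinarith [show w ≤ 40 * t by omega]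
  have hh : ∀ d, d ≤ 2 * w → nb W d ⊆ hex 0 ((L + 2) * w) := fun d hd =>
    (nb_hex hW d).trans (hex_mono (by nlinarith))
  have hU : (nb W w).Finite := (hex_finite _ _).subset (hh w (by omega))
  filter_upwards [hK ((L + 2) * w) (by nlinarith) 0] with N hN H k E l hE h4
  rw [← Pr_bij (fill_shift (nb W w) H (4 * k)), ← ht]
  set S := fill (nb W w) fun y => H y + -(4 * k)
  set T := obd (nb W (6 * t)) ∪ obd (nb W (13 * t))
  have far : ∀ y ∈ T, ∀ u ∈ (nb W w \ W)ᶜ, 3 * t < nrm (y - u) := fun y hy u hu =>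
    hy.elim (fun h => shell_far (by omega) (by omega) h hu)
      fun h => shell_far (by omega) (by omega) h hu
  obtain ⟨Z, z1, z2⟩ := cover 0 ((L + 2) * w) r
  have z3 : Z.card ≤ q := z1.trans (Nat.pow_le_pow_left (by
    have : (L + 2) * w / (r + 1) ≤ 40 * (L + 2) * (C + 1) :=
      Nat.div_le_of_le_mul (by nlinarith)
    omega) 2)
  have a1 := ct0_A h5 (T := T) (Nr := nb (nb W w \ W)ᶜ t) (M := M + 1) (c := min c 1 ^ q) (E := E)
    (hU.subset sdiff_subset) ((freeIn_fill (nb W w) fun y => H y + -(4 * k)).mono sdiff_subset)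
    (fun H H' e => hE H H' fun x hx => e x fun h => h.2 hx)
    (fun y hy => by_contra fun h => by simpa using far y hy y h)
    (disjoint_left.2 fun y hy ⟨u, hu, h⟩ => by have := far y hy u hu; omega)
    fun U P G lG fU dP hP hb => by
      have := hs (2 * r) U ∅ P T G (Z.filter fun z => ∃ y ∈ T, y ∈ hex z (2 * r)) (by omega) fU dP
        (fun y hy => Or.inl (hb y hy)) (fun x hx => ?_) (fun z hz => ?_)
        ⟨G, ⟨lG, fun _ _ => rfl⟩, by simp⟩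
      · simp only [mem_empty_iff_false, false_imp_iff, implies_true, and_true, ofPred_mem_eq] at this
        refine le_trans ?_ this
        calc min c 1 ^ q ≤ min c 1 ^ _ := pow_le_pow_of_le_one (by positivity) (min_le_right _ _)
              ((Finset.card_filter_le _ _).trans z3)
          _ ≤ _ := pow_le_pow_left₀ (by positivity) (min_le_left _ _) _
      · obtain ⟨z, hz, h⟩ := z2 x (hx.elim (fun h => hh _ (by omega) (obd_nb h))
          fun h => hh _ (by omega) (obd_nb h))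
        exact ⟨z, Finset.mem_filter.2 ⟨hz, x, hx, h⟩, h⟩
      · obtain ⟨y, hy, h⟩ := (Finset.mem_filter.1 hz).2
        refine disjoint_left.2 fun p hp hp' => ?_
        obtain ⟨u, hu, h'⟩ := hP hp'
        have k1 := far y hy u hu
        have k2 := nrm_tri u p y
        have k3 := nrm_tri p z y
        rw [mem_hex] at h hp
        rw [nrm_sub_comm z p] at k3
        nlinarith
  have a2 := ct0_B (S := S) (B := nb W (13 * t)) (D := nb W (6 * t)) (good_fill hU (lip_add l _)).1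
    hU (freeIn_fill _ _) (union_subset (nb_le (by omega)) (obd_nb.trans (nb_le (by omega)))) hE
  set p := Pr (free (nb W (13 * t)) 0) (E ∩ {H | Rch W (eA 0) H ⊆ nb W (6 * t)})
  have a3 := hN (E.indicator 1) (p * g) (mul_nonneg (Pr_nonneg _ _) hg.le) (ind_nonneg E)
    (fun H H' e => by
      have := hE H H' fun x hx => e x (hh 0 (by omega) (sub_nb W 0 hx))
      exact le_antisymm (ind_mono this.mp) (ind_mono this.mpr))
    (fun H => le_antisymm (ind_mono (h4 H).mp) (ind_mono (h4 H).mpr)) fun U' u1 u2 => by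
      have fU : U'.Finite := (hex_finite _ _).subset u2
      have b1 := ratio_hi (j := 0) (B := nb W (13 * t)) (hU.subset (nb_le (by omega)))
        (good_free fU 0) ((freeIn_free U' 0).mono fun x hx => ?_) (conf_Rch 0 W (nb W (6 * t)))
        (ind_nonneg E) (hull_dep hE)
      · rw [ind_two] at b1
        have b2 := hG t (by omega) 0 U' ∅ (u2.trans (hex_mono (by
          rw [mul_assoc]; exact Nat.mul_le_mul_left _ hR)))
        have b3 : freeD U' ∅ = free U' 0 := by ext; simp [freeD]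
        rw [b3] at b2
        refine le_trans (mul_le_mul_of_nonneg_left (b2.trans (Pr_mono fun G _ hG => ?_))
          (Pr_nonneg _ _)) (b1.trans (Ex_mono fun G _ => ind_mono fun h => h.1))
        refine disjoint_left.2 fun x hx hx' => hG ?_
        obtain ⟨y, hy, hc⟩ := mem_Rch0.1 hx
        refine ⟨y, x, not_lt.1 fun h => hy (nb_le (by omega) (nb_step (e := t) hx' ?_)), hc⟩
        rw [nrm_sub_comm]; exact h.le
      · have hx' := hh _ (by omega) hx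
        refine ⟨u1 (hex_mono (by omega) hx'), fun ⟨_, y, hy, ha⟩ => hy (u1 ?_)⟩
        have := ha.nrm_le 0
        rw [mem_hex] at hx' ⊢
        omega
  have a4 : Pr S ((fun K y => K y + 4 * k) ⁻¹'
      {H' | H' ∈ E ∧ ¬ Long (both (big (fun _ => 4 * k) M H')) (nb W (w + 1)) t}) ≤ _ :=
    Pr_mono (E' := E ∩ {H | RLowX.Lay 0 (M + 1) (nb W w \ W)ᶜ (nb W w \ W) H ⊆
      nb (nb W w \ W)ᶜ t}) fun G hG h =>
      ⟨(h4.shift k G).mp h.1, lay_nb hG.1 (by simpa only [big_shift0] using h.2)⟩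
  refine a4.trans ?_
  suffices a5 : _ ≤ p by
    have a6 := a1.trans a5
    rw [div_mul_eq_mul_div, le_div_iff₀ (by positivity)]
    change _ ≤ Pr _ _ at a3
    nlinarith
  refine le_trans (Pr_mono fun G _ h => ?_) a2
  refine ⟨?_, h.1, ?_⟩
  · refine disjoint_left.2 fun x hx hx' => ?_
    obtain ⟨y, hy, hc⟩ := mem_Rch0.1 hx
    obtain ⟨u, v, k1, k2, -, -, k5, -, k7, -⟩ := hc.exit (B := (nb W (13 * t))ᶜ)
      (fun h => hy (nb_le (by omega) h)) (not_not.2 hx')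
    exact h.2 y (fun h => hy h.1) u (Or.inr ⟨k5, v, not_not.1 k7, k2⟩) (k1.monoA (subset_univ _))
  · intro x hx
    by_contra hx'
    obtain ⟨y, hy, hc⟩ := mem_Rch0.1 hx
    obtain ⟨u, v, k1, k2, k3, -, k5, -, k7, -⟩ := hc.exit (sub_nb W _ hy) hx'
    exact h.2 y (fun h => h.2 hy) v (Or.inl ⟨k7, u, k5, k2.symm⟩)
      ((k1.monoA (subset_univ _)).tail k2 k3 trivial trivial)

end Vale.Agent.P153.Seal
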