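import Vale.Agent.P153.Seal.Loc

/-! The densities of the patterns are tight. -/

open Set Filter

namespace Vale.Agent.P153.Seal

namespace Ct2x

theorem comm {S T : Set Cfg} (hS : S.Finite) (hT : T.Finite) (g : Cfg → Cfg → ℝ) :
    Ex S (fun H => Ex T (g H)) = Ex T fun K => Ex S fun H => g H K := by
  simp only [Ex_eq hS, Ex_eq hT, ← Finset.sum_div]
  rw [Finset.sum_comm, div_right_comm]

/-- Markov bound for a density. -/
theorem dens {S T : Set Cfg} (hS : S.Finite) (hT : T.Finite) (ξ : Cfg → Cfg) {C : ℝ}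
    (hC : 0 < C) :
    Pr S {H | C * Pr S {K | ξ K = ξ H} < Pr T {K | ξ K = ξ H}} ≤ 1 / C := by
  have h1 := markov (S := S) (c := C)
    (E := {H | C * Pr S {K | ξ K = ξ H} < Pr T {K | ξ K = ξ H}})
    (f := fun H => Pr T {K | ξ K = ξ H} / Pr S {K | ξ K = ξ H})
    (fun H _ => div_nonneg (Pr_nonneg _ _) (Pr_nonneg _ _)) fun H hH h =>
      (le_div_iff₀ (Pr_pos (E := {K | ξ K = ξ H}) hS hH rfl)).2 (le_of_lt h)
  rw [le_div_iff₀ hC, mul_comm]
  refine h1.trans ?_
  have e : (fun H => Pr T {K | ξ K = ξ H} / Pr S {K | ξ K = ξ H}) = fun H => Ex T fun K =>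
      {H' | ξ H' = ξ K}.indicator 1 H / Pr S {H' | ξ H' = ξ K} := by
    funext H
    rw [Pr.eq_1 T, ← Ex_div]
    refine Ex_congr fun K _ => ?_
    by_cases h : ξ K = ξ H
    · simp [h]
    · simp [h, Ne.symm h]
  rw [e, comm hS hT]
  refine Ex_le' zero_le_one fun K _ => ?_
  rw [Ex_div]
  exact div_self_le_one _

theorem long_mono {k : ℤ} {M r r' : ℕ} {A A' : Set V} {H H' : Cfg} (hr : r' ≤ r) (hA : A ⊆ A')
    (e : ∀ x ∈ A, H' x = H x) (h : Long (both (big (fun _ => k) M H)) A r) :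
    Long (both (big (fun _ => k) M H')) A' r' := by
  obtain ⟨a, b, h1, h2⟩ := h
  refine ⟨a, b, hr.trans h1, h2.mono' fun u v _ h3 hu hv => ⟨⟨?_, ?_⟩, hA hu, hA hv⟩⟩
  · simpa only [big, mem_ofPred_eq, e u hu] using h3.1
  · simpa only [big, mem_ofPred_eq, e v hv] using h3.2

theorem wp_sub (n w : ℕ) (i : Fin 4) : wp n w i ⊆ hex 0 (32 * n) := by
  intro x hx
  have : x ∈ Q n := by fin_cases i <;> exact hx.1
  have := rh_subset_hex this
  rwa [← mul_assoc] at this

theorem nb_sub {n w d : ℕ} (i : Fin 4) (h : d ≤ n) : nb (wp n w i) d ⊆ hex 0 (40 * n) := by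
  rintro y ⟨x, h1, h2⟩
  have h3 := mem_hex.1 (wp_sub n w i h1)
  have := nrm_tri 0 x y
  rw [mem_hex]
  omega

theorem rh_out {n w : ℕ} (i : Fin 4) (h : w ≤ n) (h1 : 1 ≤ w) :
    ∀ x ∈ rh 0 n, x ∉ nb (wp n w i) (w - 1) := by
  rintro y hy ⟨x, h2, h3⟩
  rw [mem_rh] at hy
  rw [nrm_sub_le_iff] at h3
  simp only [Prod.fst_zero, Prod.snd_zero] at hy
  fin_cases i
  · have := h2.2; omega
  · have := h2.2; omega
  · have := h2.2.2; omega
  · have := h2.2.2; omega

theorem bp_mem {n w : ℕ} (i : Fin 4) (h : w ≤ n) : bp n i ∈ wp n w i := by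
  fin_cases i <;> simp [bp, wp, Q, mem_rh] <;> omega

theorem lab_dep {n w : ℕ} (i : Fin 4) (h : w ≤ n) : DepOn (fun H => lab1 n w H i) (wp n w i) :=
  fun H H' e => res_congr fun x hx => by simp only [nm, e x hx, e _ (bp_mem i h)]

theorem lab_inv (n w : ℕ) (i : Fin 4) : Inv4 fun H => lab1 n w H i :=
  fun H => res_congr fun x _ => by simp only [nm]; omega

theorem fill_eq {U : Set V} {H H' : Cfg} (h : H' ∈ fill U H) : fill U H' = fill U H := by
  ext K
  exact and_congr_right fun _ => forall₂_congr fun x hx => by rw [h.2 x hx]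

theorem fill_sub {U : Set V} {R N : ℕ} (hU : U ⊆ hex 0 R) (hN : R + 1 ≤ N) {H : Cfg}
    (h : H ∈ mu N) : fill U H ⊆ mu N := by
  rintro K ⟨k1, k2⟩
  refine ⟨k1, fun x hx => ?_, fun x hx => ?_⟩
  · rw [k2 x fun a => hx (hex_mono (by omega) (hU a)), h.2.1 x hx]
  · have := mem_ibd_hex.1 hx
    rw [k2 x fun a => by have := mem_hex.1 (hU a); omega]
    exact h.2.2 x hx

end Ct2x

open Ct2x in
theorem ct2 (h1 : Ct0) (h2 : LevMu) (h3 : HexU) : Ct2 := by
  intro η hη θ hθ
  obtain ⟨M, hM⟩ := h2 (η / 2) (by positivity) (1640 * θ)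
  obtain ⟨C0, w₀, hC⟩ := h1 M (96 * θ)
  refine ⟨(4 * M + 3) * (|C0| + 1) / (η / 2), by positivity, ?_⟩
  filter_upwards [eventually_ge_atTop ((w₀ + 21) * θ)] with n hn
  have w1 : w₀ + 21 ≤ n / θ := (Nat.le_div_iff_mul_le (by omega)).2 hn
  have w2 : n < θ * (n / θ + 1) := Nat.lt_mul_div_succ n (by omega)
  have w3 : n / θ ≤ n := Nat.div_le_self _ _
  generalize n / θ = w at w1 w2 w3
  have s1 : 40 * n ≤ 1640 * θ * ((w - 1) / 20) := by
    have : θ * (w + 1) ≤ θ * (41 * ((w - 1) / 20)) := Nat.mul_le_mul_left _ (by omega)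
    nlinarith
  have s2 : 32 * n ≤ 96 * θ * (w - 1) := by
    have : θ * (w + 1) ≤ θ * (3 * (w - 1)) := Nat.mul_le_mul_left _ (by omega)
    nlinarith
  filter_upwards [hM ((w - 1) / 20) (by omega) 0, eventually_ge_atTop (40 * n + 1),
    eventually_all.2 fun i : Fin 4 => hC (w - 1) (by omega) (wp n w i)
      ((wp_sub n w i).trans (hex_mono s2))] with N a1 a2 a3 i
  set C := (4 * M + 3) * (|C0| + 1) / (η / 2) with eC
  have C1 : 0 < C := by positivity
  set U := nb (wp n w i) (w - 1)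
  set G := {H : Cfg | ∀ k : ℤ,
    Long (both (big (fun _ => 4 * k) M H)) (hex 0 (1640 * θ * ((w - 1) / 20))) ((w - 1) / 20)}
  set B := {H : Cfg | C * Pr (mu N) {H' | lab1 n w H' i = lab1 n w H i} <
    Pr (fill U H) {H' | lab1 n w H' i = lab1 n w H i}}
  have hU : U ⊆ hex 0 (40 * n) := nb_sub i (by omega)
  have gm : Good (mu N) := good_free (hex_finite 0 N) 0
  have key := Pr_tower_le (S := mu N) (E := univ) (E' := B \ G) (c := η / 2) (fill U)
    (fun H hH => ⟨⟨hH.1, fun _ _ => rfl⟩, fill_sub hU a2 hH⟩) (fun H _ H' h => fill_eq h)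
    (fun _ _ _ => subset_univ _) fun H hH _ => ?_
  · rw [univ_inter, Pr_univ gm] at key
    have := Pr_inter_add_diff (mu N) B G
    have := Pr_mono (S := mu N) (E := B ∩ G) (E' := G) fun _ _ h => h.2
    linarith
  by_cases hk : ∃ k : ℤ, ¬ Long (both (big (fun _ => 4 * k) M H)) (rh 0 n) n
  swap
  · refine (Pr_eq_zero fun K hK h => h.2 fun k => ?_).le.trans (by positivity)
    exact long_mono (by omega) (rh_subset_hex.trans (hex_mono (by omega)))
      (fun x hx => hK.2 x (rh_out i w3 (by omega) x hx)) (not_not.1 fun a => hk ⟨k, a⟩)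
  obtain ⟨k₀, hk₀⟩ := hk
  set E := {K : Cfg | C * Pr (mu N) {H' | lab1 n w H' i = lab1 n w K i} <
    Pr (fill U H) {H' | lab1 n w H' i = lab1 n w K i}}
  have b1 : Pr (mu N) E ≤ 1 / C :=
    dens gm.1 (finite_pin ((hex_finite _ _).subset hU) H) (fun K => lab1 n w K i) C1
  have b2 : ∀ k ∈ Finset.Icc (k₀ - (2 * M + 1)) (k₀ + (2 * M + 1)), Pr (fill U H) {H' | H' ∈ E ∧
      ¬ Long (both (big (fun _ => 4 * k) M H')) (nb (wp n w i) (w - 1 + 1)) ((w - 1) / 20)} ≤
      (|C0| + 1) / C := by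
    intro k _
    refine (a3 i H k E hH.1 (fun K K' e => ?_) fun K => ?_).trans ?_
    · have := lab_dep i w3 K K' e
      simp only [E, mem_ofPred_eq] at this ⊢
      rw [this]
    · have := lab_inv n w i K
      simp only [E, mem_ofPred_eq] at this ⊢
      rw [this]
    · rw [div_eq_mul_one_div]
      exact mul_le_mul ((le_abs_self _).trans (by linarith)) b1 (Pr_nonneg _ _) (by positivity)
  refine (Pr_mono fun K hK h => ?_).trans ((Pr_biUnion_le _ _ _).trans
    ((Finset.sum_le_card_nsmul _ _ _ b2).trans (le_of_eq ?_)))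
  · obtain ⟨k, hk⟩ := not_forall.1 h.2
    have c1 : ¬ Long (both (big (fun _ => 4 * k) M H)) (rh 0 n) n := fun a =>
      hk (long_mono (by omega) (rh_subset_hex.trans (hex_mono (by omega)))
        (fun x hx => hK.2 x (rh_out i w3 (by omega) x hx)) a)
    have c2 := abs_le.1 (h3 H 0 n M M _ _ (by omega) c1 hk₀)
    have c3 : k ∈ Finset.Icc (k₀ - (2 * M + 1)) (k₀ + (2 * M + 1)) := Finset.mem_Icc.2 (by omega)
    refine mem_biUnion (Finset.mem_coe.2 c3) ⟨?_, fun a => hk ?_⟩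
    · have := h.1
      simp only [B, mem_ofPred_eq, fill_eq hK] at this
      exact this
    · exact long_mono le_rfl ((nb_sub i (by omega)).trans (hex_mono s1)) (fun _ _ => rfl) a
  · have : (k₀ + (2 * M + 1) + 1 - (k₀ - (2 * M + 1))).toNat = 4 * M + 3 := by omega
    rw [Int.card_Icc, this, nsmul_eq_mul, eC]
    push_cast
    field_simp

end Vale.Agent.P153.Seal
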