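import Vale.Agent.P153.Seal.Stm

/-! P153, module Seal: contiguity of two-valued measures. -/

open Set Filter

namespace Vale.Agent.P153.Seal

theorem ctDob (h1 : Ct0) (h2 : LevDob) : CtDob := by
  intro η hη L
  obtain ⟨M, hM⟩ := h2 η hη (8 * L)
  obtain ⟨C, w₀, hC⟩ := h1 M 7
  refine ⟨max C 0, ?_⟩
  filter_upwards [eventually_ge_atTop w₀, eventually_ge_atTop 4] with n hn hn'
  filter_upwards [hC (5 * n) (by omega) (hex 0 (34 * n)) (hex_mono (by omega))]
    with N hN F S E hF hF' hE hE'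
  have hU : nb (hex 0 (34 * n)) (5 * n) ⊆ F := by
    rintro y ⟨x, hx, hy⟩
    refine hF (le_trans (nrm_tri 0 x y) ?_)
    have : nrm (x - 0) ≤ 34 * n := hx
    omega
  have e : (fun _ : V => 4 * (0 : ℤ)) = 0 := by
    funext _
    simp
  have h3 := hM (5 * n / 20) (by omega) F S (hF'.trans (hex_mono (by
    rw [mul_comm 8 L, mul_assoc]
    exact Nat.mul_le_mul_left L (by omega))))
  have h0 : 0 ≤ max C 0 * Pr (mu N) E := mul_nonneg (le_max_right _ _) (Pr_nonneg _ _)
  have h4 := Pr_tower_le (S := dob F S) (E := univ) (c := max C 0 * Pr (mu N) E)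
    (E' := {H' | H' ∈ E ∧ ¬ Long (both (big 0 M H')) (nb (hex 0 (34 * n)) (5 * n + 1)) (5 * n / 20)})
    (fill (nb (hex 0 (34 * n)) (5 * n)))
    (fun H hH => ⟨⟨hH.1, fun _ _ => rfl⟩, fun H' h' => ⟨h'.1, fun x hx => by
      rw [h'.2 x fun h => hx (hU h)]
      exact hH.2 x hx⟩⟩)
    (fun H _ H' h' => by
      ext K
      exact and_congr_right fun _ => forall₂_congr fun x hx => by rw [h'.2 x hx])
    (fun _ _ _ => subset_univ _) fun H hH _ => by
      have := hN H 0 E hH.1 hE hE'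
      rw [e] at this
      exact this.trans (mul_le_mul_of_nonneg_right (le_max_left _ _) (Pr_nonneg _ _))
  rw [univ_inter] at h4
  refine le_trans (Pr_mono fun H _ hH => ?_) ((Pr_union_le _ _ _).trans (add_le_add h3
    (h4.trans (mul_le_of_le_one_right h0 (Pr_le_one _ _)))))
  by_cases h : Long (both (big 0 M H)) (nb (hex 0 (34 * n)) (5 * n + 1)) (5 * n / 20)
  · obtain ⟨a, b, h5, h6⟩ := h
    exact Or.inl ⟨a, b, h5, h6.monoA (subset_univ _)⟩
  · exact Or.inr ⟨hH, h⟩

end Vale.Agent.P153.Seal
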