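import Vale.Agent.P153.FKG.Basic
import Vale.Agent.P153.Planar.Basic

/-! Notions for the module Seal of P153. -/

open Set Filter

namespace Vale.Agent.P153.Seal

/-- All Lipschitz refillings of `U`. -/
def fill (U : Set V) (H : Cfg) : Set Cfg := {H' | Lip H' ∧ ∀ x, x ∉ U → H' x = H x}

/-- Sites whose height is outside `[κ - M, κ + 1 + M]`. -/
def big (κ : V → ℤ) (M : ℕ) (H : Cfg) : Set V := {x | H x < κ x - M ∨ κ x + 1 + M < H x}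

/-- An open path of diameter at least `r` inside `A`. -/
def Long (E : V → V → Prop) (A : Set V) (r : ℕ) : Prop :=
  ∃ a b, r ≤ nrm (b - a) ∧ Conn E A a b

/-- Neighbourhood. -/
def nb (W : Set V) (d : ℕ) : Set V := {y | ∃ x ∈ W, nrm (y - x) ≤ d}

/-- Sites of `A` reached from `O` by open edges inside `O ∪ A`. -/
def reach (E : V → V → Prop) (O A : Set V) : Set V := {x | x ∈ A ∧ ∃ y ∈ O, Conn E (O ∪ A) y x}

/-- The reference measure. -/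
def mu (N : ℕ) : Set Cfg := free (hex 0 N) 0

/-- Band measure with additional two-valued sites. -/
def freeD (U D : Set V) : Set Cfg := {H | H ∈ free U 0 ∧ ∀ x ∈ D, H x = 0 ∨ H x = 1}

/-- Dependence on `A` only, among configurations of `S`. -/
def DepS {α : Type} (S : Set Cfg) (A : Set V) (f : Cfg → α) : Prop :=
  ∀ H ∈ S, ∀ H' ∈ S, (∀ x ∈ A, H x = H' x) → f H = f H'

/-- Normalization modulo the global shift by `4`. -/
def nm (x : V) (H : Cfg) : Cfg := fun y => H y - 4 * (H x / 4)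

open Classical in
/-- Restriction. -/
noncomputable def res (W : Set V) (H : Cfg) : Cfg := fun y => if y ∈ W then H y else 0

/-- The normalized copy of the reference measure. -/
def mun (N : ℕ) (x : V) : Set Cfg :=
  {H | 0 ≤ H x ∧ H x < 4 ∧ ∃ l : ℤ, (fun y => H y + 4 * l) ∈ mu N}

/-- Conditional expectation given a label. -/
noncomputable def cex {ι : Type} (S : Set Cfg) (l : Cfg → ι) (f : Cfg → ℝ) (H : Cfg) : ℝ :=
  Ex (S ∩ {H' | l H' = l H}) f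

/-! ### Geometry at scales `w ≤ n` -/

/-- The four regions of the moving argument, with gap `w`. -/
def mp (n w : ℕ) : Fin 4 → Set V :=
  ![{x | x ∈ hex 0 (40 * n) ∧ (2 * n + w : ℤ) ≤ x.2},
    {x | x ∈ hex 0 (40 * n) ∧ x.2 ≤ -(2 * n + w : ℤ)},
    {x | x ∈ hex 0 (40 * n) ∧ |x.2| ≤ 2 * n ∧ x.1 ≤ -(6 * n : ℤ)},
    {x | x ∈ hex 0 (40 * n) ∧ |x.2| ≤ 2 * n ∧ (6 * n : ℤ) ≤ x.1}]

/-- The box. -/
def Q (n : ℕ) : Set V := rh 0 (16 * n)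

/-- The four enlarged pieces. -/
def wp (n w : ℕ) : Fin 4 → Set V :=
  ![{x | x ∈ Q n ∧ (2 * n + 2 * w : ℤ) ≤ x.2},
    {x | x ∈ Q n ∧ x.2 ≤ -(2 * n + 2 * w : ℤ)},
    {x | x ∈ Q n ∧ |x.2| ≤ 2 * n - w ∧ x.1 ≤ -(8 * n : ℤ)},
    {x | x ∈ Q n ∧ |x.2| ≤ 2 * n - w ∧ (8 * n : ℤ) ≤ x.1}]

/-- Base points of the pieces. -/
def bp (n : ℕ) : Fin 4 → V := ![(0, 16 * n), (0, -(16 * n)), (-(16 * n), 0), (16 * n, 0)]

/-- The patterns on the four pieces, each modulo its own shift. -/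
noncomputable def lab1 (n w : ℕ) (H : Cfg) : Fin 4 → Cfg :=
  fun i => res (wp n w i) (nm (bp n i) H)

/-- The joint pattern on the pieces. -/
noncomputable def lab2 (n w : ℕ) (H : Cfg) : Cfg := res (⋃ i, wp n w i) (nm (bp n 0) H)

/-- The small pieces. -/
def Pcs (n w : ℕ) : Set V :=
  {x | x ∈ Q n ∧ ((2 * n + 5 * w : ℤ) ≤ |x.2| ∨ (|x.2| ≤ 2 * n - 4 * w ∧ (8 * n : ℤ) ≤ |x.1|))}

/-- The rows of the channels. -/
def Ch (n w : ℕ) (x : V) : Prop := (2 * n - 4 * w : ℤ) < |x.2| ∧ |x.2| < 2 * n + 5 * w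

/-- Column coordinate in the zone starting at `a`. -/
def Zb (n w : ℕ) (a : ℤ) : Set V := {x | Ch n w x ∧ a ≤ |x.1| ∧ |x.1| ≤ a + 10 * w}

/-- The margins of a zone. -/
def Mg (n w : ℕ) (a : ℤ) : Set V :=
  {x | x ∈ Zb n w a ∧ (|x.2| ≤ 2 * n - w ∨ (2 * n + 2 * w : ℤ) ≤ |x.2|)}

/-- Outer side of a zone. -/
def OutS (n w : ℕ) (a : ℤ) : Set V := {x | x ∉ Q n ∨ (Ch n w x ∧ a + 10 * w < |x.1|)}

/-- Inner side of a zone. -/
def InS (n w : ℕ) (a : ℤ) : Set V :=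
  {x | x ∈ Q n ∧ x ∉ Pcs n w ∧ |x.1| < a}

/-- Centre of the zone in the quadrant of `x`. -/
def zc (n w : ℕ) (a : ℤ) (x : V) : V :=
  (if 0 ≤ x.1 then a + 5 * w else -(a + 5 * w), if 0 ≤ x.2 then 2 * n else -(2 * n))

/-- Centre of the reference rhombus in the quadrant of `x`. -/
def yc (n w : ℕ) (a : ℤ) (x : V) : V :=
  (if 0 ≤ x.1 then a + 5 * w else -(a + 5 * w),
    if 0 ≤ x.2 then 2 * n + 7 * w else -(2 * n + 7 * w))

/-- The level `4 k` is seen in the reference rhombus. -/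
def Sees (w : ℕ) (y : V) (H : Cfg) (k : ℤ) : Prop :=
  ¬ Long (star (big (fun _ => 4 * k) 0 H)) (rh y w) w

open Classical in
/-- The level read in the reference rhombus. -/
noncomputable def kap (n w : ℕ) (a : ℤ) (H : Cfg) (x : V) : ℤ :=
  if h : ∃ k, Sees w (yc n w a x) H k then 4 * h.choose else 0

/-- The explored walls of a zone. -/
def PW (n w : ℕ) (a : ℤ) (H : Cfg) : Set V :=
  reach (star (big (kap n w a H) 0 H)) (Pcs n w) (Mg n w a)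

/-- Good walls. -/
def GoodW (n w : ℕ) (a : ℤ) (H : Cfg) : Prop :=
  (∀ x, ∃ k, Sees w (yc n w a x) H k) ∧
    ∀ x ∈ PW n w a H, |x.2| ≠ 2 * n - w ∧ |x.2| ≠ 2 * n + 2 * w

/-- Start of the zone number `j` at spacing `p`. -/
def za (n w p j : ℕ) : ℤ := 16 * n - (j + 1) * p * w

/-- The label of the sealing argument. -/
noncomputable def lab3 (n w p m : ℕ) (H : Cfg) : (ℕ → Set V) × Cfg :=
  (fun j => if j < m then PW n w (za n w p j) H else ∅,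
    res (Pcs n w ∪ ⋃ j < m, PW n w (za n w p j) H) H)

/-- The hypotheses on one zone. -/
structure Zone (S : Set Cfg) (O I Z P D Za Zc Zm : Set V) (κ : V → ℤ) (r : ℕ) : Prop where
  good : Good S
  lip : ∀ H ∈ S, Lip H
  cover : ∀ x, x ∈ O ∨ x ∈ I ∨ x ∈ Z ∨ x ∈ P
  dOI : Disjoint O I
  dZ : Disjoint Z (O ∪ I ∪ P)
  dP : Disjoint P (O ∪ I)
  fin : Z.Finite
  hD : D ⊆ Z
  hkap : ∀ x ∈ Z, ∀ y, Adj x y → κ y = κ x
  pin : ∀ H ∈ S, ∀ H' ∈ S, ∀ x ∈ P, H x = H' x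
  band : ∀ H ∈ S, ∀ x ∈ D, x ∉ big κ 0 H
  splice : ∀ H₁ ∈ S, ∀ H₂ ∈ S, ∀ H, Lip H → (∀ x ∈ O ∪ P, H x = H₁ x) → (∀ x ∈ I, H x = H₂ x) →
    (∀ x ∈ D, x ∉ big κ 0 H) → H ∈ S
  wall : ∀ H ∈ S, ∀ x ∈ Z, ∀ y ∈ P, Adj x y → x ∈ D ∧ y ∉ big κ 0 H
  ha : Za ⊆ Zm
  hm : Zm ⊆ Z
  hc : Zc ⊆ Z
  dmc : Disjoint Zm Zc
  nOI : ∀ x ∈ O ∪ Za, ∀ y ∈ I ∪ Zc, ¬ Adj x y
  nO : ∀ x ∈ O, ∀ y ∈ Z, Adj x y → y ∈ Za
  nI : ∀ x ∈ I, ∀ y ∈ Z, Adj x y → y ∈ Zc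
  far : ∀ x ∈ Za, ∀ y ∈ Z, y ∉ Zm → r + 2 ≤ nrm (y - x)

/-- Both end explorations are confined. -/
def Cnf (O I Z Za Zc : Set V) (κ : V → ℤ) (H : Cfg) : Prop :=
  reach (star (big κ 0 H)) O Z ⊆ Za ∧ reach (star (big κ 0 H)) I Z ⊆ Zc

/-- Under the weight `ρ`, functions of `A` and functions of `B` are independent. -/
def Fact (S : Set Cfg) (A B : Set V) (ρ : Cfg → ℝ) : Prop :=
  ∀ F G : Cfg → ℝ, DepS S A F → DepS S B G →
    Ex S (fun H => F H * G H * ρ H) * Ex S ρ =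
      Ex S (fun H => F H * ρ H) * Ex S (fun H => G H * ρ H)

/-- Test sequences: zero sum, small, supported in the central rhombus. -/
def Tst (a : ℕ → V →₀ ℝ) (s : ℕ → ℕ) : Prop :=
  Tendsto s atTop atTop ∧ ∃ C : ℝ, 0 < C ∧ ∀ᶠ i in atTop, (a i).sum (fun _ c => c) = 0 ∧
    (∀ x, |a i x| ≤ C / (s i : ℝ) ^ 2) ∧ ∀ x ∈ (a i).support, x ∈ rh 0 (s i)

end Vale.Agent.P153.Seal
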