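import Vale.Agent.P153.Seal.Stm2
import Vale.Agent.P153.FKG.Loc

/-! Many zones have good walls. -/

open Set Filter

namespace Vale.Agent.P153.Seal

namespace GoodLLNx

/-- Some level is seen in the hexagon. -/
def Ev (x : V) (w : ℕ) : Set Cfg :=
  {H | ∃ k : ℤ, ¬ Long (star (big (fun _ => 4 * k) 0 H)) (hex x (20 * w)) w}

/-- Same quadrant. -/
def Sq (x y : V) : Prop := (0 ≤ x.1 ↔ 0 ≤ y.1) ∧ (0 ≤ x.2 ↔ 0 ≤ y.2)

/-- Representatives of the quadrants. -/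
def sq : Fin 4 → V := ![(0, 0), (0, -1), (-1, 0), (-1, -1)]

theorem sq_inj : ∀ q q' : Fin 4, Sq (sq q) (sq q') → q = q' := by
  unfold Sq
  decide

theorem sq_ex (x : V) : ∃ q, Sq x (sq q) := by
  by_cases h1 : 0 ≤ x.1 <;> by_cases h2 : 0 ≤ x.2
  · exact ⟨0, by simp [Sq, sq, h1, h2]⟩
  · exact ⟨1, by simp [Sq, sq, h1, h2]⟩
  · exact ⟨2, by simp [Sq, sq, h1, h2]⟩
  · exact ⟨3, by simp [Sq, sq, h1, h2]⟩

variable {n w : ℕ} {a a' : ℤ} {x x' : V} {H H' : Cfg}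

theorem Sq.zc (h : Sq x x') : zc n w a x = zc n w a x' := by simp only [Seal.zc, h.1, h.2]

theorem Sq.yc (h : Sq x x') : yc n w a x = yc n w a x' := by simp only [Seal.yc, h.1, h.2]

theorem ev_shift (l : ℤ) (e : ∀ y, H' y = H y + 4 * l) (h : H ∈ Ev x w) : H' ∈ Ev x w := by
  obtain ⟨k, hk⟩ := h
  have e1 : big (fun _ => 4 * (k + l)) 0 H' = big (fun _ => 4 * k) 0 H := by
    ext y
    simp only [big, mem_ofPred_eq, e]
    omega
  exact ⟨k + l, by rwa [e1]⟩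

theorem ev_dep (e : ∀ y ∈ hex x (20 * w), H y = H' y) (h : H ∈ Ev x w) : H' ∈ Ev x w := by
  obtain ⟨k, hk⟩ := h
  refine ⟨k, fun ⟨u, v, h1, h2⟩ => hk ⟨u, v, h1, h2.mono' fun y z _ h3 hy hz => ⟨?_, hy, hz⟩⟩⟩
  simpa only [star, big, mem_ofPred_eq, e y hy, e z hz] using h3

theorem dep_ev : DepOn (fun H => H ∈ Ev x w) (hex x (20 * w)) := fun _ _ e =>
  propext ⟨ev_dep e, ev_dep fun y hy => (e y hy).symm⟩

theorem ind_congr {E : Set Cfg} (e : H ∈ E ↔ H' ∈ E) :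
    E.indicator (1 : Cfg → ℝ) H = E.indicator 1 H' :=
  le_antisymm (ind_mono e.1) (ind_mono e.2)

theorem dep_ind : DepOn ((Ev x w).indicator (1 : Cfg → ℝ)) (hex x (20 * w)) := fun _ _ e =>
  ind_congr (dep_ev _ _ e).to_iff

theorem inv_ind : Inv4 ((Ev x w).indicator (1 : Cfg → ℝ)) := fun _ =>
  ind_congr ⟨ev_shift (-1) fun _ => by ring, ev_shift 1 fun _ => by ring⟩

theorem sep {P T : ℕ} (h : a + P ≤ a' ∨ a' + P ≤ a ∨ ¬ Sq x x') (h1 : 9 * (n : ℤ) ≤ a)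
    (h2 : 9 * (n : ℤ) ≤ a') (h3 : P ≤ 7 * n) (h4 : 7 * (T + 20 * w) < 4 * P) :
    hex (zc n w a' x') (20 * w) ⊆ (hex (zc n w a x) T)ᶜ := by
  intro y k1 k2
  simp only [mem_hex, nrm_sub_le_iff, zc, Sq] at k1 k2 h
  split_ifs at k1 k2 <;> omega

theorem good (h5 : KapL) (hw : 1 ≤ w) (hn : 20 * w ≤ n) (ha : 9 * (n : ℤ) ≤ a)
    (h : ∀ q, H ∈ Ev (zc n w a (sq q)) w) : GoodW n w a H := by
  have h1 : ∀ x, ∃ k : ℤ, Sees w (yc n w a x) H k ∧
      ¬ Long (star (big (fun _ => 4 * k) 0 H)) (hex (zc n w a x) (20 * w)) w := fun x => by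
    obtain ⟨q, hq⟩ := sq_ex x
    obtain ⟨k, hk⟩ := h q
    rw [← hq.zc] at hk
    refine ⟨k, fun ⟨u, v, k1, k2⟩ => hk ⟨u, v, k1, k2.monoA fun y hy => ?_⟩, hk⟩
    simp only [mem_hex, mem_rh, nrm_sub_le_iff, zc, yc] at hy ⊢
    split_ifs at hy ⊢ <;> omega
  refine ⟨fun x => (h1 x).imp fun _ h => h.1, fun x ⟨hx, y, hy, hc⟩ => ?_⟩
  obtain ⟨k, k1, k2⟩ := h1 x
  by_contra hb
  have hm : ∀ z ∈ Mg n w a, a ≤ z.1.natAbs ∧ z.1.natAbs ≤ a + 10 * w ∧
      2 * n - 4 * w < (z.2.natAbs : ℤ) ∧ (z.2.natAbs : ℤ) < 2 * n + 5 * w := fun z hz => by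
    simp only [Mg, Zb, Ch, mem_ofPred_eq, Int.abs_eq_natAbs] at hz
    omega
  have hp : ∀ z ∈ Pcs n w, (z.2.natAbs : ℤ) ≤ 2 * n - 4 * w ∨ 2 * n + 5 * w ≤ (z.2.natAbs : ℤ) :=
    fun z hz => by
      have := hz.2
      simp only [Int.abs_eq_natAbs] at this
      omega
  have hh : ∀ z ∈ Mg n w a, Sq z x → z ∈ hex (zc n w a x) (20 * w) := fun z hz hs => by
    have := hm z hz
    rw [← hs.zc]
    simp only [mem_hex, nrm_sub_le_iff, zc]
    split_ifs <;> omega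
  have hx' := hm x hx
  obtain ⟨u, v, -, huv, -, -, hu, hv, hv', hc'⟩ := hc.last hy fun hx2 => by
    have := hp x hx2
    omega
  have hc2 := (hc'.symm (star_symm _)).ind (P := fun z => Sq z x ∧
      Conn (star (big (fun _ => 4 * k) 0 H)) (hex (zc n w a x) (20 * w)) x z)
    ⟨⟨Iff.rfl, Iff.rfl⟩, Conn.rfl⟩ fun z z' _ hz he m1 m2 ih => by
      have m3 := m1.1.resolve_left m1.2
      have m4 := m2.1.resolve_left m2.2
      have s1 : Sq z' x := by
        have i1 := hm z m3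
        have i2 := hm z' m4
        have i3 := ih.1
        rw [adj_iff] at hz
        unfold Sq at i3 ⊢
        omega
      refine ⟨s1, ih.2.tail hz ?_ (hh z m3 ih.1) (hh z' m4 s1)⟩
      simpa only [star, big, mem_ofPred_eq, h5 n w a H z k hw (ih.1.yc ▸ k1),
        h5 n w a H z' k hw (s1.yc ▸ k1)] using he
  refine k2 ⟨x, v, ?_, hc2.2⟩
  have i1 := hm v (hv.resolve_left hv')
  have i2 := hp u hu
  rw [adj_iff] at huv
  simp only [Int.abs_eq_natAbs] at hb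
  rw [le_nrm_sub_iff]
  omega

theorem za_lt (n w p : ℕ) {j j' : ℕ} (h : j < j') :
    za n w p j' + (p * w : ℕ) ≤ za n w p j := by
  have h1 : ((j + 2) * (p * w) : ℕ) ≤ (j' + 1) * (p * w) := Nat.mul_le_mul_right _ (by omega)
  have h2 : (((j + 2) * (p * w) : ℕ) : ℤ) ≤ ((j' + 1) * (p * w) : ℕ) := by exact_mod_cast h1
  unfold za
  push_cast at h2 ⊢
  linarith

theorem za_ge {N p m j : ℕ} (h : Par N n w p m) (hj : j < m) :
    9 * (n : ℤ) ≤ za n w p j ∧ p * w ≤ 7 * n := by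
  have h1 : (j + 1) * p * w ≤ 7 * n :=
    (Nat.mul_le_mul_right _ (Nat.mul_le_mul_right _ hj)).trans h.2.2.2.1
  have h2 : (((j + 1) * p * w : ℕ) : ℤ) ≤ (7 * n : ℕ) := by exact_mod_cast h1
  refine ⟨?_, le_trans (Nat.mul_le_mul_right _ (Nat.le_mul_of_pos_left p j.succ_pos)) h1⟩
  unfold za
  push_cast at h2 ⊢
  linarith

end GoodLLNx

open GoodLLNx in
theorem goodLLN (h1 : LLN) (h2 : Scrn) (h3 : Gstar) (h4 : Tvm) (h5 : KapL) (h6 : NormL) :
    GoodLLN := by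
  obtain ⟨K, hK⟩ := h2
  obtain ⟨c, hc, hG⟩ := h3 (K * 20)
  refine ⟨(c / 2) ^ 4 / 4, by positivity, fun η hη => ?_⟩
  obtain ⟨e, he, hL⟩ := h1 (c / 2) (half_pos hc) η hη
  obtain ⟨M, hM⟩ := h4 e he
  filter_upwards [eventually_ge_atTop (35 * (M + 1) + 1)] with p hp
  filter_upwards [hL] with m hm n w
  by_cases hw : 1 ≤ w
  swap
  · exact Eventually.of_forall fun N h => absurd h.1 hw
  filter_upwards [(eventually_all_finset (Finset.range m)).2 fun j _ => eventually_all.2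
    fun q : Fin 4 => (hK (20 * w) (by omega) (zc n w (za n w p j) (sq q))).and
      (hM (20 * w) (by omega) (zc n w (za n w p j) (sq q)))] with N hN hP
  have hpw : 7 * (M * (20 * w) + 20 * w) < 4 * (p * w) := by nlinarith
  have h7 := hm (mu N) (fun j q => hex (zc n w (za n w p j) (sq q)) (20 * w))
    (fun j q => (hex (zc n w (za n w p j) (sq q)) (M * (20 * w)))ᶜ)
    (fun j q => Ev (zc n w (za n w p j) (sq q)) w) (good_free (hex_finite _ _) 0)
    (fun _ _ => dep_ev)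
    (fun j hj j' hj' q q' hne => sep (P := p * w) (by
      rcases lt_trichotomy j j' with h | rfl | h
      · exact Or.inr (Or.inl (za_lt n w p h))
      · exact Or.inr (Or.inr fun h => hne (by rw [sq_inj q q' h]))
      · exact Or.inl (za_lt n w p h)) (za_ge hP hj).1 (za_ge hP hj').1 (za_ge hP hj).2 hpw)
    (fun j hj q g g1 g2 => (hN j (Finset.mem_range.2 hj) q).2 _ g
      (fun H => by rw [abs_of_nonneg (ind_nonneg _ H)]; exact ind_le_one _ H) g1 dep_ind inv_ind g2)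
    fun j hj q => (hN j (Finset.mem_range.2 hj) q).1 _ c hc.le (ind_nonneg _) dep_ind inv_ind
      fun U _ hU => by
        have k1 := hG w hw _ U ∅ (by rwa [mul_assoc])
        have k2 : freeD U ∅ = free U 0 := by ext H; simp [freeD]
        rw [k2] at k1
        exact k1.trans (Pr_mono fun H _ hH => ⟨0, fun ⟨u, v, k3, k4⟩ =>
          hH ⟨u, v, k3, k4.monoA (subset_univ _)⟩⟩)
  rw [← Pr_bij (h6 N (bp n 0))]
  refine le_trans (Pr_mono fun H _ hH => ?_) h7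
  rw [mem_preimage, mem_ofPred_eq] at hH
  refine lt_of_le_of_lt ?_ hH
  refine Nat.cast_le.2 (ncard_le_ncard (fun j hj => ?_) ((finite_lt_nat m).subset fun j hj => hj.1))
  exact ⟨hj.1, good h5 hw hP.2.1 (za_ge hP hj.1).1 fun q =>
    ev_shift (-(H (bp n 0) / 4)) (fun y => by simp only [nm]; ring) (hj.2 q)⟩

end Vale.Agent.P153.Seal
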