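import Vale.Agent.P153.Seal.Small

/-! P153, module Seal: no long path of big sites in a union of well separated regions. -/

open Set Filter

namespace Vale.Agent.P153.Seal

namespace GQx

theorem pw_mem {A U U' W D : Set V} {H K : Cfg}
    (hA : ∀ a ∈ A, ∀ b, b ∉ A → Adj a b → b ∉ U ∧ b ∉ U')
    (h1 : ∀ x ∈ A, x ∈ W ↔ x ∈ U) (h2 : ∀ x, x ∉ A → (x ∈ W ↔ x ∈ U'))
    (hH : H ∈ freeD U D) (hK : K ∈ freeD U' D) : pw A H K ∈ freeD W D := by
  refine ⟨⟨hH.1.1.pw hK.1.1 fun a ha b hb e => ?_, fun x hx => ?_, ?_⟩, fun x hx => ?_⟩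
  · have k := hA a ha b hb e
    rw [hK.1.2.1 b k.2, ← hH.1.2.1 b k.1]
    exact hH.1.1 a b e
  · by_cases h : x ∈ A
    · rw [pw_in _ _ h]; exact hH.1.2.1 x fun k => hx ((h1 x h).2 k)
    · rw [pw_out _ _ h]; exact hK.1.2.1 x fun k => hx ((h2 x h).2 k)
  · rintro x ⟨hx, y, hy, e⟩
    by_cases h : x ∈ A
    · rw [pw_in _ _ h]
      refine hH.1.2.2 x ⟨(h1 x h).1 hx, y, ?_, e⟩
      by_cases h' : y ∈ A
      · exact fun k => hy ((h1 y h').2 k)
      · exact (hA x h y h' e).1
    · rw [pw_out _ _ h]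
      refine hK.1.2.2 x ⟨(h2 x h).1 hx, y, ?_, e⟩
      by_cases h' : y ∈ A
      · exact absurd ((h2 x h).1 hx) (hA y h' x h e.symm).2
      · exact fun k => hy ((h2 y h').2 k)
  · by_cases h : x ∈ A
    · rw [pw_in _ _ h]; exact hH.2 x hx
    · rw [pw_out _ _ h]; exact hK.2 x hx

theorem pw_compl (A : Set V) (H K : Cfg) : pw Aᶜ H K = pw A K H := by
  funext x
  by_cases h : x ∈ A
  · rw [pw_in _ _ h, pw_out _ _ (not_not.2 h : x ∉ Aᶜ)]
  · rw [pw_out _ _ h, pw_in _ _ (h : x ∈ Aᶜ)]

theorem big_sub {U D : Set V} {H : Cfg} (hH : H ∈ freeD U D) : big 0 0 H ⊆ U := by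
  intro x hx
  by_contra h
  have := hH.1.2.1 x h
  simp only [big, mem_ofPred_eq, Pi.zero_apply] at hx
  omega

theorem big_congr {A : Set V} {H K : Cfg} (e : ∀ x ∈ A, H x = K x) :
    big 0 0 H ∩ A = big 0 0 K ∩ A := by
  ext x
  simp only [big, mem_inter_iff, mem_ofPred_eq]
  exact and_congr_left fun h => by rw [e x h]

theorem split {B : Set V} {y : V} {R r : ℕ} (hB : ∀ x ∈ B, x ∉ hex y R → R + 3 ≤ nrm (x - y))
    (h : Long (star B) univ r) :
    Long (star (B ∩ hex y R)) univ r ∨ Long (star (B ∩ (hex y R)ᶜ)) univ r := by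
  obtain ⟨a, b, hr, hc⟩ := h
  by_cases ha : nrm (a - y) ≤ R + 1
  · refine Or.inl ⟨a, b, hr, (hc.ind (P := fun u => nrm (u - y) ≤ R + 1 ∧
      Conn (star (B ∩ hex y R)) univ a u) ⟨ha, .rfl⟩ fun u v _ e s _ _ ih => ?_).2⟩
    have k := e.nrm_le y
    rcases s with s | s
    · have m : u ∈ hex y R := by_contra fun m => by have := hB u s m; omega
      have m' : nrm (u - y) ≤ R := m
      exact ⟨by omega, ih.2.tail e (Or.inl ⟨s, m⟩) trivial trivial⟩
    · have m : v ∈ hex y R := by_contra fun m => by have := hB v s m; omega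
      have m' : nrm (v - y) ≤ R := m
      exact ⟨by omega, ih.2.tail e (Or.inr ⟨s, m⟩) trivial trivial⟩
  · refine Or.inr ⟨a, b, hr, (hc.ind (P := fun u => ¬ nrm (u - y) ≤ R + 1 ∧
      Conn (star (B ∩ (hex y R)ᶜ)) univ a u) ⟨ha, .rfl⟩ fun u v _ e s _ _ ih => ?_).2⟩
    have k := e.symm.nrm_le y
    have i1 := ih.1
    rcases s with s | s
    · have m : u ∉ hex y R := fun m => by have m' : nrm (u - y) ≤ R := m; omega
      have := hB u s m
      exact ⟨by omega, ih.2.tail e (Or.inl ⟨s, m⟩) trivial trivial⟩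
    · have m : v ∉ hex y R := fun m => by have m' : nrm (v - y) ≤ R := m; omega
      have := hB v s m
      exact ⟨by omega, ih.2.tail e (Or.inr ⟨s, m⟩) trivial trivial⟩

theorem step {U D : Set V} (hU : U.Finite) {y : V} {R : ℕ} (r : ℕ)
    (hB : ∀ x ∈ U, x ∉ hex y R → R + 3 ≤ nrm (x - y)) :
    Pr (freeD (U ∩ hex y R) D) {H | ¬ Long (star (big 0 0 H)) univ r} *
      Pr (freeD (U \ hex y R) D) {H | ¬ Long (star (big 0 0 H)) univ r} ≤
      Pr (freeD U D) {H | ¬ Long (star (big 0 0 H)) univ r} := by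
  have hA : ∀ a ∈ hex y R, ∀ b, b ∉ hex y R → Adj a b → b ∉ U := fun a ha b hb e k => by
    have := hB b k hb
    have := e.nrm_le y
    have : nrm (a - y) ≤ R := ha
    omega
  have g := good_freeD hU D
  have e1 : Pr (freeD U D) {H | ¬ Long (star (big 0 0 H ∩ hex y R)) univ r} =
      Pr (freeD (U ∩ hex y R) D) {H | ¬ Long (star (big 0 0 H)) univ r} := by
    refine Pr_local (U := hex y R) g (good_freeD (hU.inter_of_left _) D)
      (fun H hH K hK => ⟨pw_mem (fun a ha b hb e => ⟨fun k => hb k.2, hA a ha b hb e⟩)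
        (fun x hx => by simp [hx]) (fun _ _ => Iff.rfl) hK hH,
        pw_mem (fun a ha b hb e => ⟨hA a ha b hb e, fun k => hb k.2⟩)
        (fun x hx => by simp [hx]) (fun _ _ => Iff.rfl) hH hK⟩) fun H _ K hK e => ?_
    simp only [mem_ofPred_eq]
    rw [big_congr e, inter_eq_left.2 fun x hx => (big_sub hK hx).2]
  have e2 : Pr (freeD U D) {H | ¬ Long (star (big 0 0 H ∩ (hex y R)ᶜ)) univ r} =
      Pr (freeD (U \ hex y R) D) {H | ¬ Long (star (big 0 0 H)) univ r} := by
    refine Pr_local (U := (hex y R)ᶜ) g (good_freeD (hU.subset sdiff_subset) D)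
      (fun H hH K hK => ?_) fun H _ K hK e => ?_
    · rw [pw_compl, pw_compl]
      exact ⟨pw_mem (fun a ha b hb e => ⟨hA a ha b hb e, fun k => hA a ha b hb e k.1⟩)
        (fun _ _ => Iff.rfl) (fun x hx => by simp [hx]) hH hK,
        pw_mem (fun a ha b hb e => ⟨fun k => hA a ha b hb e k.1, hA a ha b hb e⟩)
        (fun _ _ => Iff.rfl) (fun x hx => by simp [hx]) hK hH⟩
    · simp only [mem_ofPred_eq]
      rw [big_congr e, (inter_eq_left (t := (hex y R)ᶜ)).2 fun x hx => (big_sub hK hx).2]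
  rw [← e1, ← e2, Pr, Pr, ← Ex_indep (U := hex y R) (fun H hH K hK => pw_mem
    (fun a ha b hb e => ⟨hA a ha b hb e, hA a ha b hb e⟩) (fun _ _ => Iff.rfl)
    (fun _ _ => Iff.rfl) hH hK)]
  · simp only [← ind_inter]
    refine Pr_mono fun H hH k l => ?_
    exact (split (fun x hx => hB x (big_sub hH hx)) l).elim k.1 k.2
  · intro H _ K _ e
    exact le_antisymm (ind_mono fun k => by simpa only [mem_ofPred_eq, big_congr e] using k)
      (ind_mono fun k => by simpa only [mem_ofPred_eq, big_congr e] using k)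
  · intro H _ K _ e
    have e' := big_congr (A := (hex y R)ᶜ) e
    exact le_antisymm (ind_mono fun k => by simpa only [mem_ofPred_eq, e'] using k)
      (ind_mono fun k => by simpa only [mem_ofPred_eq, e'] using k)

end GQx

open GQx in
theorem gstarQ (h : Gstar) : GstarQ := by
  classical
  intro L q
  obtain ⟨c, hc, h⟩ := h L
  have c0 : 0 < min c 1 := lt_min hc one_pos
  refine ⟨min c 1 ^ q, pow_pos c0 q, fun r hr z U D hz hU hs => ?_⟩
  refine (pow_le_pow_of_le_one c0.le (min_le_right _ _) hz).trans ?_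
  clear hz
  induction z using Finset.induction_on generalizing U with
  | empty =>
    have e : U = ∅ := eq_empty_of_forall_notMem fun x hx => by simpa using hU x hx
    subst e
    rw [Finset.card_empty, pow_zero]
    refine (Pr_eq_one (good_freeD finite_empty D) fun H hH => ?_).ge
    rintro ⟨a, b, k, hab⟩
    have : b = a := hab.ind (P := fun u => u = a) rfl fun u v _ _ s _ _ _ =>
      s.elim (fun s => (big_sub hH s).elim) fun s => (big_sub hH s).elim
    rw [this, sub_self, nrm_zero] at k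
    omega
  | insert y z hy ih =>
    have fU : U.Finite := (((insert y z).finite_toSet).biUnion fun w _ =>
      hex_finite w (L * r)).subset fun x hx => by simpa using hU x hx
    have hU' : ∀ x ∈ U \ hex y (L * r), ∃ w ∈ z, x ∈ hex w (L * r) := fun x hx => by
      obtain ⟨w, hw, k⟩ := hU x hx.1
      rcases Finset.mem_insert.1 hw with rfl | hw
      · exact absurd k hx.2
      · exact ⟨w, hw, k⟩
    refine le_trans ?_ (step fU r (y := y) (R := L * r) fun x hx k => ?_)
    · rw [Finset.card_insert_of_notMem hy, pow_succ']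
      exact mul_le_mul ((min_le_left _ _).trans (h r hr y _ D inter_subset_right))
        (ih _ hU' fun a ha b hb => hs a (Finset.mem_insert_of_mem ha) b
          (Finset.mem_insert_of_mem hb)) (pow_pos c0 _).le (Pr_nonneg _ _)
    · obtain ⟨w, hw, m⟩ := hU' x ⟨hx, k⟩
      have h1 := hs y (Finset.mem_insert_self _ _) w (Finset.mem_insert_of_mem hw)
        fun e => hy (e ▸ hw)
      have h2 := nrm_tri y x w
      have h3 : nrm (x - w) ≤ L * r := m
      rw [nrm_sub_comm w x] at h2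
      omega

end Vale.Agent.P153.Seal
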