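import Vale.Agent.P153.Seal.Loc

/-! Refining a label. -/

open Set Filter

namespace Vale.Agent.P153.Seal

theorem cex_congr {ι : Type} {S : Set Cfg} {l : Cfg → ι} (X : Cfg → ℝ) {H K : Cfg}
    (h : l K = l H) : cex S l X K = cex S l X H := by
  unfold cex; rw [h]

/-- Testing against a function of the label. -/
theorem ex_lab {ι : Type} (S : Set Cfg) (l : Cfg → ι) (X g : Cfg → ℝ)
    (hg : ∀ H ∈ S, ∀ K ∈ S, l K = l H → g K = g H) :
    Ex S (fun H => g H * X H) = Ex S fun H => g H * cex S l X H := tower_mul S l X g hg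

theorem ex_lab_le {ι : Type} (S : Set Cfg) (l : Cfg → ι) (X g : Cfg → ℝ)
    (hg : ∀ H ∈ S, ∀ K ∈ S, l K = l H → g K = g H) (hb : ∀ H ∈ S, |g H| ≤ 1) :
    |Ex S fun H => g H * X H| ≤ Ex S fun H => |cex S l X H| := by
  rw [ex_lab S l X g hg]
  refine (abs_Ex_le _ _).trans (Ex_mono fun H hH => ?_)
  rw [abs_mul]
  exact mul_le_of_le_one_left (abs_nonneg _) (hb H hH)

/-- The sign function. -/
noncomputable def sg (t : ℝ) : ℝ := if 0 ≤ t then 1 else -1

theorem abs_sg (t : ℝ) : |sg t| ≤ 1 := by unfold sg; split_ifs <;> simp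

theorem sg_mul (t : ℝ) : sg t * t = |t| := by
  unfold sg; split_ifs with h
  · rw [abs_of_nonneg h, one_mul]
  · rw [abs_of_neg (not_le.1 h)]; ring

theorem ex_abs_cex {ι : Type} (S : Set Cfg) (l : Cfg → ι) (X : Cfg → ℝ) :
    Ex S (fun H => |cex S l X H|) = Ex S fun H => sg (cex S l X H) * X H := by
  rw [ex_lab S l X _ fun H _ K _ e => by rw [cex_congr X e]]
  simp only [sg_mul]

theorem refL : RefL := by
  classical
  intro S G l₁ l₂ X _ h
  set Φ : Cfg → ℝ := fun H => sg (cex S l₂ X H)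
  set Ψ : (Fin 4 → Cfg) → ℝ := fun a => if k : ∃ K ∈ S ∩ G, l₁ K = a then Φ k.choose else 0
  have b : ∀ a, |Ψ a| ≤ 1 := fun a => by
    simp only [Ψ]; split_ifs
    · exact abs_sg _
    · simp
  have e : ∀ H ∈ S ∩ G, Ψ (l₁ H) = Φ H := fun H hH => by
    have k : ∃ K ∈ S ∩ G, l₁ K = l₁ H := ⟨H, hH, rfl⟩
    simp only [Ψ, dif_pos k, Φ]
    rw [cex_congr X (h _ k.choose_spec.1 H hH k.choose_spec.2)]
  have h1 := ex_lab_le S l₁ X (fun H => Ψ (l₁ H)) (fun H _ K _ e => by simp only [e])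
    fun H _ => b _
  have h2 := abs_Ex_ind_le S Gᶜ fun H => |X H|
  simp only [sq_abs] at h2
  have h3 : Ex S (fun H => Φ H * X H) ≤
      Ex S fun H => Ψ (l₁ H) * X H + 2 * (Gᶜ.indicator 1 H * |X H|) := by
    refine Ex_mono fun H hH => ?_
    by_cases hG : H ∈ G
    · simp [e H ⟨hH, hG⟩, hG]
    · have k1 := abs_le.1 (b (l₁ H))
      have k2 := abs_le.1 (abs_sg (cex S l₂ X H))
      simp only [mem_compl_iff, hG, not_false_eq_true, indicator_of_mem, Pi.one_apply, one_mul, Φ]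
      rcases abs_cases (X H) with k | k <;> nlinarith
  rw [Ex_add, Ex_mul_left] at h3
  rw [ex_abs_cex]
  nlinarith [le_abs_self (Ex S fun H => Ψ (l₁ H) * X H),
    le_abs_self (Ex S fun H => Gᶜ.indicator 1 H * |X H|)]

theorem good_mu (N : ℕ) : Good (mu N) := good_free (hex_finite 0 N) 0

theorem sqrt_small {C e : ℝ} (he : 0 < e) : ∃ η : ℝ, 0 < η ∧ ∀ a b : ℝ, a ≤ C → b ≤ η →
    √a * √b ≤ e := by
  refine ⟨e ^ 2 / (|C| + 1), by positivity, fun a b ha hb => ?_⟩
  calc √a * √b ≤ √(|C| + 1) * √(e ^ 2 / (|C| + 1)) := by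
        gcongr; linarith [le_abs_self C]
    _ = e := by
        rw [← Real.sqrt_mul (by positivity), mul_div_cancel₀ _ (by positivity),
          Real.sqrt_sq he.le]

theorem pie2 (h1 : RefL) (h2 : Shifts) (h3 : Pie1) (h4 : X2) : Pie2 := by
  intro a s ht hm e he
  obtain ⟨C, hC⟩ := (h4 a s ht).1
  obtain ⟨η, hη, k⟩ := sqrt_small (C := C) (e := e / 4) (by positivity)
  filter_upwards [h2 η hη, eventually_ge_atTop 20] with θ h5 h6
  filter_upwards [ht.1.eventually h5, hC, h3 a s ht hm θ h6 (e / 2) (by positivity)]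
    with t h7 h8 h9
  filter_upwards [h7, h8, h9] with N ⟨G, g1, g2⟩ h8 h9
  have := h1 (mu N) G _ _ (lin (a t)) (good_mu N) g2
  have := k _ _ h8 g1
  linarith

end Vale.Agent.P153.Seal
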