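import Vale.Agent.P153.Seal.Stm2
import Vale.Agent.P153.Seal.RefL

/-! Harmonicity under two-valued boundary conditions. -/

open Set Filter

namespace Vale.Agent.P153.Seal

namespace Harx

theorem res_eq {U : Set V} (H : Cfg) {x : V} (h : x ∈ U) : res U H x = H x := if_pos h

/-- The conditional mean only depends on the outer boundary, up to an invariant shift. -/
theorem fill_mean (h5 : LocF) {U : Set V} (hU : U.Finite) {X : Cfg → ℝ} (hX : DepOn X U) (c : ℤ)
    (hc : ∀ H, X (fun y => H y - c) = X H) {H₁ H₂ : Cfg} (l1 : Lip H₁) (l2 : Lip H₂)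
    (e : ∀ y ∈ obd U, H₂ y = H₁ y + c) : Ex (fill U H₂) X = Ex (fill U H₁) X := by
  have h := h5 U ∅ 0 H₁ H₂ c X hU l1 l2 e
  simp only [mem_empty_iff_false, false_imp_iff, implies_true, and_true, setOf_mem_eq] at h
  have r : ∀ H, X (res U H) = X H := fun H => hX _ _ fun x hx => res_eq H hx
  simpa only [r, hc] using h

theorem inv_sub {X : Cfg → ℝ} (h : Inv4 X) (H : Cfg) : X (fun y => H y - 4) = X H := by
  have := h fun y => H y - 4
  simp only [sub_add_cancel] at this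
  exact this.symm

theorem lip_add4 {H : Cfg} (h : Lip H) : Lip fun x => H x + 4 := fun x y hxy => by
  simpa using h x y hxy

theorem obd_Q {n : ℕ} (hn : 1 ≤ n) : obd (Q n) ⊆ hex 0 (34 * n) := by
  rintro x ⟨-, y, hy, hxy⟩
  rw [Q, mem_rh] at hy
  rw [adj_iff] at hxy
  rw [mem_hex, nrm_sub_le_iff]
  simp only [Prod.fst_zero, Prod.snd_zero] at hy ⊢
  push_cast at hy ⊢
  omega

theorem rh_Q (n : ℕ) : rh 0 n ⊆ Q n := by
  intro x hx
  rw [Q, mem_rh]
  rw [mem_rh] at hx
  simp only [Prod.fst_zero, Prod.snd_zero] at hx ⊢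
  push_cast at hx ⊢
  omega

theorem Q_hex (n : ℕ) : Q n ⊆ hex 0 (40 * n) :=
  rh_subset_hex.trans (hex_mono (by omega))

/-- The large deviation event has a local invariant version. -/
theorem exists_event (h4 : DepX) (h5 : LocF) {U A : Set V} (hU : U.Finite) (hA : obd U ⊆ A)
    {X : Cfg → ℝ} (hX : DepOn X U) (hI : Inv4 X) (e : ℝ) :
    ∃ E : Set Cfg, DepOn (fun H => H ∈ E) A ∧ Inv4 (fun H => H ∈ E) ∧
      ∀ H, Lip H → (H ∈ E ↔ e < |Ex (fill U H) X|) := by
  classical
  obtain ⟨g, g1, g2, -, g4⟩ := h4 A (fun H => if e < |Ex (fill U H) X| then 1 else 0) 1 zero_le_one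
    (fun H l H' l' h => by
      have : Ex (fill U H) X = Ex (fill U H') X :=
        fill_mean h5 hU hX 0 (fun K => by simp) l' l fun y hy => by simpa using h y (hA hy)
      simp only [this])
    (fun H l => by
      have : Ex (fill U fun x => H x + 4) X = Ex (fill U H) X :=
        fill_mean h5 hU hX 4 (inv_sub hI) l (lip_add4 l) fun y _ => rfl
      simp only [this])
    (fun H _ => by split_ifs <;> simp)
  refine ⟨{H | g H = 1}, fun H H' h => ?_, fun H => ?_, fun H l => ?_⟩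
  · simp only [mem_setOf_eq, g1 H H' h]
  · simp only [mem_setOf_eq, g2 H]
  · simp only [mem_setOf_eq, g4 H l]
    split_ifs with h <;> simp [h]

/-- The splitting bound. -/
theorem split_bound {S : Set Cfg} {U : Set V} (hS : ∀ H ∈ S, Lip H ∧ fill U H ⊆ S)
    (X G : Cfg → ℝ) (hG : ∀ H, |G H| ≤ 1) (hD : DepOn G Uᶜ) {e : ℝ} (he : 0 ≤ e) :
    |Ex S fun H => X H * G H| ≤
      e + √(Ex S fun H => X H ^ 2) * √(Pr S {H | e < |Ex (fill U H) X|}) := by
  set E : Set Cfg := {H | e < |Ex (fill U H) X|} with hE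
  have hc : ∀ H, ∀ H' ∈ fill U H, fill U H' = fill U H := fun H H' h => by
    ext K
    exact ⟨fun k => ⟨k.1, fun x hx => (k.2 x hx).trans (h.2 x hx)⟩,
      fun k => ⟨k.1, fun x hx => (k.2 x hx).trans (h.2 x hx).symm⟩⟩
  have s1 : (Ex S fun H => X H * G H) = (Ex S fun H => E.indicator 1 H * (G H * X H)) +
      Ex S fun H => (Eᶜ.indicator 1 H * G H) * X H := by
    rw [← Ex_add]
    refine Ex_congr fun H _ => ?_
    rw [ind_compl]
    ring
  have s2 : (Ex S fun H => (Eᶜ.indicator 1 H * G H) * X H) =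
      Ex S fun H => (Eᶜ.indicator 1 H * G H) * Ex (fill U H) X := by
    refine tower_cell (fill U) (fun H h => ⟨⟨(hS H h).1, fun _ _ => rfl⟩, (hS H h).2⟩)
      (fun H _ => hc H) X _ fun H _ H' h => ?_
    have a1 : G H' = G H := hD _ _ fun x hx => h.2 x hx
    have a2 : H' ∈ E ↔ H ∈ E := by simp only [hE, mem_setOf_eq, hc H H' h]
    have a3 : Eᶜ.indicator (1 : Cfg → ℝ) H' = Eᶜ.indicator 1 H := by
      by_cases k : H ∈ E
      · simp [k, a2.2 k]
      · simp [k, mt a2.1 k]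
    rw [a1, a3]
  have s3 : |Ex S fun H => (Eᶜ.indicator 1 H * G H) * Ex (fill U H) X| ≤ e := by
    refine abs_Ex_le_of he fun H _ => ?_
    by_cases k : H ∈ E
    · simpa [k] using he
    · have k' : |Ex (fill U H) X| ≤ e := not_lt.1 k
      simp only [indicator_of_mem (show H ∈ Eᶜ from k), Pi.one_apply, one_mul, abs_mul]
      calc |G H| * |Ex (fill U H) X| ≤ 1 * e :=
            mul_le_mul (hG H) k' (abs_nonneg _) zero_le_one
        _ = e := one_mul e
  have s4 : (Ex S fun H => (G H * X H) ^ 2) ≤ Ex S fun H => X H ^ 2 := by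
    refine Ex_mono fun H _ => ?_
    rw [mul_pow]
    refine mul_le_of_le_one_left (sq_nonneg _) ?_
    rw [sq_le_one_iff_abs_le_one]
    exact hG H
  have s5 := abs_Ex_ind_le S E fun H => G H * X H
  have s6 : √(Pr S E) * √(Ex S fun H => (G H * X H) ^ 2) ≤
      √(Ex S fun H => X H ^ 2) * √(Pr S E) := by
    rw [mul_comm]
    exact mul_le_mul_of_nonneg_right (Real.sqrt_le_sqrt s4) (Real.sqrt_nonneg _)
  rw [s1, s2]
  refine (abs_add_le _ _).trans ?_
  linarith

end Harx

open Harx in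
theorem har (h1 : Hnu) (h2 : CtDob) (h3 : X2) (h4 : DepX) (h5 : LocF) : Har := by
  intro a s hT hM e he L
  obtain ⟨-, x2, x3⟩ := h3 a s hT
  obtain ⟨C2, x2⟩ := x2 L
  obtain ⟨η, hη, hs⟩ := sqrt_small (C := C2) (half_pos he)
  obtain ⟨C, hC⟩ := h2 (η / 2) (half_pos hη) L
  have hC1 : 0 < |C| + 1 := by positivity
  have hN := h1 a s hT hM (e / 2 * (η / 2 / (|C| + 1))) (by positivity)
  filter_upwards [x2, x3, hN, hT.1.eventually hC, hT.1.eventually (eventually_ge_atTop 1)]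
    with t y2 y3 yN yC y1 F S G hF1 hF2 hG hD
  obtain ⟨N, zN, zC⟩ := (yN.and yC).exists
  have hX : DepOn (lin (a t)) (Q (s t)) := fun H H' h => y3.1 H H' fun x hx => h x (rh_Q _ hx)
  obtain ⟨E, e1, e2, e3⟩ :=
    exists_event h4 h5 (U := Q (s t)) (rh_finite _ _) (obd_Q y1) hX y3.2 (e / 2)
  have b1 := split_bound (S := dob F S) (U := Q (s t)) (fun H h => ⟨h.1, fun K k =>
    ⟨k.1, fun x hx => by
      rw [k.2 x fun hq => hx (hF1 (Q_hex _ hq))]
      exact h.2 x hx⟩⟩) (lin (a t)) G hG hD (half_pos he).le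
  have p1 : Pr (dob F S) {H | e / 2 < |Ex (fill (Q (s t)) H) (lin (a t))|} = Pr (dob F S) E :=
    Pr_congr fun H h => (e3 H h.1).symm
  have p2 : e / 2 * Pr (mu N) E ≤ Ex (mu N) fun H => |Ex (fill (Q (s t)) H) (lin (a t))| :=
    markov (fun _ _ => abs_nonneg _) fun H h k => ((e3 H h.1).1 k).le
  have p3 : Pr (mu N) E ≤ η / 2 / (|C| + 1) :=
    le_of_mul_le_mul_left (p2.trans zN) (half_pos he)
  have p4 : C * Pr (mu N) E ≤ η / 2 := by
    rw [le_div_iff₀ hC1] at p3
    nlinarith [Pr_nonneg (mu N) E, le_abs_self C]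
  have p5 := zC F S E hF1 hF2 e1 e2
  have b2 := hs _ _ (y2 F S hF2) (show Pr (dob F S) E ≤ η by linarith)
  rw [p1] at b1
  linarith

end Vale.Agent.P153.Seal
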