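import Vale.Agent.P153.Seal.RefL

/-! Harmonicity under the reference measure. -/

open Set Filter

namespace Vale.Agent.P153.Seal

theorem Hnu_nm {α : Type} {f : Cfg → α} (h : Inv4 f) (x : V) (H : Cfg) : f (nm x H) = f H := by
  rw [← h.shift (-(H x / 4)) H]
  congr 1
  funext y
  simp only [nm]
  ring

theorem Hnu_nm2 (x : V) (H : Cfg) : nm x (nm x H) = nm x H := by
  funext y
  simp only [nm]
  omega

theorem Hnu_fill_congr {U : Set V} {H K : Cfg} (h : ∀ x ∈ Uᶜ, H x = K x) : fill U H = fill U K := by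
  ext L
  exact and_congr_right fun _ => forall₂_congr fun x hx => by rw [h x hx]

theorem Hnu_inv {U : Set V} {X : Cfg → ℝ} (h : Inv4 X) : Inv4 fun H => Ex (fill U H) X := by
  intro H
  have hb : BijOn (fun K : Cfg => fun x => K x + 4) (fill U H) (fill U fun x => H x + 4) := by
    refine InvOn.bijOn (f' := fun K : Cfg => fun x => K x + -4)
      ⟨fun K _ => funext fun x => by simp, fun K _ => funext fun x => by simp⟩
      (fun K hK => ⟨lip_add hK.1 4, fun x hx => by simp only [hK.2 x hx]⟩)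
      fun K hK => ⟨lip_add hK.1 (-4), fun x hx => ?_⟩
    simp only [hK.2 x hx]
    ring
  show Ex (fill U fun x => H x + 4) X = Ex (fill U H) X
  rw [← Ex_bij hb]
  exact Ex_congr fun K _ => h K

theorem Hnu_sub {n N : ℕ} (h : 40 * n + 2 ≤ N) {H : Cfg} (hH : H ∈ mu N) :
    fill (Q n) H ⊆ mu N := by
  intro K hK
  refine ⟨hK.1, fun x hx => ?_, fun x hx => ?_⟩
  · rw [hK.2 x fun hq => hx ?_, hH.2.1 x hx]
    simp only [Q, rh, hex, mem_ofPred_eq, sub_zero, nrm_le_iff] at hq ⊢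
    omega
  · rw [hK.2 x fun hq => ?_]
    · exact hH.2.2 x hx
    · obtain ⟨-, y, hy, ha⟩ := hx
      rw [adj_iff] at ha
      simp only [Q, rh, hex, mem_ofPred_eq, sub_zero, nrm_le_iff] at hq hy
      omega

theorem Hnu_cex (h6 : NormL) (N n w : ℕ) {X : Cfg → ℝ} (h : Inv4 X) :
    Ex (mun N (bp n 0)) (fun H => |cex (mun N (bp n 0)) (lab2 n w) X H|) =
      Ex (mu N) fun H => |cex (mu N) (lab2 n w) X H| := by
  have hb := h6 N (bp n 0)
  have hl : ∀ H, lab2 n w (nm (bp n 0) H) = lab2 n w H := fun H => by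
    simp only [lab2, Hnu_nm2]
  rw [← Ex_bij hb]
  refine Ex_congr fun H _ => ?_
  have hc : BijOn (nm (bp n 0)) (mu N ∩ {K | lab2 n w K = lab2 n w H})
      (mun N (bp n 0) ∩ {K | lab2 n w K = lab2 n w (nm (bp n 0) H)}) := by
    refine ⟨fun K hK => ⟨hb.mapsTo hK.1, ?_⟩, hb.injOn.mono inter_subset_left, fun K hK => ?_⟩
    · show lab2 n w _ = lab2 n w _
      rw [hl, hl]
      exact hK.2
    · obtain ⟨L, hL, rfl⟩ := hb.surjOn hK.1
      refine ⟨L, ⟨hL, ?_⟩, rfl⟩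
      have h2 : lab2 n w _ = lab2 n w _ := hK.2
      rwa [hl, hl] at h2
  unfold cex
  rw [← Ex_bij hc, Ex_congr fun K _ => Hnu_nm h (bp n 0) K]

theorem hnu (h1 : Pie2) (h2 : Cov) (h3 : X2) (_h4 : DepX) (_h5 : LocF) (h6 : NormL) (h7 : CellL) :
    Hnu := by
  intro a s ht hm e he
  obtain ⟨⟨C, hC⟩, -, hD⟩ := h3 a s ht
  have hs : 0 < √C + 1 := by positivity
  obtain ⟨θ, h8, h9⟩ := ((h1 a s ht hm (e / 2) (half_pos he)).and
    (h2 (e / 2 / (√C + 1)) (div_pos (half_pos he) hs))).exists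
  filter_upwards [h8, ht.1.eventually h9, hC, hD] with t h8 h9 hC hD
  filter_upwards [h8, h9, hC] with N h8 ⟨p, m, hP, h9⟩ hC
  obtain ⟨X, hX⟩ : ∃ X, X = lin (a t) := ⟨_, rfl⟩
  obtain ⟨n, hn⟩ : ∃ n, n = s t := ⟨_, rfl⟩
  rw [← hX] at h8 hC hD ⊢
  rw [← hn] at h8 h9 hP hD ⊢
  obtain ⟨Φ, hΦ⟩ : ∃ Φ : Cfg → ℝ, Φ = fun H => sg (Ex (fill (Q n) H) X) := ⟨_, rfl⟩
  have hΦd : DepOn Φ (Q n)ᶜ := fun H K h => by simp only [hΦ, Hnu_fill_congr h]
  have hΦ1 : ∀ H, |Φ H| ≤ 1 := fun H => by simp only [hΦ, abs_sg]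
  have hΦ4 : Inv4 Φ := fun H => by
    rw [hΦ]
    exact congrArg sg (Hnu_inv hD.2 H)
  have hb := h6 N (bp n 0)
  have e1 : Ex (mu N) (fun H => |Ex (fill (Q n) H) X|) = Ex (mu N) fun H => Φ H * X H := by
    rw [tower_cell (fill (Q n)) (fun H hH => ⟨⟨hH.1, fun _ _ => rfl⟩, Hnu_sub hP.2.2.2.2 hH⟩)
      (fun H _ K hK => Hnu_fill_congr hK.2) X Φ fun H _ K hK => hΦd K H hK.2]
    simp only [hΦ, sg_mul]
  have e2 : Ex (mu N) (fun H => Φ H * X H) = Ex (mun N (bp n 0)) fun H => X H * Φ H := by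
    rw [← Ex_bij hb]
    exact Ex_congr fun H _ => by rw [Hnu_nm hD.2, Hnu_nm hΦ4, mul_comm]
  have e3 : Ex (mun N (bp n 0)) (fun H => X H ^ 2) = Ex (mu N) fun H => X H ^ 2 := by
    rw [← Ex_bij hb]
    exact Ex_congr fun H _ => by rw [Hnu_nm hD.2]
  have e4 : Ex (mun N (bp n 0)) (fun H => X H * Φ H) ≤ Ex (mun N (bp n 0)) (fun H =>
      |Ex (cell3 N n (n / θ) p m H) (fun K => X K * Φ K) -
        Ex (cell3 N n (n / θ) p m H) X * Ex (cell3 N n (n / θ) p m H) Φ|) +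
      Ex (mun N (bp n 0)) fun H => |cex (mun N (bp n 0)) (lab3 n (n / θ) p m) X H| := by
    rw [tower _ (lab3 n (n / θ) p m), ← Ex_add]
    refine Ex_mono fun H _ => ?_
    show Ex (cell3 N n (n / θ) p m H) (fun K => X K * Φ K) ≤ _ + |Ex (cell3 N n (n / θ) p m H) X|
    have k1 : |Ex (cell3 N n (n / θ) p m H) Φ| ≤ 1 := abs_Ex_le_of zero_le_one fun K _ => hΦ1 K
    have k2 := (le_abs_self _).trans ((abs_mul (Ex (cell3 N n (n / θ) p m H) X)
      (Ex (cell3 N n (n / θ) p m H) Φ)).le.trans (mul_le_of_le_one_right (abs_nonneg _) k1))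
    have k3 := le_abs_self (Ex (cell3 N n (n / θ) p m H) (fun K => X K * Φ K) -
      Ex (cell3 N n (n / θ) p m H) X * Ex (cell3 N n (n / θ) p m H) Φ)
    linarith
  have e5 : Ex (mun N (bp n 0)) (fun H => |cex (mun N (bp n 0)) (lab3 n (n / θ) p m) X H|) ≤
      Ex (mun N (bp n 0)) fun H => |cex (mun N (bp n 0)) (lab2 n (n / θ)) X H| := by
    rw [ex_abs_cex]
    exact (le_abs_self _).trans (ex_lab_le _ _ X _
      (fun H hH K hK e => by rw [cex_congr X ((h7 N n _ p m hP).1 H hH K hK e)])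
      fun H _ => abs_sg _)
  have e6 := h9 X Φ hD.1 hΦd hΦ1
  rw [e3] at e6
  have e7 : e / 2 / (√C + 1) * √(Ex (mu N) fun H => X H ^ 2) ≤ e / 2 := by
    rw [div_mul_eq_mul_div, div_le_iff₀ hs]
    exact mul_le_mul_of_nonneg_left ((Real.sqrt_le_sqrt hC).trans (le_add_of_nonneg_right
      zero_le_one)) (half_pos he).le
  rw [Hnu_cex h6 N n _ hD.2] at e5
  rw [e1, e2]
  linarith

end Vale.Agent.P153.Seal
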