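import Vale.Agent.P153.Seal.Stm2

/-! An abstract law of large numbers. -/

open Set Filter

namespace Vale.Agent.P153.Seal

namespace LLNx

theorem ind_dep {E : Set Cfg} {A B : Set V} (h : DepOn (fun H => H ∈ E) A) (hAB : A ⊆ B) :
    DepOn (E.indicator (1 : Cfg → ℝ)) B := fun H H' e => by
  have h1 : H ∈ E ↔ H' ∈ E := iff_of_eq (h H H' fun x hx => e x (hAB hx))
  by_cases h2 : H ∈ E
  · simp [h2, h1.1 h2]
  · simp [h2, mt h1.2 h2]

theorem prod_mem {ι : Type} (s : Finset ι) {a : ι → ℝ} (h0 : ∀ i, 0 ≤ a i) (h1 : ∀ i, a i ≤ 1) :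
    0 ≤ ∏ i ∈ s, a i ∧ ∏ i ∈ s, a i ≤ 1 :=
  ⟨Finset.prod_nonneg fun i _ => h0 i, Finset.prod_le_one (fun i _ => h0 i) fun i _ => h1 i⟩

theorem peel {ι : Type} {S : Set Cfg} {A B : ι → Set V} {E : ι → Set Cfg} {e : ℝ}
    (h1 : ∀ q, DepOn (fun H => H ∈ E q) (A q)) (h2 : ∀ q q', q ≠ q' → A q' ⊆ B q)
    (h3 : ∀ q, ∀ g : Cfg → ℝ, (∀ H, |g H| ≤ 1) → DepOn g (B q) →
      |Ex S (fun H => (E q).indicator 1 H * g H) - Pr S (E q) * Ex S g| ≤ e)
    {g : Cfg → ℝ} (hg : ∀ H, |g H| ≤ 1) (hd : ∀ q, DepOn g (B q)) (s : Finset ι) :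
    |Ex S (fun H => (∏ q ∈ s, (E q).indicator 1 H) * g H) - (∏ q ∈ s, Pr S (E q)) * Ex S g| ≤
      s.card * e := by
  classical
  induction s using Finset.induction_on with
  | empty => simp
  | insert q s hq ih =>
    have h4 := h3 q (fun H => (∏ q ∈ s, (E q).indicator 1 H) * g H) (fun H => by
      obtain ⟨p1, p2⟩ := prod_mem s (fun q => ind_nonneg (E q) H) fun q => ind_le_one (E q) H
      rw [abs_mul, abs_of_nonneg p1]
      exact mul_le_one₀ p2 (abs_nonneg _) (hg H)) fun H H' hH => by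
        have h5 : ∀ q' ∈ s, (E q').indicator (1 : Cfg → ℝ) H = (E q').indicator 1 H' :=
          fun q' hq' => ind_dep (h1 q') (h2 q q' fun h => hq (h ▸ hq')) H H' hH
        simp only [hd q H H' hH, Finset.prod_congr rfl h5]
    simp only [Finset.prod_insert hq, Finset.card_insert_of_notMem hq, mul_assoc]
    have h5 := mul_le_mul (Pr_le_one S (E q)) ih (abs_nonneg _) zero_le_one
    rw [← abs_of_nonneg (Pr_nonneg S (E q)), ← abs_mul, mul_sub] at h5
    have h6 := (abs_sub_le _ _ _).trans (add_le_add h4 h5)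
    push_cast
    linarith

theorem card_eq (E : ℕ → Fin 4 → Set Cfg) (m : ℕ) (H : Cfg) :
    (({j | j < m ∧ ∀ q, H ∈ E j q}.ncard : ℝ)) =
      ∑ j ∈ Finset.range m, ∏ q, (E j q).indicator 1 H := by
  classical
  have e : {j | j < m ∧ ∀ q, H ∈ E j q} = ↑((Finset.range m).filter fun j => ∀ q, H ∈ E j q) := by
    ext j
    simp
  rw [e, ncard_coe_finset, Finset.card_filter]
  push_cast
  refine Finset.sum_congr rfl fun j _ => ?_
  split_ifs with h
  · simp [h]
  · obtain ⟨q, hq⟩ := not_forall.1 h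
    exact (Finset.prod_eq_zero (Finset.mem_univ q) (by simp [hq])).symm

end LLNx

open LLNx in
theorem lln : LLN := by
  intro c hc η hη
  refine ⟨η * c ^ 8 / 32, by positivity, ?_⟩
  filter_upwards [tendsto_natCast_atTop_atTop.eventually_ge_atTop (8 / (η * c ^ 8)),
    eventually_gt_atTop 0] with m hm hm0 S A B E hS h1 h2 h3 h4
  have hm1 : (0 : ℝ) < m := by exact_mod_cast hm0
  rw [div_le_iff₀ (by positivity)] at hm
  set e := η * c ^ 8 / 32 with he
  have he0 : 0 < e := by positivity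
  let X : ℕ → Cfg → ℝ := fun j H => ∏ q, (E j q).indicator 1 H - ∏ q, Pr S (E j q)
  have x1 : ∀ j H, |X j H| ≤ 1 := fun j H => by
    obtain ⟨p1, p2⟩ := prod_mem Finset.univ (fun q => ind_nonneg (E j q) H)
      fun q => ind_le_one (E j q) H
    obtain ⟨p3, p4⟩ := prod_mem Finset.univ (fun q => Pr_nonneg S (E j q))
      fun q => Pr_le_one S (E j q)
    exact abs_le.2 ⟨by simp only [X]; linarith, by simp only [X]; linarith⟩
  have x2 : ∀ i ∈ Finset.range m, ∀ j ∈ Finset.range m,
      Ex S (fun H => X j H * X i H) ≤ (if j = i then 1 else 0) + 4 * e := by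
    intro i hi j hj
    rw [Finset.mem_range] at hi hj
    split_ifs with hij
    · refine (Ex_le hS (c := 1) fun H _ => (le_abs_self _).trans ?_).trans (by linarith)
      rw [abs_mul]
      exact mul_le_one₀ (x1 _ _) (abs_nonneg _) (x1 _ _)
    · have h5 := peel (h1 j) (fun q q' h => h2 j hj j hj q q' fun h' => h (Prod.ext_iff.1 h').2)
        (h3 j hj) (x1 i) (fun q H H' hH => by
          have h5 : ∀ q' ∈ Finset.univ,
              (E i q').indicator (1 : Cfg → ℝ) H = (E i q').indicator 1 H' := fun q' _ =>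
            ind_dep (h1 i q') (h2 j hj i hi q q' fun h' => hij (Prod.ext_iff.1 h').1) H H' hH
          simp only [X, Finset.prod_congr rfl h5]) Finset.univ
      rw [← Ex_mul_left, ← Ex_sub] at h5
      simp only [← sub_mul, Finset.card_univ, Fintype.card_fin, Nat.cast_ofNat] at h5
      rw [zero_add]
      exact (le_abs_self _).trans h5
  have x3 : Ex S (fun H => (∑ j ∈ Finset.range m, X j H) ^ 2) ≤ m + 4 * e * m ^ 2 := by
    simp only [sq, Finset.sum_mul_sum, Ex_sum]
    refine (Finset.sum_le_sum fun j hj => Finset.sum_le_sum fun i hi => x2 i hi j hj).trans ?_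
    refine (Finset.sum_le_sum (g := fun _ => 1 + 4 * e * m) fun j hj => ?_).trans ?_
    · rw [Finset.sum_add_distrib, Finset.sum_ite_eq, if_pos hj]
      simp [mul_comm]
    · simp only [Finset.sum_const, Finset.card_range, nsmul_eq_mul]
      exact le_of_eq (by ring)
  have x4 := markov (S := S) (f := fun H => (∑ j ∈ Finset.range m, X j H) ^ 2)
    (E := {H | (({j | j < m ∧ ∀ q, H ∈ E j q}.ncard : ℝ)) < c ^ 4 / 4 * m})
    (c := (c ^ 4 * m / 2) ^ 2) (fun H _ => sq_nonneg _) fun H _ hH => by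
      rw [mem_ofPred_eq, card_eq] at hH
      have h5 : (m : ℝ) * c ^ 4 ≤ ∑ j ∈ Finset.range m, ∏ q, Pr S (E j q) := by
        have := Finset.card_nsmul_le_sum (Finset.range m) (fun j => ∏ q, Pr S (E j q)) (c ^ 4)
          fun j hj => by
            simpa using Finset.prod_le_prod (s := Finset.univ) (f := fun _ : Fin 4 => c)
              (fun _ _ => hc.le) fun q _ => h4 j (Finset.mem_range.1 hj) q
        simpa using this
      have h6 : 0 < c ^ 4 * m := by positivity
      rw [← neg_sq (∑ j ∈ Finset.range m, X j H)]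
      refine pow_le_pow_left₀ (by positivity) ?_ 2
      simp only [X, Finset.sum_sub_distrib]
      linarith
  refine le_of_mul_le_mul_left (x4.trans (x3.trans ?_)) (by positivity)
  have h5 := mul_le_mul_of_nonneg_right hm hm1.le
  rw [he]
  nlinarith

end Vale.Agent.P153.Seal
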