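import Vale.Agent.P153.Seal.Stm2
import Vale.Agent.P153.FKG.All

/-! Locality lemmas of the module Seal. -/

open Set Filter

namespace Vale.Agent.P153.Seal

theorem res_in {U : Set V} {H : Cfg} {x : V} (h : x ∈ U) : res U H x = H x := if_pos h

theorem res_out {U : Set V} {H : Cfg} {x : V} (h : x ∉ U) : res U H x = 0 := if_neg h

theorem res_congr {U : Set V} {H K : Cfg} (h : ∀ x ∈ U, H x = K x) : res U H = res U K := by
  funext y
  by_cases hy : y ∈ U
  · rw [res_in hy, res_in hy, h y hy]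
  · rw [res_out hy, res_out hy]

theorem res_eq_iff {U : Set V} {H K : Cfg} : res U H = res U K ↔ ∀ x ∈ U, H x = K x :=
  ⟨fun h x hx => by rw [← res_in (H := H) hx, h, res_in hx], res_congr⟩

theorem not_big {κ : V → ℤ} {M : ℕ} {H : Cfg} {x : V} :
    x ∉ big κ M H ↔ κ x - M ≤ H x ∧ H x ≤ κ x + 1 + M := by
  simp only [big, mem_ofPred_eq, not_or, not_lt]

theorem not_big0 {κ : V → ℤ} {H : Cfg} {x : V} : x ∉ big κ 0 H ↔ H x = κ x ∨ H x = κ x + 1 := by
  rw [not_big]; omega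

theorem lip_add {H : Cfg} (h : Lip H) (c : ℤ) : Lip fun y => H y + c := fun x y hxy => by
  simpa using h x y hxy

theorem good_fill {U : Set V} (hU : U.Finite) {H : Cfg} (h : Lip H) : Good (fill U H) :=
  ⟨finite_pin hU H, H, h, fun _ _ => rfl⟩

theorem locF_map {U D : Set V} {κ κ' : V → ℤ} {H₁ H₂ : Cfg} {c : ℤ} (l2 : Lip H₂)
    (e : ∀ y ∈ obd U, H₂ y = H₁ y + c) (hκ : ∀ y, κ' y = κ y + c) :
    MapsTo (fun K => pw U (fun y => K y + c) H₂)
      {H | H ∈ fill U H₁ ∧ ∀ x ∈ D, x ∈ U → x ∉ big κ 0 H}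
      {H | H ∈ fill U H₂ ∧ ∀ x ∈ D, x ∈ U → x ∉ big κ' 0 H} := by
  rintro K ⟨⟨l, h1⟩, h2⟩
  beta_reduce
  refine ⟨⟨(lip_add l c).pw l2 fun a ha b hb hab => ?_, fun x hx => pw_out _ _ hx⟩,
    fun x hx hu => ?_⟩
  · rw [e b ⟨hb, a, ha, hab.symm⟩, ← h1 b hb]
    simpa using l a b hab
  · have := not_big0.1 (h2 x hx hu)
    rw [not_big0, pw_in _ _ hu, hκ]
    omega

theorem locF_bij {U D : Set V} {κ κ' : V → ℤ} {H₁ H₂ : Cfg} {c : ℤ} (l1 : Lip H₁) (l2 : Lip H₂)
    (e : ∀ y ∈ obd U, H₂ y = H₁ y + c) (hκ : ∀ y, κ' y = κ y + c) :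
    BijOn (fun K => pw U (fun y => K y + c) H₂)
      {H | H ∈ fill U H₁ ∧ ∀ x ∈ D, x ∈ U → x ∉ big κ 0 H}
      {H | H ∈ fill U H₂ ∧ ∀ x ∈ D, x ∈ U → x ∉ big κ' 0 H} := by
  refine InvOn.bijOn (f' := fun K => pw U (fun y => K y + -c) H₁) ⟨fun K hK => ?_, fun K hK => ?_⟩
    (locF_map l2 e hκ) (locF_map l1 (fun y hy => by rw [e y hy]; ring) fun y => by rw [hκ]; ring)
  · funext x
    by_cases hx : x ∈ U
    · simp [pw_in _ _ hx]
    · simp only [pw_out _ _ hx]; exact (hK.1.2 x hx).symm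
  · funext x
    by_cases hx : x ∈ U
    · simp [pw_in _ _ hx]
    · simp only [pw_out _ _ hx]; exact (hK.1.2 x hx).symm

theorem locF : LocF := by
  intro U D κ H₁ H₂ c f _ l1 l2 e
  rw [← Ex_bij (locF_bij (D := D) (κ := κ) l1 l2 e fun _ => rfl)]
  refine Ex_congr fun H _ => congrArg f (res_congr fun x hx => ?_)
  simp [pw_in _ _ hx]

theorem locB : LocB := by
  intro U D κ H₁ _ l1 hκ hb
  refine InvOn.bijOn (f' := fun K => pw U (fun y => K y + κ y) H₁)
    ⟨fun K hK => ?_, fun K hK => ?_⟩ ?_ ?_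
  · funext x
    by_cases hx : x ∈ U
    · simp [pw_in _ _ hx, res_in hx]
    · simp only [pw_out _ _ hx]; exact (hK.1.2 x hx).symm
  · funext x
    by_cases hx : x ∈ U
    · simp [pw_in _ _ hx, res_in hx]
    · simp only [res_out hx]; exact (hK.1.2.1 x hx).symm
  · rintro K ⟨⟨l, h1⟩, h2⟩
    beta_reduce
    have k : ∀ x ∈ D ∪ ibd U, res U (fun y => K y - κ y) x = 0 ∨
        res U (fun y => K y - κ y) x = 1 := fun x hx => by
      by_cases hu : x ∈ U
      · have := not_big0.1 (h2 x hx hu)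
        rw [res_in hu]; omega
      · exact Or.inl (res_out hu)
    refine ⟨⟨fun a b hab => ?_, fun x hx => res_out hx, fun x hx => ?_⟩,
      fun x hx => k x (Or.inl hx)⟩
    · by_cases ha : a ∈ U <;> by_cases hb' : b ∈ U
      · rw [res_in ha, res_in hb', hκ a ha b hab]
        simpa using l a b hab
      · have := k a (Or.inr ⟨ha, b, hb', hab⟩)
        rw [res_out hb', abs_le]; omega
      · have := k b (Or.inr ⟨hb', a, ha, hab.symm⟩)
        rw [res_out ha, abs_le]; omega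
      · simp [res_out ha, res_out hb']
    · simpa using k x (Or.inr hx)
  · rintro K ⟨⟨l, h1, h3⟩, h2⟩
    beta_reduce
    refine ⟨⟨fun a b hab => ?_, fun x hx => pw_out _ _ hx⟩, fun x hx hu => ?_⟩
    · by_cases ha : a ∈ U <;> by_cases hb' : b ∈ U
      · rw [pw_in _ _ ha, pw_in _ _ hb', hκ a ha b hab]
        simpa using l a b hab
      · have := h3 a ⟨ha, b, hb', hab⟩
        have := not_big0.1 (hb b ⟨hb', a, ha, hab.symm⟩)
        have := hκ a ha b hab
        rw [pw_in _ _ ha, pw_out _ _ hb', abs_le]; omega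
      · have := h3 b ⟨hb', a, ha, hab.symm⟩
        have := not_big0.1 (hb a ⟨ha, b, hb', hab⟩)
        have := hκ b hb' a hab.symm
        rw [pw_in _ _ hb', pw_out _ _ ha, abs_le]; omega
      · rw [pw_out _ _ ha, pw_out _ _ hb']; exact l1 a b hab
    · rw [not_big0, pw_in _ _ hu]
      rcases hx with hx | hx
      · have := h2 x hx; omega
      · have := h3 x hx; omega

end Vale.Agent.P153.Seal
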