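import Vale.Agent.P153.Seal.RefL

/-! Conditioning on the four patterns. -/

open Set Filter

namespace Vale.Agent.P153.Seal

theorem pie1_loc (h4 : LocF) {U : Set V} (hU : U.Finite) {ξ : Cfg → Cfg} (hd : DepOn ξ U) {c : ℤ}
    (hc : ∀ K : Cfg, ξ (fun y => K y - c) = ξ K) {H₁ H₂ : Cfg} (l1 : Lip H₁) (l2 : Lip H₂)
    (e : ∀ y ∈ obd U, H₂ y = H₁ y + c) (b : Cfg) :
    Pr (fill U H₂) {K | ξ K = b} = Pr (fill U H₁) {K | ξ K = b} := by
  have k := h4 U ∅ 0 H₁ H₂ c ({K | ξ K = b}.indicator 1) hU l1 l2 e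
  have r : ∀ K : Cfg, ξ (res U K) = ξ K := fun K => hd _ _ fun x hx => res_in hx
  simp only [mem_empty_iff_false, false_imp_iff, implies_true, and_true, ofPred_mem_eq] at k
  refine (Ex_congr fun K _ => ?_).trans (k.trans (Ex_congr fun K _ => ?_))
  · by_cases h : ξ K = b <;> simp [indicator, r, hc, h]
  · by_cases h : ξ K = b <;> simp [indicator, r, h]

theorem pie1_sum (S : Set Cfg) (ξ : Cfg → Cfg) (T : Finset Cfg) :
    ∑ b ∈ T, Pr S {K | ξ K = b} ≤ 1 := by
  classical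
  simp only [Pr]
  rw [← Ex_sum]
  refine Ex_le' zero_le_one fun H _ => ?_
  have : ∀ b ∈ T, ({K | ξ K = b} : Set Cfg).indicator (1 : Cfg → ℝ) H =
      if ξ H = b then 1 else 0 := fun b _ => by
    by_cases h : ξ H = b <;> simp [h]
  rw [Finset.sum_congr rfl this, Finset.sum_ite_eq]
  split_ifs <;> norm_num

/-- The truncated density. -/
noncomputable def pie1Trn (u v : ℝ) : ℝ := if u ≤ v then u / v else 0

theorem pie1_abs_trn {u v : ℝ} (hu : 0 ≤ u) : |pie1Trn u v| ≤ 1 := by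
  unfold pie1Trn
  split_ifs with h
  · rw [abs_of_nonneg (div_nonneg hu (hu.trans h))]
    exact div_le_one_of_le₀ h (hu.trans h)
  · simp

theorem pie1_mul_trn {u v : ℝ} (hu : 0 ≤ u) (h : u ≤ v) : v * pie1Trn u v = u := by
  rw [pie1Trn, if_pos h]
  rcases (hu.trans h).eq_or_lt with k | k
  · rw [← k, zero_mul]; linarith
  · field_simp

theorem pie1_core (h1 : ProdL) (h3 : DepX) (h4 : LocF) {S : Set Cfg} {U M : Fin 4 → Set V}
    {ξ : Fin 4 → Cfg → Cfg} {X : Cfg → ℝ} {C e : ℝ} (hS : Good S) (hU : ∀ i, (U i).Finite)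
    (hf : ∀ i, ∀ H ∈ S, Lip H ∧ fill (U i) H ⊆ S)
    (hd : ∀ i j, i ≠ j → Disjoint (U i ∪ obd (U i)) (U j)) (hξ : ∀ i, DepOn (ξ i) (U i))
    (hξ4 : ∀ i, Inv4 (ξ i)) (hX : DepOn X (⋃ i, U i)ᶜ) (hM : ∀ i, obd (U i) ⊆ M i) (hC : 0 < C)
    (he : 0 ≤ e) (hm : ∀ Φ : Fin 4 → Cfg → ℝ, (∀ i H, |Φ i H| ≤ 1) → (∀ i, DepOn (Φ i) (M i)) →
      (∀ i, Inv4 (Φ i)) → |Ex S (fun H => X H * ∏ i, Φ i H)| ≤ e) :
    Ex S (fun H => |cex S (fun H i => ξ i H) X H|) ≤ C ^ 4 * e +
      √(Ex S fun H => X H ^ 2) * √(Pr S (⋃ i ∈ (Finset.univ : Finset (Fin 4)),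
        {H | C * Pr S {K | ξ i K = ξ i H} < Pr (fill (U i) H) {K | ξ i K = ξ i H}})) := by
  classical
  set π : Fin 4 → Cfg → Cfg → ℝ := fun i H b => Pr (fill (U i) H) {K | ξ i K = b} with hπ
  set p : Fin 4 → Cfg → ℝ := fun i b => Pr S {K | ξ i K = b} with hp
  set B : Set Cfg := ⋃ i ∈ (Finset.univ : Finset (Fin 4)), {H | C * p i (ξ i H) < π i H (ξ i H)}
    with hB
  set σ : (Fin 4 → Cfg) → ℝ := fun a => sg (Ex (S ∩ {K | (fun i => ξ i K) = a}) X) with hσ
  have l0 : ∀ i b, DepS {H | Lip H} (obd (U i)) fun H => π i H b := fun i b H l K l' e =>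
    pie1_loc h4 (hU i) (hξ i) (c := 0) (fun K => by simp) l' l (fun y hy => by simp [e y hy]) b
  have l4 : ∀ i b H, Lip H → π i (fun x => H x + 4) b = π i H b := fun i b H l =>
    pie1_loc h4 (hU i) (hξ i) (c := 4) (fun K => by rw [← hξ4 i]; simp) l (lip_add l 4)
      (fun _ _ => rfl) b
  set g : (Fin 4 → Cfg) → Cfg → ℝ :=
    fun a H => if ∀ i, π i H (a i) ≤ C * p i (a i) then σ a * X H else 0 with hg
  set T : Finset (Fin 4 → Cfg) := Fintype.piFinset fun i => hS.1.toFinset.image (ξ i) with hT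
  have k1 := h1 S U ξ g T hS hU hf hd hξ (fun a H hH K hK e => ?_) fun H hH =>
    Fintype.mem_piFinset.2 fun i => Finset.mem_image_of_mem _ (hS.1.mem_toFinset.2 hH)
  swap
  · have q : ∀ i, π i H (a i) = π i K (a i) := fun i =>
      l0 i (a i) H (hf i H hH).1 K (hf i K hK).1 fun x hx => e x fun h => by
        obtain ⟨j, hj⟩ := mem_iUnion.1 h
        by_cases hij : i = j
        · exact hx.1 (hij ▸ hj)
        · exact disjoint_left.1 (hd i j hij) (Or.inr hx) hj
    simp only [hg, q, hX H K e]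
  have k2 : ∀ a ∈ T, Ex S (fun H => g a H * ∏ i, π i H (a i)) ≤ (∏ i, p i (a i)) * (C ^ 4 * e) := by
    intro a _
    choose Φ d1 d2 d3 d4 using fun i => h3 (M i) (fun H => pie1Trn (π i H (a i)) (C * p i (a i))) 1
      zero_le_one (fun H l K l' e => by
        simp only [show π i H (a i) = π i K (a i) from l0 i _ H l K l' fun x hx => e x (hM i hx)])
      (fun H l => by simp only [l4 i _ H l]) fun H _ => pie1_abs_trn (Pr_nonneg _ _)
    have q : Ex S (fun H => g a H * ∏ i, π i H (a i)) =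
        σ a * (∏ i, p i (a i)) * C ^ 4 * Ex S fun H => X H * ∏ i, Φ i H := by
      rw [← Ex_mul_left]
      refine Ex_congr fun H hH => ?_
      simp only [d4 _ H (hf 0 H hH).1, hg]
      split_ifs with h
      · rw [← Finset.prod_congr rfl fun i _ => pie1_mul_trn (Pr_nonneg _ _) (h i)]
        simp only [Finset.prod_mul_distrib, Finset.prod_const, Finset.card_univ, Fintype.card_fin]
        ring
      · obtain ⟨i, hi⟩ := not_forall.1 h
        rw [Finset.prod_eq_zero (f := fun i => pie1Trn (π i H (a i)) (C * p i (a i)))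
          (Finset.mem_univ i) (if_neg hi)]
        ring
    have q0 : 0 ≤ ∏ i, p i (a i) := Finset.prod_nonneg fun i _ => Pr_nonneg _ _
    rw [q]
    refine (le_abs_self _).trans ?_
    rw [abs_mul, abs_mul, abs_mul, abs_of_nonneg q0, abs_of_pos (pow_pos hC 4)]
    calc _ ≤ 1 * (∏ i, p i (a i)) * C ^ 4 * e := by
          gcongr
          · exact abs_sg _
          · exact hm Φ d3 d1 d2
      _ = _ := by ring
  have k3 : ∑ a ∈ T, ∏ i, p i (a i) ≤ 1 := by
    rw [hT, ← Finset.prod_univ_sum]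
    exact Finset.prod_le_one (fun i _ => Finset.sum_nonneg fun b _ => Pr_nonneg _ _)
      fun i _ => pie1_sum S (ξ i) _
  have k4 : Ex S (fun H => g (fun i => ξ i H) H) ≤ C ^ 4 * e := by
    rw [k1]
    refine (Finset.sum_le_sum k2).trans ?_
    rw [← Finset.sum_mul]
    exact mul_le_of_le_one_left (by positivity) k3
  have k5 := abs_Ex_ind_le S B fun H => |X H|
  simp only [sq_abs] at k5
  rw [ex_abs_cex]
  calc _ ≤ Ex S fun H => g (fun i => ξ i H) H + B.indicator 1 H * |X H| := by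
        refine Ex_mono fun H _ => ?_
        simp only [hg]
        split_ifs with h
        · exact le_add_of_nonneg_right (mul_nonneg (ind_nonneg _ _) (abs_nonneg _))
        · obtain ⟨i, hi⟩ := not_forall.1 h
          have : H ∈ B := mem_biUnion (Finset.mem_univ i) (not_le.1 hi)
          simp only [this, indicator_of_mem, Pi.one_apply, one_mul, zero_add]
          refine (le_abs_self _).trans ?_
          rw [abs_mul]
          exact mul_le_of_le_one_left (abs_nonneg _) (abs_sg _)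
    _ ≤ _ := by
        rw [Ex_add, mul_comm (√_)]
        exact add_le_add k4 ((le_abs_self _).trans k5)

theorem pie1_obd {W : Set V} {w : ℕ} (hw : 1 ≤ w) : nb W (w - 1) ∪ obd (nb W (w - 1)) ⊆ nb W w := by
  rintro y (⟨x, hx, h⟩ | ⟨-, z, ⟨x, hx, h⟩, hz⟩)
  · exact ⟨x, hx, by omega⟩
  · have := hz.symm.nrm_le x
    exact ⟨x, hx, by omega⟩

theorem pie1_mp {n w : ℕ} (hn : 20 * w ≤ n) (i : Fin 4) : nb (wp n w i) w ⊆ mp n w i := by
  rintro y ⟨x, hx, h⟩
  rw [nrm_sub_le_iff] at h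
  fin_cases i <;>
    simp only [wp, mp, Q, mem_rh, mem_hex, nrm_sub_le_iff, abs_le, Fin.zero_eta, Fin.mk_one,
      Fin.reduceFinMk, Matrix.cons_val, mem_ofPred_eq, Prod.fst_zero, Prod.snd_zero] at hx ⊢ <;>
    omega

theorem pie1_dis {n w : ℕ} (hw : 1 ≤ w) (_hn : 20 * w ≤ n) {i j : Fin 4} (hij : i ≠ j) :
    Disjoint (nb (wp n w i) w) (nb (wp n w j) (w - 1)) := by
  rw [disjoint_left]
  rintro y ⟨x, hx, h⟩ ⟨z, hz, h'⟩
  rw [nrm_sub_le_iff] at h h'
  fin_cases i <;> fin_cases j <;> first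
    | exact hij rfl
    | simp only [wp, Q, mem_rh, abs_le, Fin.zero_eta, Fin.mk_one, Fin.reduceFinMk,
        Matrix.cons_val, mem_ofPred_eq] at hx hz; omega

theorem pie1_rh {n w : ℕ} (hw : 1 ≤ w) (hn : 20 * w ≤ n) (i : Fin 4) :
    Disjoint (rh 0 n) (mp n w i) := by
  rw [disjoint_left]
  intro y hy h
  fin_cases i <;>
    simp only [mp, mem_rh, Fin.zero_eta, Fin.mk_one, Fin.reduceFinMk, Matrix.cons_val,
      mem_ofPred_eq, Prod.fst_zero, Prod.snd_zero] at hy h <;> omega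

theorem pie1_bp {n w : ℕ} (hn : 20 * w ≤ n) (i : Fin 4) : bp n i ∈ wp n w i := by
  fin_cases i <;>
    simp only [wp, bp, Q, mem_rh, abs_le, Fin.zero_eta, Fin.mk_one, Fin.reduceFinMk,
      Matrix.cons_val, mem_ofPred_eq, Prod.fst_zero, Prod.snd_zero] <;> omega

theorem pie1_hex (n w : ℕ) (i : Fin 4) : mp n w i ⊆ hex 0 (40 * n) := by
  fin_cases i <;> exact fun _ h => h.1

theorem pie1 (h1 : ProdL) (h2 : Ct2) (h3 : DepX) (h4 : LocF) (h5 : X2) : Pie1 := by
  intro a s ht hm θ hθ e he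
  obtain ⟨⟨D, hD⟩, -, hX⟩ := h5 a s ht
  obtain ⟨η, hη, k⟩ := sqrt_small (C := D) (e := e / 2) (by positivity)
  obtain ⟨C, hC, hc⟩ := h2 (η / 4) (by positivity) θ hθ
  filter_upwards [hD, hX, ht.1.eventually hc, ht.1.eventually (eventually_ge_atTop θ),
    hm θ (by omega) (e / 2 / C ^ 4) (by positivity)] with t d1 d2 d3 d4 d5
  filter_upwards [d1, d3, d5, eventually_gt_atTop (40 * s t)] with N d1 d3 d5 d6
  set n := s t
  set w := n / θ
  have hw : 1 ≤ w := (Nat.one_le_div_iff (by omega)).2 d4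
  have hn : 20 * w ≤ n := (Nat.mul_le_mul_right _ hθ).trans (Nat.mul_div_le n θ)
  have u : ∀ i, nb (wp n w i) (w - 1) ∪ obd (nb (wp n w i) (w - 1)) ⊆ mp n w i := fun i =>
    (pie1_obd hw).trans (pie1_mp hn i)
  have wn : ∀ i, wp n w i ⊆ nb (wp n w i) (w - 1) := fun i x hx => ⟨x, hx, by simp⟩
  have := pie1_core h1 h3 h4 (U := fun i => nb (wp n w i) (w - 1)) (M := mp n w)
    (ξ := fun i H => lab1 n w H i) (X := lin (a t)) (good_mu N)
    (fun i => (hex_finite 0 _).subset ((subset_union_left.trans (u i)).trans (pie1_hex n w i)))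
    (fun i H hH => ⟨hH.1, fun K hK => (freeIn_free (hex 0 N) 0).2 H hH K hK.1 fun x hx =>
      hK.2 x fun h => hx ?_⟩)
    (fun i j hij => (pie1_dis hw hn hij).mono_left (pie1_obd hw))
    (fun i H K e => res_congr fun x hx => by
      simp only [nm, e x (wn i hx), e _ (wn i (pie1_bp hn i))])
    (fun i H => res_congr fun x _ => by simp only [nm]; omega)
    (fun H K e => d2.1 H K fun x hx => e x fun h => ?_)
    (fun i => subset_union_right.trans (u i)) hC (by positivity) d5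
  · refine this.trans ?_
    have q := k _ _ d1 ((Pr_biUnion_le (mu N) Finset.univ _).trans
      ((Finset.sum_le_sum fun i _ => d3 i).trans (le_of_eq (by simp; ring))))
    rw [mul_div_cancel₀ _ (by positivity)]
    linarith
  · have := pie1_hex n w i (u i (Or.inl h))
    rw [Set.mem_sdiff, mem_ibd_hex]
    rw [mem_hex] at this ⊢
    omega
  · obtain ⟨i, hi⟩ := mem_iUnion.1 h
    exact disjoint_left.1 (pie1_rh hw hn i) hx (u i (Or.inl hi))

end Vale.Agent.P153.Seal
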