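import Vale.Agent.P153.Seal.Stm

/-! P153, module Seal: conditional independence of the patterns. -/

open Set Filter

namespace Vale.Agent.P153.Seal

namespace ProdLx

theorem fill_eq {U : Set V} {H H' : Cfg} (h : H' ∈ fill U H) : fill U H' = fill U H := by
  ext K
  exact ⟨fun k => ⟨k.1, fun x hx => (k.2 x hx).trans (h.2 x hx)⟩,
    fun k => ⟨k.1, fun x hx => (k.2 x hx).trans (h.2 x hx).symm⟩⟩

theorem ind_dep {U : Set V} {ξ : Cfg → Cfg} (hξ : DepOn ξ U) (a : Cfg) {H H' : Cfg}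
    (e : ∀ x ∈ U, H x = H' x) :
    {K | ξ K = a}.indicator (1 : Cfg → ℝ) H = {K | ξ K = a}.indicator 1 H' := by
  have := hξ H H' e
  by_cases h : ξ H' = a <;> simp [indicator, this, h]

theorem pr_loc (h : LocF) {U : Set V} (hU : U.Finite) {ξ : Cfg → Cfg} (hξ : DepOn ξ U) (a : Cfg)
    {H₁ H₂ : Cfg} (h1 : Lip H₁) (h2 : Lip H₂) (e : ∀ y ∈ obd U, H₂ y = H₁ y) :
    Pr (fill U H₂) {K | ξ K = a} = Pr (fill U H₁) {K | ξ K = a} := by
  have k := h U ∅ 0 H₁ H₂ 0 ({K | ξ K = a}.indicator 1) hU h1 h2 (by simpa using e)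
  simp only [mem_empty_iff_false, false_imp_iff, implies_true, and_true, setOf_mem_eq,
    sub_zero] at k
  have r : ∀ H : Cfg, {K | ξ K = a}.indicator (1 : Cfg → ℝ) (res U H) =
      {K | ξ K = a}.indicator 1 H := fun H => ind_dep hξ a fun x hx => by simp [res, hx]
  simp only [r] at k
  exact k

/-- The factors, with the indicators in `s` replaced by conditional probabilities. -/
noncomputable def fac (U : Fin 4 → Set V) (ξ : Fin 4 → Cfg → Cfg) (a : Fin 4 → Cfg)
    (s : Finset (Fin 4)) (i : Fin 4) (H : Cfg) : ℝ :=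
  if i ∈ s then Pr (fill (U i) H) {K | ξ i K = a i} else {K | ξ i K = a i}.indicator 1 H

theorem step (h : LocF) {S : Set Cfg} {U : Fin 4 → Set V} {ξ : Fin 4 → Cfg → Cfg}
    {g : Cfg → ℝ} (a : Fin 4 → Cfg) (hU : ∀ i, (U i).Finite)
    (hS : ∀ i, ∀ H ∈ S, Lip H ∧ fill (U i) H ⊆ S)
    (hd : ∀ i j, i ≠ j → Disjoint (U i ∪ obd (U i)) (U j)) (hξ : ∀ i, DepOn (ξ i) (U i))
    (hg : DepS S (⋃ i, U i)ᶜ g) (s : Finset (Fin 4)) :
    Ex S (fun H => g H * ∏ i, fac U ξ a ∅ i H) = Ex S (fun H => g H * ∏ i, fac U ξ a s i H) := by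
  induction s using Finset.induction_on with
  | empty => rfl
  | insert j s hj ih =>
    rw [ih]
    have e1 : ∀ H, g H * ∏ i, fac U ξ a s i H =
        (g H * ∏ i ∈ Finset.univ.erase j, fac U ξ a s i H) * {K | ξ j K = a j}.indicator 1 H := by
      intro H
      rw [← Finset.prod_erase_mul _ _ (Finset.mem_univ j), fac, if_neg hj, mul_assoc]
    have e2 : ∀ H, g H * ∏ i, fac U ξ a (insert j s) i H =
        (g H * ∏ i ∈ Finset.univ.erase j, fac U ξ a s i H) *
          Ex (fill (U j) H) ({K | ξ j K = a j}.indicator 1) := by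
      intro H
      rw [← Finset.prod_erase_mul _ _ (Finset.mem_univ j), fac, if_pos (Finset.mem_insert_self _ _),
        mul_assoc]
      congr 2
      refine Finset.prod_congr rfl fun i hi => ?_
      simp only [fac, Finset.mem_insert, (Finset.mem_erase.1 hi).1, false_or]
    simp only [e1, e2]
    refine tower_cell (fun H => fill (U j) H)
      (fun H hH => ⟨⟨(hS j H hH).1, fun _ _ => rfl⟩, (hS j H hH).2⟩) (fun H _ H' h' => fill_eq h')
      _ _ fun H hH H' h' => ?_
    congr 1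
    · refine hg H' ((hS j H hH).2 h') H hH fun x hx => h'.2 x fun hx' => hx ?_
      exact mem_iUnion.2 ⟨j, hx'⟩
    · refine Finset.prod_congr rfl fun i hi => ?_
      have hij := hd i j (Finset.mem_erase.1 hi).1
      unfold fac
      split_ifs
      · exact pr_loc h (hU i) (hξ i) _ (hS j H hH).1 h'.1 fun y hy =>
          h'.2 y (disjoint_left.1 hij (Or.inr hy))
      · exact ind_dep (hξ i) _ fun x hx => h'.2 x (disjoint_left.1 hij (Or.inl hx))

end ProdLx

open ProdLx in
theorem prodL (h : LocF) : ProdL := by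
  classical
  intro S U ξ g T _ hU hS hd hξ hg hT
  have e : ∀ H ∈ S, g (fun i => ξ i H) H = ∑ a ∈ T, g a H * ∏ i, fac U ξ a ∅ i H := by
    intro H hH
    rw [Finset.sum_eq_single_of_mem _ (hT H hH)]
    · simp [fac]
    · intro a _ ha
      obtain ⟨i, hi⟩ := Function.ne_iff.1 ha
      rw [Finset.prod_eq_zero (Finset.mem_univ i), mul_zero]
      simp [fac, hi.symm]
  rw [Ex_congr e, Ex_sum]
  refine Finset.sum_congr rfl fun a _ => ?_
  rw [step h a hU hS hd hξ (hg a) Finset.univ]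
  simp [fac]

end Vale.Agent.P153.Seal
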