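import Vale.Agent.P153.Seal.Stm2
import Vale.Agent.P153.FKG.Loc

/-! P153, module Seal: averaging the weight over a zone, and screens at a constant level. -/

open Set Filter

namespace Vale.Agent.P153.Seal

section rbar

variable {S : Set Cfg} {O I Z P D Za Zc Zm : Set V} {κ : V → ℤ} {r : ℕ}

theorem Zone.out_of (hz : Zone S O I Z P D Za Zc Zm κ r) {x : V} (hx : x ∈ O ∪ I ∪ P) : x ∉ Z :=
  fun h => disjoint_left.1 hz.dZ h hx

theorem Zone.pin_eq (hz : Zone S O I Z P D Za Zc Zm κ r) {H : Cfg} (hH : H ∈ S) :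
    Vale.Agent.P153.pin S Zᶜ H = {H' | H' ∈ fill Z H ∧ ∀ x ∈ D, x ∈ Z → x ∉ big κ 0 H'} := by
  ext K
  constructor
  · rintro ⟨h1, h2⟩
    exact ⟨⟨hz.lip K h1, h2⟩, fun x hx _ => hz.band K h1 x hx⟩
  · rintro ⟨⟨h1, h2⟩, h3⟩
    refine ⟨hz.splice H hH H hH K h1 (fun x hx => h2 x (hz.out_of ?_))
      (fun x hx => h2 x (hz.out_of (Or.inl (Or.inr hx)))) fun x hx => h3 x hx (hz.hD hx), h2⟩
    rcases hx with hx | hx
    · exact Or.inl (Or.inl hx)
    · exact Or.inr hx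

theorem Zone.pw_mem (hz : Zone S O I Z P D Za Zc Zm κ r) {H₁ H₂ H K : Cfg} (h₁ : H₁ ∈ S)
    (h₂ : H₂ ∈ S) (e : ∀ x ∈ obd Z, H₁ x = H₂ x) (hH : H ∈ Vale.Agent.P153.pin S Zᶜ H₁)
    (hK : K ∈ Vale.Agent.P153.pin S Zᶜ H₂) : pw Z K H ∈ Vale.Agent.P153.pin S Zᶜ H₁ := by
  rw [hz.pin_eq h₁]
  refine ⟨⟨(hz.lip K hK.1).pw (hz.lip H hH.1) fun a ha b hb hab => ?_, fun x hx => ?_⟩,
    fun x hx hxZ => ?_⟩
  · rw [hH.2 b hb, e b ⟨hb, a, ha, hab.symm⟩, ← hK.2 b hb]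
    exact hz.lip K hK.1 a b hab
  · rw [pw_out _ _ hx]; exact hH.2 x hx
  · have h3 := hz.band K hK.1 x hx
    simp only [big, mem_ofPred_eq, pw_in _ _ hxZ] at h3 ⊢
    exact h3

theorem Zone.tower (hz : Zone S O I Z P D Za Zc Zm κ r) (ρ g : Cfg → ℝ)
    (hg : DepS S (O ∪ I ∪ P) g) :
    Ex S (fun H => g H * Ex (Vale.Agent.P153.pin S Zᶜ H) ρ) = Ex S fun H => g H * ρ H :=
  (tower_stop (R := fun _ => Zᶜ) (fun _ _ _ _ _ => rfl) ρ g fun H hH H' hH' e =>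
    hg H' hH' H hH fun x hx => e x (hz.out_of hx)).symm

end rbar

theorem rBar : RBar := by
  intro S O I Z P D Za Zc Zm κ r ρ hz hρ hF
  refine ⟨fun H₁ h₁ H₂ h₂ e => ?_, fun F G hF' hG' => ?_, fun H hH => hz.pin_eq hH⟩
  · have g : ∀ H ∈ S, Good (pin S Zᶜ H) := fun H hH =>
      Good.sub hz.good.1 (fun _ h => h.1) ⟨H, hH, fun _ _ => rfl⟩
    refine Ex_local (U := Z) (g H₁ h₁) (g H₂ h₂) (fun H hH K hK => ⟨hz.pw_mem h₁ h₂ e hH hK,
      hz.pw_mem h₂ h₁ (fun x hx => (e x hx).symm) hK hH⟩) fun H hH K hK e' =>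
        hρ H hH.1 K hK.1 fun x hx => ?_
    rcases hx with hx | hx
    · exact e' x hx
    · rw [hH.2 x hx.1, hK.2 x hx.1, e x hx]
  · have s1 : O ∪ P ⊆ O ∪ I ∪ P := union_subset_union_left _ subset_union_left
    have s2 : I ∪ P ⊆ O ∪ I ∪ P := union_subset_union_left _ subset_union_right
    have dF : DepS S (O ∪ I ∪ P) F := fun H h H' h' e => hF' H h H' h' fun x hx => e x (s1 hx)
    have dG : DepS S (O ∪ I ∪ P) G := fun H h H' h' e => hG' H h H' h' fun x hx => e x (s2 hx)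
    have t1 := hz.tower ρ (fun H => F H * G H) fun H h H' h' e => by
      simp only [dF H h H' h' e, dG H h H' h' e]
    have t2 := hz.tower ρ (fun _ => 1) fun _ _ _ _ _ => rfl
    simp only [one_mul] at t2
    rw [t1, t2, hz.tower ρ F dF, hz.tower ρ G dG]
    exact hF F G hF' hG'

theorem big_shift (k : ℤ) (M : ℕ) (H : Cfg) :
    big 0 M (fun x => H x - k) = big (fun _ => k) M H := by
  ext x
  simp only [big, mem_ofPred_eq, Pi.zero_apply]
  omega

theorem scrC (h : Scr) : ScrC := by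
  intro M
  obtain ⟨C, c, hc, h⟩ := h M
  refine ⟨C, c, hc, fun k n U D P T H z hn hU hUP hb hT hz hne => ?_⟩
  have hbij : BijOn (fun (H' : Cfg) => (fun x => H' x - k : Cfg))
      {H' | H' ∈ fill U H ∧ ∀ x ∈ D, x ∈ U → x ∉ big (fun _ => k) 0 H'}
      {H' | H' ∈ fill U (fun x => H x - k) ∧ ∀ x ∈ D, x ∈ U → x ∉ big 0 0 H'} := by
    refine ⟨fun K hK => ⟨⟨fun x y hxy => ?_, fun x hx => ?_⟩, fun x hx hxU => ?_⟩,
      fun K _ K' _ e => funext fun x => ?_, fun K hK => ⟨fun x => K x + k,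
        ⟨⟨fun x y hxy => ?_, fun x hx => ?_⟩, fun x hx hxU => ?_⟩, funext fun x => ?_⟩⟩
    · simpa using hK.1.1 x y hxy
    · simp only [hK.1.2 x hx]
    · rw [big_shift]; exact hK.2 x hx hxU
    · have := congrFun e x
      simp only at this
      omega
    · simpa using hK.1.1 x y hxy
    · simp only [hK.1.2 x hx, sub_add_cancel]
    · rw [← big_shift]
      simpa using hK.2 x hx hxU
    · simp
  have h1 := h n U D P T (fun x => H x - k) z hn hU hUP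
    (by simpa only [big_shift] using hb) hT hz (hbij.image_eq ▸ hne.image _)
  rw [← Pr_bij hbij] at h1
  refine h1.trans (le_of_eq ?_)
  congr 1
  ext K
  simp only [mem_preimage, mem_ofPred_eq, big_shift]

end Vale.Agent.P153.Seal
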