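import Vale.Agent.P153.Seal.Stm
import Vale.Agent.P153.FKG.All

/-! P153, module Seal: the ratio lemma. -/

open Set

namespace Vale.Agent.P153.Seal

namespace RatioA

/-- The explored set. -/
def rc (O : Set V) (H : Cfg) : Set V := reach (star (big 0 0 H)) O Oᶜ

/-- The class of configurations with the same exploration. -/
def cl (O : Set V) (H : Cfg) : Set Cfg := {K | rc O K = rc O H ∧ ∀ x ∈ O ∪ rc O H, K x = H x}

theorem not_big {H : Cfg} {x : V} : x ∉ big 0 0 H ↔ H x = 0 ∨ H x = 1 := by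
  simp only [big, mem_ofPred_eq, Pi.zero_apply, Nat.cast_zero]
  omega

theorem self_cl (O : Set V) (H : Cfg) : H ∈ cl O H := ⟨rfl, fun _ _ => rfl⟩

theorem cl_eq {O : Set V} {H K : Cfg} (h : K ∈ cl O H) : cl O K = cl O H := by
  ext L
  simp only [cl, mem_ofPred_eq, h.1]
  exact and_congr_right fun _ => forall₂_congr fun x hx => by rw [h.2 x hx]

theorem cell (h3 : ReachL) (h4 : LocB) {B : Set V} (hB : B.Finite) (O : Set V) {H : Cfg}
    (hH : H ∈ free B 0) :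
    BijOn (res (B \ (O ∪ rc O H))) (free B 0 ∩ cl O H) (freeD (B \ (O ∪ rc O H)) ∅) := by
  have h5 := h4 (B \ (O ∪ rc O H)) ∅ 0 H (hB.subset sdiff_subset) hH.1 (fun _ _ _ _ => rfl)
    (fun y hy => by
      obtain ⟨hy, x, hx, ha⟩ := hy
      by_cases hyB : y ∈ B
      · have hy' : y ∈ O ∪ rc O H := by_contra fun h => hy ⟨hyB, h⟩
        exact ((h3 O Oᶜ 0 0 H H disjoint_compl_right).1 x (fun h => hx.2 (Or.inl h))
          (fun h => hx.2 (Or.inr h)) y hy' ha.symm).2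
      · exact not_big.2 (Or.inl (hH.2.1 y hyB)))
  simp only [Pi.zero_apply, sub_zero] at h5
  suffices e : free B 0 ∩ cl O H = {K | K ∈ fill (B \ (O ∪ rc O H)) H ∧
      ∀ x ∈ ∅ ∪ ibd (B \ (O ∪ rc O H)), x ∈ B \ (O ∪ rc O H) → x ∉ big 0 0 K} by
    rw [e]
    exact h5
  ext K
  constructor
  · rintro ⟨hK, e1, e2⟩
    refine ⟨⟨hK.1, fun x hx => ?_⟩, fun x hx hx' => ?_⟩
    · by_cases hxB : x ∈ B
      · exact e2 x (by_contra fun h => hx ⟨hxB, h⟩)
      · rw [hK.2.1 x hxB, hH.2.1 x hxB]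
    · obtain ⟨-, y, hy, ha⟩ := hx.resolve_left (notMem_empty x)
      by_cases hyB : y ∈ B
      · exact (((h3 O Oᶜ 0 0 H K disjoint_compl_right).2
          fun z hz => e2 z (hz.imp (fun h => h.2) id)).1 e1) x (fun h => hx'.2 (Or.inl h))
          (fun h => hx'.2 (Or.inr h)) ⟨y, by_contra fun h => hy ⟨hyB, h⟩, ha⟩
      · exact not_big.2 (by simpa using hK.2.2 x ⟨hx'.1, y, hyB, ha⟩)
  · rintro ⟨⟨hK, e1⟩, e2⟩
    have e3 : ∀ x ∈ O ∪ rc O H, K x = H x := fun x hx => e1 x fun h => h.2 hx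
    refine ⟨⟨hK, fun x hx => (e1 x fun h => hx h.1).trans (hH.2.1 x hx), fun x hx => ?_⟩, ?_, e3⟩
    · by_cases hx' : x ∈ B \ (O ∪ rc O H)
      · obtain ⟨-, y, hy, ha⟩ := hx
        simpa using not_big.1 (e2 x (Or.inr ⟨hx', y, fun h => hy h.1, ha⟩) hx')
      · rw [e1 x hx']
        exact hH.2.2 x hx
    · refine ((h3 O Oᶜ 0 0 H K disjoint_compl_right).2
        fun z hz => e3 z (hz.imp (fun h => h.2) id)).2 fun x h1 h2 ⟨y, hy, ha⟩ => ?_
      by_cases hxB : x ∈ B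
      · have hx' : x ∈ B \ (O ∪ rc O H) := ⟨hxB, fun h => h.elim h1 h2⟩
        exact e2 x (Or.inr ⟨hx', y, fun h => h.2 hy, ha⟩) hx'
      · exact not_big.2 (Or.inl ((e1 x fun h => hxB h.1).trans (hH.2.1 x hxB)))

theorem freeD_empty (B : Set V) : freeD B ∅ = free B 0 := by
  ext H
  simp [freeD]

theorem free_mono {B B' : Set V} (h : B ⊆ B') : free B 0 ⊆ free B' 0 := by
  rintro H ⟨h1, h2, h3⟩
  refine ⟨h1, fun x hx => h2 x fun h' => hx (h h'), fun x ⟨_, y, hy, ha⟩ => ?_⟩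
  by_cases hx : x ∈ B
  · exact h3 x ⟨hx, y, fun h' => hy (h h'), ha⟩
  · exact Or.inl (h2 x hx)

theorem count (h1 : Count) (h3 : ReachL) (h4 : LocB) {B : Set V} (hB : B.Finite) {O : Set V}
    {H : Cfg} (hH : H ∈ free B 0) (hP : O ∪ rc O H ⊆ B) :
    Pr (free B 0) {K | ∀ x ∈ (O ∪ rc O H) ∪ obd (O ∪ rc O H), K x = 0 ∨ K x = 1} =
      2 ^ (O ∪ rc O H).ncard * Pr (free B 0) (cl O H) := by
  have h5 := h1 B ∅ _ hB hP
  have h6 := cell h3 h4 hB O hH
  rw [freeD_empty B, ← h6.image_eq, h6.injOn.ncard_image] at h5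
  rw [Pr_eq (good_free hB 0).1, Pr_eq (good_free hB 0).1, ← mul_div_assoc, ← h5]
  rfl

theorem outer (h2 : MonoD) (h3 : ReachL) (h4 : LocB) {B B' N T : Set V} (hB : B'.Finite)
    (hBB : B ⊆ B') (hN : N ⊆ B) (hT : T ⊆ N) :
    Pr (free B 0) {K | ∀ x ∈ T, K x = 0 ∨ K x = 1} * Pr (free B' 0) {K | Disjoint T (rc Nᶜ K)} ≤
      Pr (free B' 0) {K | ∀ x ∈ T, K x = 0 ∨ K x = 1} := by
  refine (Pr_tower_ge (fun H => free B' 0 ∩ cl Nᶜ H)
    (fun H hH => ⟨⟨hH, self_cl _ H⟩, inter_subset_left⟩)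
    (fun H _ K hK => by simp only [cl_eq hK.2]) (fun H _ hH K hK => ?_) fun H hH hd => ?_).trans
    (Pr_mono fun _ _ h => h.2)
  · rw [mem_ofPred_eq, hK.2.1]
    exact hH
  · have hTU : T ⊆ B' \ (Nᶜ ∪ rc Nᶜ H) := fun x hx => ⟨hBB (hN (hT hx)), fun h =>
      h.elim (fun h => h (hT hx)) (disjoint_left.1 hd hx)⟩
    rw [← freeD_empty B]
    refine (h2 (B' \ (Nᶜ ∪ rc Nᶜ H)) B ∅ ∅ T (hB.subset hBB)
      (fun x hx => hN (by_contra fun h => hx.2 (Or.inl h))) subset_rfl).trans ?_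
    rw [← Pr_bij (cell h3 h4 hB Nᶜ hH)]
    refine Pr_mono fun K _ hK x hx => ?_
    have := hK x hx
    rwa [res, if_pos (hTU hx)] at this

theorem sum_cl {S S' A : Set Cfg} {g : ℝ} (hS : S.Finite) (O : Set V)
    (hA : ∀ H ∈ A, cl O H ⊆ A) (h : ∀ H ∈ S, H ∈ A → Pr S (cl O H) * g ≤ Pr S' (cl O H)) :
    Pr S A * g ≤ Pr S' A := by
  classical
  set T := (hS.inter_of_left A).toFinset.image (cl O) with hT
  have mT : ∀ c ∈ T, ∃ H ∈ S, H ∈ A ∧ cl O H = c := fun c hc => by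
    obtain ⟨H, h1, h2⟩ := Finset.mem_image.1 hc
    have := (Finite.mem_toFinset _).1 h1
    exact ⟨H, this.1, this.2, h2⟩
  have key : ∀ S₀ : Set Cfg, ∑ c ∈ T, Pr S₀ c = Pr S₀ {K | cl O K ∈ T} := fun S₀ => by
    simp only [Pr]
    rw [← Ex_sum]
    refine Ex_congr fun K _ => ?_
    have e : ∀ c ∈ T, c.indicator (1 : Cfg → ℝ) K = if cl O K = c then 1 else 0 := fun c hc => by
      obtain ⟨H, -, -, rfl⟩ := mT c hc
      by_cases hK : K ∈ cl O H
      · rw [if_pos (cl_eq hK), indicator_of_mem hK, Pi.one_apply]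
      · rw [if_neg fun h' : cl O K = cl O H => hK (h' ▸ self_cl O K), indicator_of_notMem hK]
    rw [Finset.sum_congr rfl e, Finset.sum_ite_eq]
    by_cases hK : cl O K ∈ T <;> simp [hK]
  calc Pr S A * g = (∑ c ∈ T, Pr S c) * g := by
        rw [key]
        congr 1
        refine Pr_congr fun K hK => ⟨fun h' =>
          Finset.mem_image_of_mem _ ((Finite.mem_toFinset _).2 ⟨hK, h'⟩), fun h' => ?_⟩
        obtain ⟨H, -, h2, h3⟩ := mT _ h'
        exact hA H h2 (h3 ▸ self_cl O K)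
    _ ≤ ∑ c ∈ T, Pr S' c := by
        rw [Finset.sum_mul]
        refine Finset.sum_le_sum fun c hc => ?_
        obtain ⟨H, h1, h2, rfl⟩ := mT c hc
        exact h H h1 h2
    _ ≤ Pr S' A := by
        rw [key]
        refine Pr_mono fun K _ h' => ?_
        obtain ⟨H, -, h2, h3⟩ := mT _ h'
        exact hA H h2 (h3 ▸ self_cl O K)

end RatioA

open RatioA in
theorem ratio (h1 : Count) (h2 : MonoD) (h3 : ReachL) (h4 : LocB) : Ratio := by
  intro W B B' d r E hB' hBB hW hE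
  have hB : B.Finite := hB'.subset hBB
  refine sum_cl (good_free hB 0).1 W (fun H hH K hK => ⟨?_, ?_⟩) fun H hH hA => ?_
  · exact (hE K H fun x hx => hK.2 x (Or.inl hx)).mpr hH.1
  · have e : rc W K = rc W H := hK.1
    exact e.subset.trans hH.2
  have p1 : W ∪ rc W H ⊆ nb W d := union_subset (fun x hx => ⟨x, hx, by simp⟩) hA.2
  have p2 : (W ∪ rc W H) ∪ obd (W ∪ rc W H) ⊆ nb W (d + 1) := by
    rintro x (hx | ⟨-, y, hy, ha⟩)
    · obtain ⟨w, hw, h⟩ := p1 hx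
      exact ⟨w, hw, h.trans (Nat.le_succ d)⟩
    · obtain ⟨w, hw, h⟩ := p1 hy
      exact ⟨w, hw, (ha.symm.nrm_le w).trans (Nat.succ_le_succ h)⟩
  have p3 : nb W (d + 1) ⊆ nb W (d + r + 4) := fun x ⟨w, hw, h⟩ => ⟨w, hw, by omega⟩
  have p4 : W ∪ rc W H ⊆ B := subset_union_left.trans (p2.trans (p3.trans hW))
  have k := outer h2 h3 h4 hB' hBB hW (p2.trans p3)
  rw [count h1 h3 h4 hB hH p4, count h1 h3 h4 hB' (free_mono hBB hH) (p4.trans hBB),
    mul_assoc] at k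
  refine le_trans (mul_le_mul_of_nonneg_left (Pr_mono fun K _ hK => ?_) (Pr_nonneg _ _))
    (le_of_mul_le_mul_left k (by positivity))
  refine disjoint_left.2 fun x hx ⟨_, y, hy, hc⟩ => hK ⟨y, x, ?_, hc.monoA (subset_univ _)⟩
  obtain ⟨w, hw, h⟩ := p2 hx
  have h5 : ¬ nrm (y - w) ≤ d + r + 4 := fun h' => hy ⟨w, hw, h'⟩
  have h6 := nrm_tri w x y
  rw [nrm_sub_comm]
  omega

end Vale.Agent.P153.Seal
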