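import Vale.Agent.P153.Seal.X2

/-! The relative shifts of the four pieces are determined with high probability. -/

open Set Filter

namespace Vale.Agent.P153.Seal

namespace ShiftsX

/-- A square of side `w`. -/
noncomputable def bx (w : ℕ) (v : V) : Finset V :=
  Finset.Ico v.1 (v.1 + w) ×ˢ Finset.Ico v.2 (v.2 + w)

theorem mem_bx {w : ℕ} {v y : V} :
    y ∈ bx w v ↔ (v.1 ≤ y.1 ∧ y.1 < v.1 + w) ∧ v.2 ≤ y.2 ∧ y.2 < v.2 + w := by
  simp [bx]

theorem card_bx (w : ℕ) (v : V) : ((bx w v).card : ℝ) = (w : ℝ) ^ 2 := by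
  simp [bx, sq]

/-- Indicator weights. -/
noncomputable def ind (S : Finset V) : V →₀ ℝ := ∑ x ∈ S, Finsupp.single x 1

theorem ind_apply (S : Finset V) (y : V) : ind S y = if y ∈ S then 1 else 0 := by
  simp [ind, Finsupp.finsetSum_apply, Finsupp.single_apply]

theorem lin_eq (a : V →₀ ℝ) (H : Cfg) :
    lin a H = Finsupp.linearCombination ℝ (fun x => (H x : ℝ)) a := by
  simp [lin, Finsupp.linearCombination_apply]

/-- Difference of two squares. -/
noncomputable def aa (w : ℕ) (v : V) : V →₀ ℝ := ind (bx w (v.1, v.2 + 4 * w)) - ind (bx w v)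

theorem lin_aa (w : ℕ) (v : V) (H : Cfg) : lin (aa w v) H =
    ∑ x ∈ bx w (v.1, v.2 + 4 * w), (H x : ℝ) - ∑ x ∈ bx w v, (H x : ℝ) := by
  simp [lin_eq, aa, ind, map_sum]

theorem tot_aa (w : ℕ) (v : V) : (aa w v).sum (fun _ c => c) = 0 := by
  have := lin_aa w v 1
  simp only [lin, Pi.one_apply, Int.cast_one, mul_one, Finset.sum_const, nsmul_eq_mul,
    card_bx, sub_self] at this
  exact this

theorem abs_aa (w : ℕ) (v y : V) : |aa w v y| ≤ 1 := by
  simp only [aa, Finsupp.sub_apply, ind_apply]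
  split_ifs <;> simp

theorem supp_aa (w : ℕ) (v : V) : ∀ y ∈ (aa w v).support, y ∈ hex v (6 * w) := by
  intro y hy
  rw [Finsupp.mem_support_iff] at hy
  simp only [aa, Finsupp.sub_apply, ind_apply] at hy
  rw [mem_hex, nrm_sub_le_iff]
  split_ifs at hy with h1 h2 h2
  · simp at hy
  · rw [mem_bx] at h1; push_cast at h1 ⊢; omega
  · rw [mem_bx] at h2; push_cast; omega
  · simp at hy

theorem clip {s t T : ℝ} (hT : 0 < T) :
    s * t ≤ T * (s * (max (-T) (min T t) / T)) + (1 + s ^ 4 + t ^ 4) / (2 * T) := by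
  have h1 : |t - max (-T) (min T t)| ≤ t ^ 2 / T := by
    rw [le_div_iff₀ hT]
    rcases le_total T t with h | h
    · rw [min_eq_left h, max_eq_right (by linarith), abs_of_nonneg (by linarith)]; nlinarith
    rw [min_eq_right h]
    rcases le_total (-T) t with h' | h'
    · rw [max_eq_right h']; simp; positivity
    · rw [max_eq_left h', abs_of_nonpos (by linarith)]; nlinarith
  have h2 : s * (t - max (-T) (min T t)) ≤ |s| * (t ^ 2 / T) :=
    (le_abs_self _).trans (by rw [abs_mul]; gcongr)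
  have h3 : |s| * (t ^ 2 / T) ≤ (1 + s ^ 4 + t ^ 4) / (2 * T) := by
    rw [← mul_div_assoc, div_le_div_iff₀ hT (by positivity)]
    have := sq_abs s
    have a : 2 * (|s| * t ^ 2) ≤ 1 + s ^ 4 + t ^ 4 := by
      nlinarith [sq_nonneg (|s| - t ^ 2), sq_nonneg (s ^ 2 - 1), sq_nonneg s]
    nlinarith
  have h4 : T * (s * (max (-T) (min T t) / T)) = s * max (-T) (min T t) := by field_simp
  linarith

theorem good_mu (N : ℕ) : Good (mu N) := good_free (hex_finite 0 N) 0

theorem lln (h1 : Dec) (h2 : M4Mu) {η : ℝ} (hη : 0 < η) : ∃ m p : ℕ, 1 ≤ m ∧ 1 ≤ p ∧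
    ∀ w : ℕ, 1 ≤ w → ∀ v : V, ∀ᶠ N in atTop, Pr (mu N) {H | 2 * m * (w : ℝ) ^ 2 ≤
      |∑ j ∈ Finset.range m, lin (aa w (v.1 + j * p * w, v.2)) H|} ≤ η := by
  obtain ⟨C, hC⟩ := h2
  obtain ⟨A, hA⟩ : ∃ A, A = |C| * 6 ^ 8 := ⟨_, rfl⟩
  have hA0 : 0 ≤ A := by rw [hA]; positivity
  obtain ⟨T, hT⟩ : ∃ T, T = (1 + 2 * A) / η := ⟨_, rfl⟩
  have hT0 : 0 < T := by rw [hT]; positivity
  obtain ⟨M, hM⟩ := h1 (η / (36 * T)) (by positivity)
  obtain ⟨m, hm⟩ := exists_nat_ge ((1 + A) / η)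
  have hm0 : (0 : ℝ) < m := lt_of_lt_of_le (by positivity) hm
  refine ⟨m, 6 * (M + 1) + 1, by exact_mod_cast hm0, by omega, fun w hw v => ?_⟩
  have hw0 : (0 : ℝ) < w := by exact_mod_cast hw
  obtain ⟨x, hx⟩ : ∃ x : ℕ → V, x = fun j : ℕ => (v.1 + j * (6 * (M + 1) + 1 : ℕ) * w, v.2) :=
    ⟨_, rfl⟩
  have e1 := (eventually_all_finset (Finset.range m)).2 fun j _ => hC (6 * w) (by omega) (x j)
  have e2 := (eventually_all_finset (Finset.range m)).2 fun j _ => hM (6 * w) (by omega) (x j)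
  filter_upwards [e1, e2] with N e1 e2
  obtain ⟨z, hz⟩ : ∃ z : ℕ → Cfg → ℝ, z = fun j H => lin (aa w (x j)) H / (w : ℝ) ^ 2 := ⟨_, rfl⟩
  have m4 : ∀ j ∈ Finset.range m, Ex (mu N) (fun H => z j H ^ 4) ≤ A := by
    intro j hj
    have := e1 j hj _ (tot_aa w _) (abs_aa w _) (supp_aa w _)
    simp only [hz, div_pow, Ex_div]
    rw [div_le_iff₀ (by positivity), hA]
    refine this.trans ?_
    push_cast
    calc C * (6 * (w : ℝ)) ^ 8 ≤ |C| * (6 * (w : ℝ)) ^ 8 := by gcongr; exact le_abs_self C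
      _ = _ := by ring
  have cr : ∀ i ∈ Finset.range m, ∀ j ∈ Finset.range m, Ex (mu N) (fun H => z i H * z j H) ≤
      3 * η / 2 + if i = j then 1 + A else 0 := by
    intro i hi j hj
    split_ifs with hij
    · subst hij
      have := sq_le_one_add (mu N) (z i)
      simp only [sq] at this
      linarith [m4 i hi]
    have d := e2 i hi _ (fun H => max (-T) (min T (z j H)) / T) (tot_aa w _) (abs_aa w _)
      (supp_aa w _) (fun H => by
        rw [abs_div, abs_of_pos hT0, div_le_one hT0, abs_le]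
        exact ⟨le_max_left _ _, max_le (by linarith) (min_le_left _ _)⟩) (fun H H' e => by
        have : lin (aa w (x j)) H = lin (aa w (x j)) H' := by
          refine lin_dep (A := (hex (x i) (M * (6 * w)))ᶜ) (fun y hy hy' => ?_) H H' e
          have a := supp_aa w _ y hy
          rw [mem_hex, nrm_sub_le_iff] at a hy'
          simp only [hx] at a hy'
          push_cast at a hy'
          have hw' : (1 : ℤ) ≤ w := by exact_mod_cast hw
          rcases lt_or_gt_of_ne hij with h | h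
          · have : (i : ℤ) + 1 ≤ j := by exact_mod_cast h
            nlinarith [a.1, hy'.2.1, mul_le_mul_of_nonneg_right this
              (by positivity : (0 : ℤ) ≤ (6 * (M + 1) + 1) * w)]
          · have : (j : ℤ) + 1 ≤ i := by exact_mod_cast h
            nlinarith [a.2.1, hy'.1, mul_le_mul_of_nonneg_right this
              (by positivity : (0 : ℤ) ≤ (6 * (M + 1) + 1) * w)]
        simp only [hz, this])
    have d' : Ex (mu N) (fun H => z i H * (max (-T) (min T (z j H)) / T)) ≤ η / T := by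
      have e : (fun H => z i H * (max (-T) (min T (z j H)) / T)) = fun H =>
          lin (aa w (x i)) H * (max (-T) (min T (z j H)) / T) / (w : ℝ) ^ 2 := by
        funext H
        rw [hz]; ring
      rw [e, Ex_div, div_le_iff₀ (by positivity)]
      refine (le_abs_self _).trans (d.trans (le_of_eq ?_))
      push_cast
      field_simp
      norm_num
    refine (Ex_mono fun H _ => clip (s := z i H) (t := z j H) hT0).trans ?_
    rw [Ex_add, Ex_mul_left, Ex_div, Ex_add, Ex_add, Ex_const (good_mu N)]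
    have a1 : T * Ex (mu N) (fun H => z i H * (max (-T) (min T (z j H)) / T)) ≤ η := by
      calc _ ≤ T * (η / T) := by gcongr
        _ = η := by field_simp
    have a2 : (1 + Ex (mu N) (fun H => z i H ^ 4) + Ex (mu N) fun H => z j H ^ 4) / (2 * T) ≤
        η / 2 := by
      rw [div_le_iff₀ (by positivity)]
      have : η / 2 * (2 * T) = 1 + 2 * A := by rw [hT]; field_simp
      linarith [m4 i hi, m4 j hj]
    linarith
  have sq : Ex (mu N) (fun H => (∑ j ∈ Finset.range m, z j H) ^ 2) ≤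
      (m : ℝ) ^ 2 * (3 * η / 2) + m * (1 + A) := by
    simp only [sq, Finset.sum_mul_sum, Ex_sum]
    refine (Finset.sum_le_sum fun i hi => Finset.sum_le_sum fun j hj => cr i hi j hj).trans ?_
    simp only [Finset.sum_add_distrib, Finset.sum_const, Finset.card_range, nsmul_eq_mul,
      Finset.sum_ite_eq]
    rw [Finset.sum_congr rfl fun i hi => if_pos hi]
    simp only [Finset.sum_const, Finset.card_range, nsmul_eq_mul]
    linarith
  have mk := markov (S := mu N) (f := fun H => (∑ j ∈ Finset.range m, z j H) ^ 2)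
    (E := {H | 2 * m * (w : ℝ) ^ 2 ≤ |∑ j ∈ Finset.range m, lin (aa w (x j)) H|})
    (c := (2 * m) ^ 2) (fun H _ => sq_nonneg _) (fun H _ h => by
      simp only [hz]
      rw [← Finset.sum_div, ← sq_abs (_ / _), abs_div, abs_of_pos (by positivity : 0 < (w : ℝ) ^ 2)]
      gcongr
      rw [le_div_iff₀ (by positivity)]
      exact h)
  simp only [hx] at mk
  rw [div_le_iff₀ hη] at hm
  refine le_of_mul_le_mul_left (mk.trans (sq.trans ?_)) (by positivity)
  nlinarith [mul_le_mul_of_nonneg_left hm hm0.le, mul_pos (mul_pos hm0 hm0) hη]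

theorem rig {m p w : ℕ} (hm : 1 ≤ m) (hw : 1 ≤ w) {v : V} {H H' : Cfg} {k k' : ℤ}
    (h : ¬ 2 * m * (w : ℝ) ^ 2 ≤ |∑ j ∈ Finset.range m, lin (aa w (v.1 + j * p * w, v.2)) H|)
    (h' : ¬ 2 * m * (w : ℝ) ^ 2 ≤ |∑ j ∈ Finset.range m, lin (aa w (v.1 + j * p * w, v.2)) H'|)
    (hu : ∀ j < m, ∀ y ∈ bx w (v.1 + j * p * w, v.2 + 4 * w), H' y = H y + 4 * k)
    (hd : ∀ j < m, ∀ y ∈ bx w (v.1 + j * p * w, v.2), H' y = H y + 4 * k') : k = k' := by
  have e : ∑ j ∈ Finset.range m, lin (aa w (v.1 + j * p * w, v.2)) H' =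
      ∑ j ∈ Finset.range m, lin (aa w (v.1 + j * p * w, v.2)) H +
        m * (w : ℝ) ^ 2 * (4 * ((k - k' : ℤ) : ℝ)) := by
    have : ∀ j ∈ Finset.range m, lin (aa w (v.1 + j * p * w, v.2)) H' =
        lin (aa w (v.1 + j * p * w, v.2)) H + (w : ℝ) ^ 2 * (4 * ((k - k' : ℤ) : ℝ)) := by
      intro j hj
      rw [Finset.mem_range] at hj
      rw [lin_aa, lin_aa, Finset.sum_congr rfl fun y hy => congrArg Int.cast (hu j hj y hy),
        Finset.sum_congr rfl fun y hy => congrArg Int.cast (hd j hj y hy)]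
      push_cast
      simp only [Finset.sum_add_distrib, Finset.sum_const, nsmul_eq_mul, card_bx]
      ring
    rw [Finset.sum_congr rfl this, Finset.sum_add_distrib]
    simp [mul_assoc]
  rw [e] at h'
  rw [not_le, abs_lt] at h h'
  have hp : (0 : ℝ) < m * (w : ℝ) ^ 2 := by positivity
  have a1 : ((k - k' : ℤ) : ℝ) < 1 := by nlinarith [h.1, h'.2]
  have a2 : -1 < ((k - k' : ℤ) : ℝ) := by nlinarith [h.2, h'.1]
  have b1 : k - k' < 1 := by exact_mod_cast a1
  have b2 : -1 < k - k' := by exact_mod_cast a2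
  omega

variable {n w : ℕ} {c a b : ℤ} {y : V}

theorem w0 (h : 0 ≤ c ∧ c + w ≤ n) (ha : a = 8 * n ∨ a = -(16 * n))
    (hy : y ∈ bx w (a + c, 2 * n - 2 * w + 4 * w)) : y ∈ wp n w 0 := by
  rw [mem_bx] at hy
  refine ⟨mem_rh.2 ?_, ?_⟩ <;> simp at hy ⊢ <;> omega

theorem w1 (h : 0 ≤ c ∧ c + w ≤ n) (hy : y ∈ bx w (-(16 * n) + c, -(2 * n) - 3 * w)) :
    y ∈ wp n w 1 := by
  rw [mem_bx] at hy
  refine ⟨mem_rh.2 ?_, ?_⟩ <;> simp at hy ⊢ <;> omega

theorem w2 (h : 0 ≤ c ∧ c + w ≤ n) (hb : b = 2 * n - 2 * w ∨ b = -(2 * n) - 3 * w + 4 * w)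
    (hy : y ∈ bx w (-(16 * n) + c, b)) : y ∈ wp n w 2 := by
  rw [mem_bx] at hy
  refine ⟨mem_rh.2 ?_, abs_le.2 ?_, ?_⟩ <;> simp at hy ⊢ <;> omega

theorem w3 (h : 0 ≤ c ∧ c + w ≤ n) (hy : y ∈ bx w (8 * n + c, 2 * n - 2 * w)) :
    y ∈ wp n w 3 := by
  rw [mem_bx] at hy
  refine ⟨mem_rh.2 ?_, abs_le.2 ?_, ?_⟩ <;> simp at hy ⊢ <;> omega

end ShiftsX

open ShiftsX in
theorem shifts (h1 : Dec) (h2 : M4Mu) : Shifts := by
  intro η hη
  obtain ⟨m, p, hm, hp, h⟩ := lln h1 h2 (by positivity : 0 < η / 3)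
  filter_upwards [eventually_ge_atTop (m * p), eventually_ge_atTop 1] with θ hθ hθ1
  filter_upwards [eventually_ge_atTop θ] with n hn
  obtain ⟨w, hw⟩ : ∃ w, w = n / θ := ⟨_, rfl⟩
  rw [← hw]
  have hw1 : 1 ≤ w := hw ▸ (Nat.le_div_iff_mul_le hθ1).2 (by omega)
  have hwn : θ * w ≤ n := hw ▸ Nat.mul_div_le n θ
  have hj : ∀ j < m, (0 : ℤ) ≤ j * p * w ∧ (j : ℤ) * p * w + w ≤ n := by
    intro j hj
    refine ⟨by positivity, ?_⟩
    have : j * p * w + w ≤ n := by
      calc j * p * w + w ≤ j * p * w + p * w := by gcongr; nlinarith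
        _ = (j + 1) * p * w := by ring
        _ ≤ m * p * w := by gcongr; omega
        _ ≤ θ * w := by gcongr
        _ ≤ n := hwn
    exact_mod_cast this
  filter_upwards [h w hw1 (8 * n, 2 * n - 2 * w), h w hw1 (-(16 * n), 2 * n - 2 * w),
    h w hw1 (-(16 * n), -(2 * n) - 3 * w)] with N p1 p2 p3
  have p4 := (Pr_union_le _ _ _).trans
    (add_le_add ((Pr_union_le _ _ _).trans (add_le_add p1 p2)) p3)
  rw [← compl_compl (_ ∪ _ ∪ _)] at p4
  refine ⟨_, p4.trans (by linarith), fun H hH H' hH' e => ?_⟩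
  · obtain ⟨k, hk⟩ : ∃ k : Fin 4 → ℤ, k = fun i => H' (bp n i) / 4 - H (bp n i) / 4 := ⟨_, rfl⟩
    have sh : ∀ i, ∀ y ∈ wp n w i, H' y = H y + 4 * k i := by
      intro i y hy
      have := congrFun (congrFun e i) y
      simp only [lab1, res, if_pos hy, nm] at this
      simp only [hk]
      omega
    have g := hH.2
    have g' := hH'.2
    simp only [mem_compl_iff, mem_union, not_or, mem_ofPred_eq] at g g'
    have k03 : k 0 = k 3 := rig (p := p) (v := (8 * n, 2 * n - 2 * w)) hm hw1 g.1.1 g'.1.1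
      (fun j hj' y hy => sh 0 y (w0 (hj j hj') (Or.inl rfl) hy))
      (fun j hj' y hy => sh 3 y (w3 (hj j hj') hy))
    have k02 : k 0 = k 2 := rig (p := p) (v := (-(16 * n), 2 * n - 2 * w)) hm hw1 g.1.2 g'.1.2
      (fun j hj' y hy => sh 0 y (w0 (hj j hj') (Or.inr rfl) hy))
      (fun j hj' y hy => sh 2 y (w2 (hj j hj') (Or.inl rfl) hy))
    have k21 : k 2 = k 1 := rig (p := p) (v := (-(16 * n), -(2 * n) - 3 * w)) hm hw1 g.2 g'.2
      (fun j hj' y hy => sh 2 y (w2 (hj j hj') (Or.inr rfl) hy))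
      (fun j hj' y hy => sh 1 y (w1 (hj j hj') hy))
    have all : ∀ i, k i = k 0 := by
      intro i
      fin_cases i <;> simp <;> omega
    funext y
    simp only [lab2, res, nm]
    split_ifs with hy
    · obtain ⟨i, hi⟩ := mem_iUnion.1 hy
      have := sh i y hi
      rw [all i] at this
      simp only [hk] at this
      omega
    · rfl

end Vale.Agent.P153.Seal
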