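import Vale.Agent.P153.Seal.Loc
import Vale.Agent.P153.Planar.Hex

/-! Small lemmas of the module Seal. -/

open Set Filter

namespace Vale.Agent.P153.Seal

theorem depX : DepX := by
  classical
  intro A f c hc hd h4 hb
  refine ⟨fun H => if h : ∃ H', Lip H' ∧ ∀ x ∈ A, H' x = H x then f h.choose else 0,
    fun H K e => ?_, fun H => ?_, fun H => ?_, fun H l => ?_⟩
  · have i : (∃ H', Lip H' ∧ ∀ x ∈ A, H' x = H x) ↔ ∃ H', Lip H' ∧ ∀ x ∈ A, H' x = K x :=
      exists_congr fun H' => and_congr_right fun _ => forall₂_congr fun x hx => by rw [e x hx]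
    by_cases h : ∃ H', Lip H' ∧ ∀ x ∈ A, H' x = H x
    · have h' := i.1 h
      simp only [dif_pos h, dif_pos h']
      exact hd _ h.choose_spec.1 _ h'.choose_spec.1 fun x hx => by
        rw [h.choose_spec.2 x hx, h'.choose_spec.2 x hx, e x hx]
    · simp only [dif_neg h, dif_neg (mt i.2 h)]
  · by_cases h : ∃ H', Lip H' ∧ ∀ x ∈ A, H' x = H x
    · have h' : ∃ H', Lip H' ∧ ∀ x ∈ A, H' x = H x + 4 :=
        ⟨_, lip_add h.choose_spec.1 4, fun x hx => by simp only [h.choose_spec.2 x hx]⟩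
      simp only [dif_pos h, dif_pos h']
      rw [← h4 _ h.choose_spec.1]
      exact hd _ h'.choose_spec.1 _ (lip_add h.choose_spec.1 4) fun x hx => by
        simp only [h.choose_spec.2 x hx, h'.choose_spec.2 x hx]
    · have h' : ¬ ∃ H', Lip H' ∧ ∀ x ∈ A, H' x = H x + 4 := fun ⟨H', l, e⟩ =>
        h ⟨_, lip_add l (-4), fun x hx => by simp only [e x hx]; ring⟩
      simp only [dif_neg h, dif_neg h']
  · by_cases h : ∃ H', Lip H' ∧ ∀ x ∈ A, H' x = H x
    · simp only [dif_pos h]; exact hb _ h.choose_spec.1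
    · simp only [dif_neg h]; simpa using hc
  · have h : ∃ H', Lip H' ∧ ∀ x ∈ A, H' x = H x := ⟨H, l, fun _ _ => rfl⟩
    simp only [dif_pos h]
    exact hd _ h.choose_spec.1 _ l h.choose_spec.2

theorem normL : NormL := by
  intro N x
  obtain ⟨z, hz⟩ := (hex_finite 0 N).exists_notMem
  refine ⟨fun H hH => ⟨?_, ?_, H x / 4, ?_⟩, fun H hH K hK e => ?_, ?_⟩
  · simp only [nm]; omega
  · simp only [nm]; omega
  · simpa [nm] using hH
  · have h1 := congrFun e z
    simp only [nm, hH.2.1 z hz, hK.2.1 z hz] at h1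
    funext y
    have h2 := congrFun e y
    simp only [nm] at h2
    omega
  · rintro K ⟨h1, h2, l, h3⟩
    refine ⟨_, h3, funext fun y => ?_⟩
    simp only [nm]
    omega

theorem hexL : HexL := fun _ _ _ => or_iff_not_imp_left.2 vcr_of_not_hcr

theorem hexU_aux (h : HexL) {H : Cfg} {y : V} {w M M' : ℕ} {k k' : ℤ} (hw : 1 ≤ w)
    (h1 : ¬ Long (both (big (fun _ => k) M H)) (rh y w) w)
    (h2 : ¬ Long (both (big (fun _ => k') M' H)) (rh y w) w) : k' - k ≤ M + M' + 1 := by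
  by_contra hc
  rcases h (ge (k + M + 2) H) y w with ⟨a, b, ha, hb, -, hab⟩ | ⟨a, b, ha, hb, -, hab⟩
  · refine h1 ⟨a, b, ?_, hab.mono (both_mono fun z hz => Or.inr ?_) Subset.rfl⟩
    · simp only [Prod.fst_sub] at ha hb
      rw [le_nrm_sub_iff]; omega
    · simp only [ge, mem_ofPred_eq] at hz; beta_reduce; omega
  · refine h2 ⟨a, b, ?_, hab.mono (both_mono fun z hz => Or.inl ?_) Subset.rfl⟩
    · simp only [Prod.snd_sub] at ha hb
      rw [le_nrm_sub_iff]; omega
    · simp only [ge, mem_compl_iff, mem_ofPred_eq] at hz; beta_reduce; omega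

theorem hexU (h : HexL) : HexU := by
  intro H y w M M' k k' hw h1 h2
  have := hexU_aux h hw h1 h2
  have := hexU_aux h hw h2 h1
  rw [abs_le]; omega

theorem freeD_eq (U D : Set V) : freeD U D = free U 0 ∩ {H | ∀ x ∈ D, ab 0 H x = 1} := by
  ext H
  simp only [freeD, mem_ofPred_eq, mem_inter_iff, ab_eq_one, zero_add]

theorem good_freeD {U : Set V} (hU : U.Finite) (D : Set V) : Good (freeD U D) :=
  ⟨(good_free hU 0).1.subset fun _ h => h.1, fun _ => 0,
    ⟨lip_const 0, fun _ _ => rfl, fun _ _ => Or.inl rfl⟩, fun _ _ => Or.inl rfl⟩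

theorem sd_freeD {U U' D D' : Set V} (hU : U'.Finite) (h : U ⊆ U') (hD : D' ⊆ D) :
    SD (ab 0) (freeD U D) (freeD U' D') := by
  have g := good_freeD (hU.subset h) D
  have g' := good_freeD hU D'
  rw [freeD_eq, Abs_wall] at g g' ⊢
  rw [freeD_eq, Abs_wall]
  refine sd_A (fun _ => Or.inr rfl) (Or.inr rfl) (Abs_cc (hU.subset h)) (Abs_cc hU)
    (fun x a ha b hb h1 h2 => ?_) (fun x hx _ => ⟨?_, fun y hy => ?_⟩) g g'
  · by_cases hx : x ∈ (U \ ibd U) \ D
    · have hx' : x ∈ (U' \ ibd U') \ D' := ⟨⟨h hx.1.1, fun ⟨_, y, hy, e⟩ =>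
        hx.1.2 ⟨hx.1.1, y, fun k => hy (h k), e⟩⟩, fun k => hx.2 (hD k)⟩
      simp only [if_pos hx, if_pos hx', mem_univ, and_self]
    · simp only [if_neg hx] at ha ⊢
      exact Abs_one ha hb h2
  · rw [if_neg fun k => hx k.1.1]
  · rw [if_neg fun k => k.1.2 ⟨k.1.1, x, hx, hy.symm⟩]

theorem dec_two (R : Set V) : DecBy (ab 0) {H | ∀ x ∈ R, H x = 0 ∨ H x = 1} := by
  intro H K _ _ h hK x hx
  have h1 : ab 0 K x = 1 := ab_eq_one.2 (by simpa using hK x hx)
  have h2 : ab 0 H x ≤ ab 0 K x := h x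
  have h3 := one_le_ab 0 H x
  simpa using (ab_eq_one (j := 0) (H := H) (x := x)).1 (by omega)

theorem monoD : MonoD := fun _ _ _ _ R hU h hD => (sd_freeD hU h hD).dec (dec_two R)

theorem big_mono_ab {H K : Cfg} (h : ab 0 H ≤ ab 0 K) (M : ℕ) : big 0 M H ⊆ big 0 M K := by
  intro x hx
  have h1 : ab 0 H x ≤ ab 0 K x := h x
  simp only [big, ab, mem_ofPred_eq, Pi.zero_apply] at hx h1 ⊢
  rcases abs_cases (2 * (H x - 0) - 1) with h | h <;>
    rcases abs_cases (2 * (K x - 0) - 1) with h' | h' <;> omega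

end Vale.Agent.P153.Seal
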