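import Vale.Agent.P153.Seal.Stm
import Vale.Agent.P153.Spec.Defs

/-! Statements for the module Seal of P153, second part. -/

open Set Filter

namespace Vale.Agent.P153.Seal

/-- The cell of the sealing label. -/
def cell3 (N n w p m : ℕ) (H : Cfg) : Set Cfg :=
  mun N (bp n 0) ∩ {H' | lab3 n w p m H' = lab3 n w p m H}

/-- The free part of a zone. -/
def Zf (n w : ℕ) (a : ℤ) (H : Cfg) : Set V := Zb n w a \ PW n w a H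

/-- The band sites of a zone. -/
def Df (n w : ℕ) (a : ℤ) (H : Cfg) : Set V :=
  {x | x ∈ Mg n w a ∧ x ∉ PW n w a H ∧ ∃ y ∈ Pcs n w ∪ PW n w a H, Adj x y}

def Zaf (n w : ℕ) (a : ℤ) (H : Cfg) : Set V := {x | x ∈ Zf n w a H ∧ a + 8 * w < |x.1|}
def Zmf (n w : ℕ) (a : ℤ) (H : Cfg) : Set V := {x | x ∈ Zf n w a H ∧ a + 5 * w < |x.1|}
def Zcf (n w : ℕ) (a : ℤ) (H : Cfg) : Set V := {x | x ∈ Zf n w a H ∧ |x.1| < a + 2 * w}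

/-- Admissible parameters. -/
def Par (N n w p m : ℕ) : Prop :=
  1 ≤ w ∧ 20 * w ≤ n ∧ 12 ≤ p ∧ m * p * w ≤ 7 * n ∧ 40 * n + 2 ≤ N

/-- Bounded levels near a zone. -/
def BB (n w : ℕ) (a : ℤ) (M : ℕ) (H : Cfg) : Prop :=
  ¬ Long (both (big (kap n w a H) M H)) (nb (Zb n w a) 1) (w / 2)

/-- Bounded levels are conditionally likely. -/
def Bbar (N n w p m M j : ℕ) (H : Cfg) : Prop :=
  1 / 2 ≤ Pr (pin (cell3 N n w p m H) (Zf n w (za n w p j) H)ᶜ H)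
    {H' | BB n w (za n w p j) M H'}

/-- The level read in the reference rhombus is unique. -/
def KapL : Prop := ∀ (n w : ℕ) (a : ℤ) (H : Cfg) (x : V) (k : ℤ), 1 ≤ w →
  Sees w (yc n w a x) H k → kap n w a H x = 4 * k

/-- The zones satisfy the hypotheses of the zone lemma. -/
def ZoneGeo : Prop := ∀ (N n w p m j : ℕ) (H₀ : Cfg), Par N n w p m → j < m →
  H₀ ∈ mun N (bp n 0) → GoodW n w (za n w p j) H₀ →
  Zone (cell3 N n w p m H₀) (OutS n w (za n w p j)) (InS n w (za n w p j))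
    (Zf n w (za n w p j) H₀) (Pcs n w ∪ PW n w (za n w p j) H₀) (Df n w (za n w p j) H₀)
    (Zaf n w (za n w p j) H₀) (Zcf n w (za n w p j) H₀) (Zmf n w (za n w p j) H₀)
    (kap n w (za n w p j) H₀) w

/-- Facts on cells. -/
def CellL : Prop := ∀ (N n w p m : ℕ), Par N n w p m →
  (∀ H ∈ mun N (bp n 0), ∀ H' ∈ mun N (bp n 0), lab2 n w H' = lab2 n w H →
    lab3 n w p m H' = lab3 n w p m H) ∧
  ∀ H H', lab3 n w p m H' = lab3 n w p m H → ∀ j < m,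
    kap n w (za n w p j) H' = kap n w (za n w p j) H ∧
    PW n w (za n w p j) H' = PW n w (za n w p j) H ∧
    (GoodW n w (za n w p j) H' ↔ GoodW n w (za n w p j) H)

/-- An abstract law of large numbers. -/
def LLN : Prop := ∀ c : ℝ, 0 < c → ∀ η : ℝ, 0 < η → ∃ e : ℝ, 0 < e ∧ ∀ᶠ m in atTop,
  ∀ (S : Set Cfg) (A B : ℕ → Fin 4 → Set V) (E : ℕ → Fin 4 → Set Cfg), Good S →
  (∀ j q, DepOn (fun H => H ∈ E j q) (A j q)) →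
  (∀ j < m, ∀ j' < m, ∀ q q', (j, q) ≠ (j', q') → A j' q' ⊆ B j q) →
  (∀ j < m, ∀ q, ∀ g : Cfg → ℝ, (∀ H, |g H| ≤ 1) → DepOn g (B j q) →
    |Ex S (fun H => (E j q).indicator 1 H * g H) - Pr S (E j q) * Ex S g| ≤ e) →
  (∀ j < m, ∀ q, c ≤ Pr S (E j q)) →
  Pr S {H | (({j | j < m ∧ ∀ q, H ∈ E j q}.ncard : ℝ)) < c ^ 4 / 4 * m} ≤ η

/-- Many zones have good walls. -/
def GoodLLN : Prop := ∃ t : ℝ, 0 < t ∧ ∀ η : ℝ, 0 < η → ∀ᶠ p in atTop, ∀ᶠ m in atTop,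
  ∀ n w : ℕ, ∀ᶠ N in atTop, Par N n w p m →
  Pr (mun N (bp n 0)) {H | (({j | j < m ∧ GoodW n w (za n w p j) H}.ncard : ℝ)) < t * m} ≤ η

/-- Levels near a good zone are bounded. -/
def BadB : Prop := ∀ η : ℝ, 0 < η → ∃ M : ℕ, ∀ n w p m : ℕ, 2 ≤ w → ∀ᶠ N in atTop,
  Par N n w p m → ∀ j < m,
  Pr (mun N (bp n 0)) {H | GoodW n w (za n w p j) H ∧ ¬ BB n w (za n w p j) M H} ≤ η

/-- The same for the conditional probability. -/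
def BadBar : Prop := ∀ (N n w p m M j : ℕ), Par N n w p m → j < m →
  Pr (mun N (bp n 0)) {H | GoodW n w (za n w p j) H ∧ ¬ Bbar N n w p m M j H} ≤
    2 * Pr (mun N (bp n 0)) {H | GoodW n w (za n w p j) H ∧ ¬ BB n w (za n w p j) M H}

/-- Screens at a constant level. -/
def ScrC : Prop := ∀ M : ℕ, ∃ C : ℕ, ∃ c : ℝ, 0 < c ∧ ∀ (k : ℤ) (n : ℕ) (U D P T : Set V) (H : Cfg)
  (z : Finset V), 1 ≤ n → U.Finite → Disjoint U P →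
  (∀ y ∈ obd U, (y ∈ P ∧ y ∉ big (fun _ => k) M H) ∨
    (y ∉ big (fun _ => k) 0 H ∧ ∀ x ∈ U, Adj x y → x ∈ D)) →
  (∀ x ∈ T, ∃ y ∈ z, x ∈ hex y n) → (∀ y ∈ z, Disjoint (hex y (C * n)) P) →
  {H' | H' ∈ fill U H ∧ ∀ x ∈ D, x ∈ U → x ∉ big (fun _ => k) 0 H'}.Nonempty →
  c ^ z.card ≤ Pr {H' | H' ∈ fill U H ∧ ∀ x ∈ D, x ∈ U → x ∉ big (fun _ => k) 0 H'}
    {H' | ¬ ∃ a ∈ P, ∃ b ∈ T, Conn (star (big (fun _ => k) 0 H')) (U ∪ P) a b}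

/-- From bounded ends to band ends. -/
def RLow : Prop := ∀ M : ℕ, ∃ c : ℝ, 0 < c ∧ ∀ᶠ w in atTop, ∀ (N n p m j : ℕ) (H₀ H : Cfg),
  Par N n w p m → j < m → H₀ ∈ mun N (bp n 0) → GoodW n w (za n w p j) H₀ →
  H ∈ cell3 N n w p m H₀ →
  c * Pr (pin (cell3 N n w p m H₀) (Zf n w (za n w p j) H₀)ᶜ H) {H' | BB n w (za n w p j) M H'} ≤
    Pr (pin (cell3 N n w p m H₀) (Zf n w (za n w p j) H₀)ᶜ H)
      {H' | Cnf (OutS n w (za n w p j)) (InS n w (za n w p j)) (Zf n w (za n w p j) H₀)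
        (Zaf n w (za n w p j) H₀) (Zcf n w (za n w p j) H₀) (kap n w (za n w p j) H₀) H'}

open Classical in
/-- The covariance in one cell. -/
def CellB : Prop := ∀ M : ℕ, ∃ c : ℝ, 0 < c ∧ c ≤ 1 ∧ ∀ᶠ w in atTop,
  ∀ (N n p m : ℕ) (H₀ : Cfg) (X Φ : Cfg → ℝ), Par N n w p m → H₀ ∈ mun N (bp n 0) →
  DepOn X (rh 0 n) → DepOn Φ (Q n)ᶜ → (∀ H, |Φ H| ≤ 1) →
  |Ex (cell3 N n w p m H₀) (fun H => X H * Φ H) -
      Ex (cell3 N n w p m H₀) X * Ex (cell3 N n w p m H₀) Φ| ≤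
    2 * Ex (cell3 N n w p m H₀) fun H => Ex (cell3 N n w p m H₀) fun H' => |X H| *
      (1 - c) ^ {j | j < m ∧ GoodW n w (za n w p j) H ∧ Bbar N n w p m M j H ∧
        Bbar N n w p m M j H'}.ncard

/-- Averaging the two-copy bound. -/
def CovNum : Prop := ∀ {ι : Type} (S : Set Cfg) (l : Cfg → ι) (m : ℕ) (g b : ℕ → Cfg → Prop)
  (X : Cfg → ℝ) (c t η : ℝ), Good S → 0 < c → c ≤ 1 → 0 < t → 0 ≤ η → 1 ≤ m →
  (∀ H ∈ S, ∀ H' ∈ S, l H' = l H → ∀ j < m, (g j H' ↔ g j H)) →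
  Pr S {H | (({j | j < m ∧ g j H}.ncard : ℝ)) < t * m} ≤ η →
  (∀ j < m, Pr S {H | g j H ∧ ¬ b j H} ≤ η) →
  Ex S (fun H => Ex (S ∩ {H' | l H' = l H}) fun H' =>
      |X H| * (1 - c) ^ {j | j < m ∧ g j H ∧ b j H ∧ b j H'}.ncard) ≤
    √(Ex S fun H => X H ^ 2) * √(Real.exp (-(c * t * m / 2)) + η + 8 * η / t)

/-- The conditional covariance is small. -/
def Cov : Prop := ∀ e : ℝ, 0 < e → ∀ᶠ θ in atTop, ∀ᶠ n in atTop, ∀ᶠ N in atTop, ∃ p m : ℕ,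
  Par N n (n / θ) p m ∧ ∀ X Φ : Cfg → ℝ, DepOn X (rh 0 n) → DepOn Φ (Q n)ᶜ → (∀ H, |Φ H| ≤ 1) →
  Ex (mun N (bp n 0)) (fun H =>
    |Ex (cell3 N n (n / θ) p m H) (fun K => X K * Φ K) -
      Ex (cell3 N n (n / θ) p m H) X * Ex (cell3 N n (n / θ) p m H) Φ|) ≤
    e * √(Ex (mun N (bp n 0)) fun H => X H ^ 2)

/-- Harmonicity under the reference measure. -/
def Hnu : Prop := ∀ (a : ℕ → V →₀ ℝ) (s : ℕ → ℕ), Tst a s → Moves a s → ∀ e : ℝ, 0 < e →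
  ∀ᶠ t in atTop, ∀ᶠ N in atTop, Ex (mu N) (fun H => |Ex (fill (Q (s t)) H) (lin (a t))|) ≤ e

/-- Harmonicity under two-valued boundary conditions. -/
def Har : Prop := ∀ (a : ℕ → V →₀ ℝ) (s : ℕ → ℕ), Tst a s → Moves a s → ∀ e : ℝ, 0 < e →
  ∀ L : ℕ, ∀ᶠ t in atTop, ∀ (F S : Set V) (G : Cfg → ℝ), hex 0 (40 * s t) ⊆ F →
  F ⊆ hex 0 (L * s t) → (∀ H, |G H| ≤ 1) → DepOn G (Q (s t))ᶜ →
  |Ex (dob F S) (fun H => lin (a t) H * G H)| ≤ e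

/-- The discrete Laplacians of a test function form a test sequence with the moving property. -/
def Bridge : Prop := ∀ δ : ℕ → ℝ, (∀ n, 0 < δ n) → Tendsto δ atTop (nhds 0) →
  ∀ φ : ℂ → ℝ, ContDiff ℝ 4 φ → tsupport φ ⊆ Metric.ball 0 1 → ∀ a : ℕ → V →₀ ℝ,
  (∀ n y, a n y = Vale.P153.Spec.lap (fun v => φ (δ n * emb v)) y) →
  Tst a (fun n => 2 * (⌈1 / δ n⌉₊ + 3)) ∧ Moves a fun n => 2 * (⌈1 / δ n⌉₊ + 3)

end Vale.Agent.P153.Seal
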