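import Vale.Agent.P153.Seal.Stm

/-! P153, module Seal: the two-copy swap. -/

open Set

namespace Vale.Agent.P153.Seal

theorem swap_comm (S : Set Cfg) (F : Cfg → Cfg → ℝ) :
    Ex S (fun H => Ex S fun H' => F H H') = Ex S fun H' => Ex S fun H => F H H' := by
  by_cases hS : S.Finite
  · simp only [Ex_eq hS, ← Finset.sum_div]
    rw [Finset.sum_comm]
  · simp only [Ex_inf hS]

theorem swap_step {S : Set Cfg} {A B : Set V} {ρ X : Cfg → ℝ} {F : Cfg → Cfg → ℝ} (hS : Good S)
    (h0 : ∀ H ∈ S, 0 ≤ ρ H) (hF : Fact S A B ρ) (hX : DepS S B X)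
    (h1 : ∀ H', DepS S A fun H => F H H') (h2 : ∀ H H', F H H' = -F H' H) :
    Ex S (fun H => Ex S fun H' => X H * F H H' * (ρ H * ρ H')) = 0 := by
  rw [swap_comm]
  rcases eq_or_ne (Ex S ρ) 0 with h | h
  · refine (Ex_congr fun H' hH' => ?_).trans (Ex_zero S)
    have : ρ H' = 0 := by
      by_contra hn
      exact (Ex_pos hS.1 h0 hH' ((h0 H' hH').lt_of_ne' hn)).ne' h
    simp only [this, mul_zero, Ex_zero]
  · have e : Ex S (fun H' => Ex S fun H => F H H' * (ρ H * ρ H')) = 0 := by
      have : Ex S (fun H' => Ex S fun H => F H H' * (ρ H * ρ H')) =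
          -Ex S (fun H' => Ex S fun H => F H H' * (ρ H * ρ H')) := by
        conv_lhs => rw [swap_comm]
        rw [← Ex_neg]
        refine Ex_congr fun H _ => ?_
        rw [← Ex_neg]
        exact Ex_congr fun H' _ => by rw [h2]; ring
      linarith
    refine (mul_eq_zero.1 ?_).resolve_right h
    rw [← Ex_mul_right, ← zero_mul (Ex S fun H => X H * ρ H), ← e, ← Ex_mul_right]
    refine Ex_congr fun H' _ => ?_
    have a := hF _ X (h1 H') hX
    have b : Ex S (fun H => X H * F H H' * (ρ H * ρ H')) =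
        Ex S (fun H => F H H' * X H * ρ H) * ρ H' := by
      rw [← Ex_mul_right]
      exact Ex_congr fun H _ => by ring
    have c : Ex S (fun H => F H H' * (ρ H * ρ H')) = Ex S (fun H => F H H' * ρ H) * ρ H' := by
      rw [← Ex_mul_right]
      exact Ex_congr fun H _ => by ring
    rw [b, c]
    linear_combination ρ H' * a

theorem swap : Swap := by
  intro S m A B ρ X Φ hS h0 hF hd hΦ
  have key : ∀ j ≤ m, Ex S (fun H => X H * Φ H) - Ex S X * Ex S Φ =
      Ex S fun H => Ex S fun H' =>
        X H * ((Φ H - Φ H') * ∏ i ∈ Finset.range j, (1 - ρ i H * ρ i H')) := by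
    intro j
    induction j with
    | zero =>
      intro _
      rw [← Ex_mul_right, ← Ex_sub]
      refine Ex_congr fun H _ => ?_
      simp only [Finset.range_zero, Finset.prod_empty, mul_one]
      rw [Ex_mul_left, Ex_sub, Ex_const hS, mul_sub]
    | succ j ih =>
      intro hj
      have a := swap_step (X := X) (F := fun H H' => (Φ H - Φ H') *
          ∏ i ∈ Finset.range j, (1 - ρ i H * ρ i H')) hS (fun H hH => (h0 j hj H hH).1) (hF j hj)
        (hd j hj).2.1 (fun H' H₁ a₁ H₂ a₂ a₃ => by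
          dsimp only
          rw [(hd j hj).1 H₁ a₁ H₂ a₂ a₃]
          congr 1
          exact Finset.prod_congr rfl fun i hi => by
            rw [(hd j hj).2.2 i (Finset.mem_range.1 hi) H₁ a₁ H₂ a₂ a₃])
        fun H H' => by
          simp only [mul_comm (ρ _ H)]
          ring
      rw [ih (Nat.le_of_succ_le hj), ← sub_zero (Ex S _), ← a, ← Ex_sub]
      refine Ex_congr fun H _ => ?_
      rw [← Ex_sub]
      exact Ex_congr fun H' _ => by rw [Finset.prod_range_succ]; ring
  rw [key m le_rfl, ← Ex_mul_left]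
  refine (abs_Ex_le _ _).trans (Ex_mono fun H hH => ?_)
  rw [← Ex_mul_left]
  refine (abs_Ex_le _ _).trans (Ex_mono fun H' hH' => ?_)
  have p : 0 ≤ ∏ i ∈ Finset.range m, (1 - ρ i H * ρ i H') := Finset.prod_nonneg fun i hi => by
    have a := h0 i (Finset.mem_range.1 hi) H hH
    have b := h0 i (Finset.mem_range.1 hi) H' hH'
    nlinarith
  have q : |Φ H - Φ H'| ≤ 2 := (abs_sub _ _).trans (by linarith [hΦ H hH, hΦ H' hH'])
  rw [abs_mul, abs_mul, abs_of_nonneg p, mul_left_comm]
  exact mul_le_mul_of_nonneg_right q (mul_nonneg (abs_nonneg _) p)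

end Vale.Agent.P153.Seal
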