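import Vale.Agent.P153.Seal.Loc

/-! Second moments of test sequences. -/

open Set Filter

namespace Vale.Agent.P153.Seal

theorem lin_smul (c : ℝ) (a : V →₀ ℝ) (H : Cfg) : lin (c • a) H = c * lin a H := by
  unfold lin
  rw [Finsupp.sum_smul_index' (by simp), Finsupp.mul_sum]
  simp only [smul_eq_mul, mul_assoc]

theorem sum_smul0 (c : ℝ) {a : V →₀ ℝ} (h : a.sum (fun _ c => c) = 0) :
    (c • a).sum (fun _ c => c) = 0 := by
  rw [Finsupp.sum_smul_index' (by simp)]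
  simp only [smul_eq_mul]
  rw [← Finsupp.mul_sum, h, mul_zero]

theorem lin_dep {a : V →₀ ℝ} {A : Set V} (h : ∀ x ∈ a.support, x ∈ A) : DepOn (lin a) A :=
  fun _ _ e => Finset.sum_congr rfl fun x hx => by simp only [e x (h x hx)]

theorem lin_add_const {a : V →₀ ℝ} (h : a.sum (fun _ c => c) = 0) (H : Cfg) (k : ℤ) :
    lin a (fun x => H x + k) = lin a H := by
  unfold lin
  simp only [Int.cast_add, mul_add, Finsupp.sum_add]
  rw [← Finsupp.sum_mul, h]; simp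

theorem sq_le_one_add (S : Set Cfg) (f : Cfg → ℝ) :
    Ex S (fun H => f H ^ 2) ≤ 1 + Ex S fun H => f H ^ 4 := by
  have h := Ex_sq_le S fun H => f H ^ 2
  simp only [← pow_mul] at h
  nlinarith [sq_nonneg (Ex S (fun H => f H ^ 2) - 1), sq_nonneg (Ex S fun H => f H ^ 2)]

theorem x2_aux {S : Set Cfg} {a : V →₀ ℝ} {s : ℕ} {C C' : ℝ} (hs : 1 ≤ s) (hC : 0 < C)
    (h : Ex S (fun H => lin (((s : ℝ) ^ 2 / C) • a) H ^ 4) ≤ C' * ((2 * s : ℕ) : ℝ) ^ 8) :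
    Ex S (fun H => lin a H ^ 2) ≤ 1 + C' * 2 ^ 8 * C ^ 4 := by
  refine (sq_le_one_add S _).trans (add_le_add le_rfl ?_)
  have h0 : (0 : ℝ) < s := by exact_mod_cast hs
  simp only [lin_smul, mul_pow, Ex_mul_left, Nat.cast_mul, Nat.cast_ofNat, div_pow] at h
  rw [div_mul_eq_mul_div, div_le_iff₀ (by positivity), ← pow_mul] at h
  refine le_of_mul_le_mul_left (h.trans (le_of_eq ?_)) (by positivity)
  ring

theorem x2_bd {a : V →₀ ℝ} {s : ℕ} {C : ℝ} (hs : 1 ≤ s) (hC : 0 < C)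
    (h : ∀ x, |a x| ≤ C / (s : ℝ) ^ 2) (y : V) : |(((s : ℝ) ^ 2 / C) • a) y| ≤ 1 := by
  have h0 : (0 : ℝ) < s := by exact_mod_cast hs
  rw [Finsupp.smul_apply, smul_eq_mul, abs_mul, abs_of_pos (by positivity)]
  calc _ ≤ (s : ℝ) ^ 2 / C * (C / (s : ℝ) ^ 2) := by gcongr; exact h y
    _ = 1 := by field_simp

theorem x2 (h1 : M4Mu) (h2 : M4Dob) : X2 := by
  rintro a s ⟨hs, C, hC, ha⟩
  have hs1 := hs.eventually_ge_atTop 1
  refine ⟨?_, fun L => ?_, ha.mono fun t ht => ⟨lin_dep ht.2.2, fun H => ?_⟩⟩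
  · obtain ⟨C', h⟩ := h1
    refine ⟨1 + C' * 2 ^ 8 * C ^ 4, (ha.and hs1).mono fun t ⟨ht, h1⟩ => ?_⟩
    refine (h (2 * s t) (by omega) 0).mono fun N hN => x2_aux h1 hC (hN _ (sum_smul0 _ ht.1)
      (x2_bd h1 hC ht.2.1) fun y hy => rh_subset_hex (ht.2.2 y (Finsupp.support_smul hy)))
  · obtain ⟨C', h⟩ := h2 L
    refine ⟨1 + C' * 2 ^ 8 * C ^ 4, (ha.and hs1).mono fun t ⟨ht, h1⟩ F S hF => ?_⟩
    exact x2_aux h1 hC (h (2 * s t) (by omega) F S _ (hF.trans (hex_mono (by nlinarith)))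
      (x2_bd h1 hC ht.2.1) fun y hy => rh_subset_hex (ht.2.2 y (Finsupp.support_smul hy)))
  · exact lin_add_const ht.1 H 4

end Vale.Agent.P153.Seal
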