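import Vale.Agent.P153.Seal.Stm2
import Vale.Agent.P153.Seal.Small

/-! The zones satisfy the hypotheses of the zone lemma. -/

open Set Filter

namespace Vale.Agent.P153.Seal

namespace ZoneGeoX

theorem conn_dep {κ : V → ℤ} {M : ℕ} {H H' : Cfg} {A : Set V} {a b : V}
    (h : ∀ x ∈ A, H x = H' x) (hc : Conn (star (big κ M H)) A a b) :
    Conn (star (big κ M H')) A a b :=
  hc.mono' fun u v _ hE hu hv => ⟨by
    simp only [star, big, mem_ofPred_eq] at hE ⊢
    rwa [← h u hu, ← h v hv], hu, hv⟩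

theorem reach_dep {κ : V → ℤ} {M : ℕ} {H H' : Cfg} {O A : Set V}
    (h : ∀ x ∈ O ∪ A, H x = H' x) : reach (star (big κ M H)) O A = reach (star (big κ M H')) O A :=
  Set.ext fun _ => and_congr_right fun _ => exists_congr fun _ => and_congr_right fun _ =>
    ⟨conn_dep h, conn_dep fun x hx => (h x hx).symm⟩

theorem za_bd {N n w p m j : ℕ} (hP : Par N n w p m) (hj : j < m) :
    za n w p j + 12 * w ≤ 16 * n ∧ 9 * (n : ℤ) ≤ za n w p j := by
  obtain ⟨-, -, hp, hm, -⟩ := hP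
  have e1 : 12 * w ≤ (j + 1) * p * w := Nat.mul_le_mul_right w (by nlinarith)
  have e2 : (j + 1) * p * w ≤ m * p * w := Nat.mul_le_mul_right w (Nat.mul_le_mul_right p hj)
  have e3 : za n w p j = 16 * n - ((j + 1) * p * w : ℕ) := by rw [za]; push_cast; ring
  omega

theorem za_lt {n w p i j : ℕ} (hp : 12 ≤ p) (h : i < j) : za n w p j + 12 * w ≤ za n w p i := by
  have e1 : ((i + 1) * p + 12) * w ≤ (j + 1) * p * w := Nat.mul_le_mul_right w (by nlinarith)
  have e2 : za n w p j = 16 * n - ((j + 1) * p * w : ℕ) := by rw [za]; push_cast; ring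
  have e3 : za n w p i = 16 * n - (((i + 1) * p + 12) * w : ℕ) + 12 * w := by
    rw [za]; push_cast; ring
  omega

theorem mem_Q {n : ℕ} {x : V} : x ∈ Q n ↔ (x.1.natAbs : ℤ) ≤ 16 * n ∧ (x.2.natAbs : ℤ) ≤ 16 * n := by
  rw [Q, mem_rh]
  simp only [Prod.fst_zero, Prod.snd_zero]
  omega

theorem kap_dep {n w : ℕ} {a : ℤ} (_hn : 20 * w ≤ n) (h1 : a + 12 * w ≤ 16 * n) (h2 : 9 * (n : ℤ) ≤ a)
    {H H' : Cfg} (h : ∀ x ∈ Pcs n w, H x = H' x) : kap n w a H = kap n w a H' := by
  funext x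
  have hs : rh (yc n w a x) w ⊆ Pcs n w := fun y hy => by
    rw [mem_rh] at hy
    simp only [Pcs, mem_ofPred_eq, mem_Q, Int.abs_eq_natAbs]
    simp only [yc] at hy
    split_ifs at hy <;> omega
  have e : Sees w (yc n w a x) H = Sees w (yc n w a x) H' := funext fun k => propext <|
    not_congr <| exists₂_congr fun _ _ => and_congr_right fun _ =>
      ⟨conn_dep fun y hy => h y (hs hy), conn_dep fun y hy => (h y (hs hy)).symm⟩
  unfold kap
  rw [e]

theorem lab_iff {n w p m : ℕ} {H H₀ : Cfg} : lab3 n w p m H = lab3 n w p m H₀ ↔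
    (∀ j < m, PW n w (za n w p j) H = PW n w (za n w p j) H₀) ∧ (∀ x ∈ Pcs n w, H x = H₀ x) ∧
      ∀ j < m, ∀ x ∈ PW n w (za n w p j) H₀, H x = H₀ x := by
  have k : (∀ j < m, PW n w (za n w p j) H = PW n w (za n w p j) H₀) →
      (⋃ j < m, PW n w (za n w p j) H) = ⋃ j < m, PW n w (za n w p j) H₀ := fun h =>
    iUnion₂_congr h
  rw [lab3, lab3, Prod.mk.injEq]
  constructor
  · rintro ⟨e1, e2⟩
    have h : ∀ j < m, PW n w (za n w p j) H = PW n w (za n w p j) H₀ := fun j hj => by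
      simpa only [if_pos hj] using congrFun e1 j
    rw [k h] at e2
    have h2 : ∀ x ∈ Pcs n w ∪ ⋃ j < m, PW n w (za n w p j) H₀, H x = H₀ x := fun x hx => by
      simpa only [res, if_pos hx] using congrFun e2 x
    exact ⟨h, fun x hx => h2 x (Or.inl hx), fun j hj x hx =>
      h2 x (Or.inr (mem_iUnion₂.2 ⟨j, hj, hx⟩))⟩
  · rintro ⟨h, h1, h2⟩
    refine ⟨funext fun j => ?_, funext fun x => ?_⟩
    · split_ifs with hj
      · exact h j hj
      · rfl
    · rw [k h]
      simp only [res]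
      split_ifs with hx
      · rcases hx with hx | hx
        · exact h1 x hx
        · obtain ⟨j, hj, hx⟩ := mem_iUnion₂.1 hx
          exact h2 j hj x hx
      · rfl

theorem disj (n w : ℕ) (a : ℤ) : Disjoint (Pcs n w) (Mg n w a) := disjoint_left.2 fun x h1 h2 => by
  have := h2.1
  simp only [Pcs, Zb, Ch, mem_ofPred_eq] at h1 this
  omega

end ZoneGeoX

open ZoneGeoX in
theorem zoneGeo (h1 : ReachL) : ZoneGeo := by
  intro N n w p m j H₀ hP hj hH₀ hG
  have hb := fun i (hi : i < m) => za_bd hP hi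
  obtain ⟨hw, hn, hp, -, hN⟩ := id hP
  have ⟨a1, a2⟩ := hb j hj
  have hlt := fun i k => za_lt (n := n) (w := w) (i := i) (j := k) hp
  have hPW : ∀ a H x, x ∈ PW n w a H → x ∈ Mg n w a := fun _ _ _ h => h.1
  have cel : ∀ H ∈ cell3 N n w p m H₀, _ := fun H hH => lab_iff.1 hH.2
  have dep : ∀ i < m, ∀ H H' : Cfg, (∀ x ∈ Pcs n w ∪ Mg n w (za n w p i), H x = H' x) →
      PW n w (za n w p i) H = PW n w (za n w p i) H' := fun i hi H H' h => by
    rw [PW, PW, kap_dep hn (hb i hi).1 (hb i hi).2 fun x hx => h x (Or.inl hx), reach_dep h]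
  set a := za n w p j with ha
  have pin : ∀ H ∈ cell3 N n w p m H₀, ∀ x ∈ Pcs n w ∪ PW n w a H₀, H x = H₀ x :=
    fun H hH x hx => hx.elim ((cel H hH).2.1 x) ((cel H hH).2.2 j hj x)
  have bd : ∀ H ∈ cell3 N n w p m H₀, ∀ x ∈ Mg n w a, x ∉ PW n w a H₀ →
      ∀ y ∈ Pcs n w ∪ PW n w a H₀, Adj x y →
        x ∉ big (kap n w a H₀) 0 H ∧ y ∉ big (kap n w a H₀) 0 H := fun H hH => by
    rw [← (cel H hH).1 j hj, ← kap_dep hn a1 a2 (cel H hH).2.1]
    exact (h1 _ _ (kap n w a H) 0 H H (disj n w a)).1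
  have hZb : ∀ x ∈ Pcs n w ∪ PW n w a H₀, x ∈ Pcs n w ∨ x ∈ Zb n w a := fun x hx =>
    hx.imp_right fun h => h.1.1
  refine
    { good := ⟨(((normL N _).image_eq ▸ (good_free (hex_finite 0 N) 0).1.image _ :
        (mun N (bp n 0)).Finite)).inter_of_left _, H₀, hH₀, rfl⟩
      lip := fun H hH x y hxy => ?_
      cover := fun x => ?_
      dOI := disjoint_left.2 fun x k1 k2 => ?_
      dZ := disjoint_left.2 fun x k1 k2 => ?_
      dP := disjoint_left.2 fun x k1 k2 => ?_
      fin := (rh_finite 0 (16 * n)).subset fun x hx => ?_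
      hD := fun x hx => ⟨hx.1.1, hx.2.1⟩
      hkap := fun x hx y hxy => ?_
      pin := fun H hH H' hH' x hx => (pin H hH x hx).trans (pin H' hH' x hx).symm
      band := fun H hH x ⟨k1, k2, y, k3, k4⟩ => (bd H hH x k1 k2 y k3 k4).1
      splice := fun H₁ k1 H₂ k2 H hl e1 e2 hD => ?_
      wall := fun H hH x hx y hy hxy => ?_
      ha := fun x hx => ⟨hx.1, by have := hx.2; omega⟩
      hm := fun x hx => hx.1
      hc := fun x hx => hx.1
      dmc := disjoint_left.2 fun x k1 k2 => by have := k1.2; have := k2.2; omega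
      nOI := fun x hx y hy hxy => ?_
      nO := fun x hx y hy hxy => ⟨hy, ?_⟩
      nI := fun x hx y hy hxy => ⟨hy, ?_⟩
      far := fun x hx y hy hy' => ?_ }
  · obtain ⟨-, -, l, hl⟩ := hH.1
    simpa using hl.1 x y hxy
  · by_cases k : x ∈ PW n w a H₀
    · exact Or.inr (Or.inr (Or.inr (Or.inr k)))
    · simp only [OutS, InS, Zf, Zb, Ch, Pcs, Set.mem_sdiff, mem_union, mem_ofPred_eq, k, mem_Q,
        Int.abs_eq_natAbs, not_false_eq_true, and_true, or_false]
      omega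
  · simp only [OutS, InS, mem_ofPred_eq] at k1 k2
    rcases k1 with k1 | k1
    · exact k1 k2.1
    · omega
  · have k3 := k1.1
    simp only [OutS, InS, Zb, Ch, Pcs, mem_union, mem_ofPred_eq, k1.2, mem_Q, Int.abs_eq_natAbs,
      or_false] at k2 k3
    omega
  · have k3 := hZb x k1
    simp only [OutS, InS, Zb, Ch, Pcs, mem_union, mem_ofPred_eq, mem_Q, Int.abs_eq_natAbs] at k2 k3
    omega
  · have k3 := hx.1
    refine mem_Q.2 ?_
    simp only [Zb, Ch, mem_ofPred_eq, Int.abs_eq_natAbs] at k3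
    omega
  · have k3 := hx.1
    simp only [Zb, Ch, mem_ofPred_eq, Int.abs_eq_natAbs] at k3
    rw [adj_iff] at hxy
    have e : yc n w a y = yc n w a x := by
      simp only [yc, show 0 ≤ y.1 ↔ 0 ≤ x.1 by omega, show 0 ≤ y.2 ↔ 0 ≤ x.2 by omega]
    unfold kap
    rw [e]
  · have eP : ∀ x ∈ Pcs n w ∪ PW n w a H₀, H x = H₀ x := fun x hx =>
      (e1 x (Or.inr hx)).trans (pin H₁ k1 x hx)
    have eQ : ∀ x, 32 * n < nrm (x - 0) → H x = H₁ x := fun x hx => e1 x (Or.inl (Or.inl fun h => by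
      have := mem_hex.1 (rh_subset_hex h)
      omega))
    have eM : ∀ i < m, i ≠ j → ∃ K ∈ cell3 N n w p m H₀, ∀ x ∈ Mg n w (za n w p i), H x = K x := by
      intro i hi hij
      have ⟨b1, b2⟩ := hb i hi
      rcases lt_or_gt_of_ne hij with h | h
      · refine ⟨H₁, k1, fun x hx => e1 x (Or.inl (Or.inr ⟨hx.1.1, ?_⟩))⟩
        have := hlt i j h
        have := hx.1.2.1
        omega
      · refine ⟨H₂, k2, fun x hx => e2 x ⟨mem_Q.2 ?_, disjoint_right.1 (disj n w _) hx, ?_⟩⟩ <;>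
        · have := hlt j i h
          have k3 := hx.1
          simp only [Zb, Ch, mem_ofPred_eq, Int.abs_eq_natAbs] at k3 ⊢
          omega
    refine ⟨?_, lab_iff.2 ⟨fun i hi => ?_, fun x hx => eP x (Or.inl hx), fun i hi x hx => ?_⟩⟩
    · obtain ⟨c1, c2, l, c3⟩ := k1.1
      have c4 : H (bp n 0) = H₁ (bp n 0) := e1 _ (Or.inr (Or.inl (by
        simp only [Pcs, mem_ofPred_eq, mem_Q, Int.abs_eq_natAbs, bp, Matrix.cons_val_zero]
        omega)))
      refine ⟨c4 ▸ c1, c4 ▸ c2, l, fun x y hxy => by simpa using hl x y hxy, fun x hx => ?_,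
        fun x hx => ?_⟩
      · have c5 := c3.2.1 x hx
        rw [mem_hex] at hx
        simpa only [eQ x (by omega)] using c5
      · have c5 := c3.2.2 x hx
        rw [mem_ibd_hex] at hx
        simpa only [eQ x (by omega)] using c5
    · by_cases hij : i = j
      · subst hij
        rw [PW, kap_dep hn a1 a2 fun x hx => eP x (Or.inl hx)]
        exact ((h1 _ _ (kap n w a H₀) 0 H₀ H (disj n w a)).2 fun x hx =>
          eP x (hx.imp_left And.right)).2 fun x c1 c2 c3 => hD x ⟨c1, c2, c3⟩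
      · obtain ⟨K, hK, e⟩ := eM i hi hij
        rw [← (cel K hK).1 i hi]
        exact dep i hi H K fun x hx => hx.elim
          (fun h => (eP x (Or.inl h)).trans ((cel K hK).2.1 x h).symm) (e x)
    · by_cases hij : i = j
      · subst hij
        exact eP x (Or.inr hx)
      · obtain ⟨K, hK, e⟩ := eM i hi hij
        exact (e x hx.1).trans ((cel K hK).2.2 i hi x hx)
  · have k1 : x ∈ Mg n w a := by
      refine ⟨hx.1, ?_⟩
      rw [adj_iff] at hxy
      rcases hy with hy | hy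
      · have := hy.2
        simp only [Int.abs_eq_natAbs] at this ⊢
        omega
      · have k2 := hy.1.2
        have k3 := hG.2 y hy
        simp only [Int.abs_eq_natAbs] at k2 k3 ⊢
        omega
    exact ⟨⟨k1, hx.2, y, hy, hxy⟩, (bd H hH x k1 hx.2 y hy hxy).2⟩
  · have k1 : x ∈ OutS n w a ∨ a + 8 * w < |x.1| := hx.imp_right And.right
    have k2 : y ∈ InS n w a ∨ (y ∈ Zb n w a ∧ |y.1| < a + 2 * w) :=
      hy.imp_right fun h => ⟨h.1.1, h.2⟩
    rw [adj_iff] at hxy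
    simp only [OutS, InS, Zb, Ch, Pcs, mem_ofPred_eq, mem_Q, Int.abs_eq_natAbs] at k1 k2
    omega
  · have k2 := hy.1
    rw [adj_iff] at hxy
    simp only [OutS, Zb, Ch, mem_ofPred_eq, mem_Q, Int.abs_eq_natAbs] at hx k2 ⊢
    omega
  · have k2 := hx.2.2
    rw [adj_iff] at hxy
    simp only [Int.abs_eq_natAbs] at k2 ⊢
    omega
  · have k1 := hx.2
    have k2 : ¬ a + 5 * w < |y.1| := fun h => hy' ⟨hy, h⟩
    rw [le_nrm_sub_iff]
    simp only [Int.abs_eq_natAbs] at k1 k2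
    omega

end Vale.Agent.P153.Seal
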