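import Vale.Agent.P153.Seal.Stm

/-! P153, module Seal: the weight of one zone. -/

open Set Filter

namespace Vale.Agent.P153.Seal

namespace ZoneLA

/-- Sums factorize when the sizes of the joint fibres are divided out. -/
theorem abs_fact {ι : Type} (T : Finset Cfg) (α β : Cfg → ι) (m : ι → ι → ℝ)
    (hm : ∀ H₁ ∈ T, ∀ H₂ ∈ T,
      ({H | H ∈ T ∧ α H = α H₁ ∧ β H = β H₂}.ncard : ℝ) = m (α H₁) (β H₂) ∧
        m (α H₁) (β H₂) ≠ 0) :
    ∃ φ γ : (Cfg → ℝ) → ℝ, ∀ f g : Cfg → ℝ, (∀ H ∈ T, ∀ H' ∈ T, α H = α H' → f H = f H') →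
      (∀ H ∈ T, ∀ H' ∈ T, β H = β H' → g H = g H') →
      ∑ H ∈ T, f H * g H / m (α H) (β H) = φ f * γ g := by
  classical
  refine ⟨fun f => ∑ a ∈ T.image α, f (Function.invFunOn α T a),
    fun g => ∑ b ∈ T.image β, g (Function.invFunOn β T b), fun f g hf hg => ?_⟩
  have mp : ∀ H ∈ T, (α H, β H) ∈ T.image α ×ˢ T.image β := fun H h =>
    Finset.mem_product.2 ⟨Finset.mem_image_of_mem α h, Finset.mem_image_of_mem β h⟩
  rw [← Finset.sum_fiberwise_of_maps_to mp, Finset.sum_mul_sum, Finset.sum_product]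
  refine Finset.sum_congr rfl fun a ha => Finset.sum_congr rfl fun b hb => ?_
  obtain ⟨H₁, h1, rfl⟩ := Finset.mem_image.1 ha
  obtain ⟨H₂, h2, rfl⟩ := Finset.mem_image.1 hb
  obtain ⟨k1, k2⟩ := Function.invFunOn_pos (f := α) (s := (T : Set Cfg)) ⟨H₁, h1, rfl⟩
  obtain ⟨k3, k4⟩ := Function.invFunOn_pos (f := β) (s := (T : Set Cfg)) ⟨H₂, h2, rfl⟩
  obtain ⟨m1, m2⟩ := hm H₁ h1 H₂ h2
  rw [hf _ k1 H₁ h1 k2, hg _ k3 H₂ h2 k4, Finset.sum_congr rfl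
    (g := fun _ => f H₁ * g H₂ / m (α H₁) (β H₂)) fun H hH => ?_, Finset.sum_const, nsmul_eq_mul]
  · have : ((T.filter fun H => (α H, β H) = (α H₁, β H₂)).card : ℝ) = m (α H₁) (β H₂) := by
      rw [← m1, ← ncard_coe_finset]
      congr 2
      ext H
      simp
    rw [this]
    field_simp
  · obtain ⟨l1, l2⟩ := Finset.mem_filter.1 hH
    obtain ⟨l2, l3⟩ := Prod.ext_iff.1 l2
    dsimp only at l2 l3
    rw [hf H l1 H₁ h1 l2, hg H l1 H₂ h2 l3, l2, l3]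

/-- The explored set. -/
def rc (κ : V → ℤ) (O Z : Set V) (H : Cfg) : Set V := reach (star (big κ 0 H)) O Z

/-- The explored set with the heights on it. -/
noncomputable def lb (κ : V → ℤ) (O Z : Set V) (H : Cfg) : Set V × Cfg :=
  (rc κ O Z H, res (O ∪ rc κ O Z H) H)

variable {S : Set Cfg} {O I Z P D Za Zc Zm : Set V} {κ : V → ℤ} {r : ℕ} {H H' H₁ H₂ : Cfg}

theorem lb_iff : lb κ O Z H = lb κ O Z H' ↔
    rc κ O Z H = rc κ O Z H' ∧ ∀ x ∈ O ∪ rc κ O Z H', H x = H' x := by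
  rw [lb, lb, Prod.mk.injEq]
  refine and_congr_right fun h => ?_
  rw [h]
  refine ⟨fun e x hx => by simpa [res, if_pos hx] using congrFun e x, fun e => funext fun x => ?_⟩
  unfold res
  split_ifs with hx
  exacts [e x hx, rfl]

theorem big_congr {x : V} (h : H x = H' x) : x ∈ big κ 0 H ↔ x ∈ big κ 0 H' := by
  simp only [big, mem_ofPred_eq, h]

theorem rc_sub : rc κ O Z H ⊆ Z := fun _ h => h.1

theorem rc_dep (h2 : ReachL) (hd : Disjoint O Z) (h : ∀ x ∈ Z ∪ obd Z, H x = H' x) :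
    rc κ O Z H' = rc κ O Z H := by
  obtain ⟨r1, r2⟩ := h2 O Z κ 0 H H' hd
  refine (r2 fun x hx => (h x (hx.elim (fun k => Or.inr k.1) fun k => Or.inl k.1)).symm).2 ?_
  rintro x hx hx' ⟨y, hy, hxy⟩
  rw [← big_congr (h x (Or.inl hx))]
  exact (r1 x hx hx' y hy hxy).1

theorem fibre (h2 : ReachL) (h3 : LocB) (hz : Zone S O I Z P D Za Zc Zm κ r) (s1 : H₁ ∈ S)
    (s2 : H₂ ∈ S) (c1 : rc κ O Z H₁ ⊆ Za) (c2 : rc κ I Z H₂ ⊆ Zc) :
    {H | (H ∈ S ∧ Cnf O I Z Za Zc κ H) ∧ lb κ O Z H = lb κ O Z H₁ ∧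
      lb κ I Z H = lb κ I Z H₂}.ncard = (freeD (Z \ (rc κ O Z H₁ ∪ rc κ I Z H₂)) D).ncard := by
  classical
  have dO : Disjoint O Z := (hz.dZ.mono_right fun x hx => Or.inl (Or.inl hx)).symm
  have dI : Disjoint I Z := (hz.dZ.mono_right fun x hx => Or.inl (Or.inr hx)).symm
  have dP : Disjoint P Z := (hz.dZ.mono_right fun x hx => Or.inr hx).symm
  have pO := fun H H' => h2 O Z κ 0 H H' dO
  have pI := fun H H' => h2 I Z κ 0 H H' dI
  change ∀ H H', (∀ x ∈ Z, x ∉ rc κ O Z H → ∀ y ∈ O ∪ rc κ O Z H, _) ∧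
    ((∀ x ∈ obd Z ∩ O ∪ rc κ O Z H, _) → (rc κ O Z H' = rc κ O Z H ↔
      ∀ x ∈ Z, x ∉ rc κ O Z H → (∃ y ∈ O ∪ rc κ O Z H, _) → _)) at pO
  change ∀ H H', (∀ x ∈ Z, x ∉ rc κ I Z H → ∀ y ∈ I ∪ rc κ I Z H, _) ∧
    ((∀ x ∈ obd Z ∩ I ∪ rc κ I Z H, _) → (rc κ I Z H' = rc κ I Z H ↔
      ∀ x ∈ Z, x ∉ rc κ I Z H → (∃ y ∈ I ∪ rc κ I Z H, _) → _)) at pI
  set A := rc κ O Z H₁ with hA
  set B := rc κ I Z H₂ with hB
  set U := Z \ (A ∪ B) with hU
  have nAB : ∀ x ∈ O ∪ A, ∀ y ∈ I ∪ B, ¬ Adj x y := fun x hx y hy =>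
    hz.nOI x (hx.imp_right (@c1 x)) y (hy.imp_right (@c2 y))
  have cov : ∀ x, x ∉ U → x ∈ O ∪ A ∨ x ∈ P ∨ x ∈ I ∪ B := fun x hx => by
    rcases hz.cover x with h | h | h | h
    · exact Or.inl (Or.inl h)
    · exact Or.inr (Or.inr (Or.inl h))
    · by_cases h' : x ∈ A ∪ B
      · exact h'.elim (fun k => Or.inl (Or.inr k)) fun k => Or.inr (Or.inr (Or.inr k))
      · exact absurd ⟨h, h'⟩ hx
    · exact Or.inr (Or.inl h)
  have nU1 : ∀ x ∈ O ∪ A, x ∉ U := fun x hx h =>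
    hx.elim (fun k => disjoint_left.1 dO k h.1) fun k => h.2 (Or.inl k)
  have nU2 : ∀ x ∈ I ∪ B, x ∉ U := fun x hx h =>
    hx.elim (fun k => disjoint_left.1 dI k h.1) fun k => h.2 (Or.inr k)
  have nU3 : ∀ x ∈ P, x ∉ U := fun x hx h => disjoint_left.1 dP hx h.1
  have d12 : ∀ x ∈ O ∪ A, x ∉ I ∪ B := by
    rintro x (h | h) (h' | h')
    · exact disjoint_left.1 hz.dOI h h'
    · exact disjoint_left.1 dO h (rc_sub h')
    · exact disjoint_left.1 dI h' (rc_sub h)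
    · exact disjoint_left.1 hz.dmc (hz.ha (c1 h)) (c2 h')
  obtain ⟨K, k0, k1, k2⟩ : ∃ K : Cfg, (∀ x ∈ U, K x = κ x) ∧ (∀ x, x ∈ O ∪ A ∨ x ∈ P → K x = H₁ x) ∧
      ∀ x, x ∈ P ∨ x ∈ I ∪ B → K x = H₂ x := by
    refine ⟨fun x => if x ∈ U then κ x else if x ∈ O ∪ A then H₁ x else H₂ x,
      fun x hx => if_pos hx, fun x hx => ?_, fun x hx => ?_⟩
    · beta_reduce
      rw [if_neg (hx.elim (nU1 x) (nU3 x))]
      split_ifs with h
      exacts [rfl, hz.pin _ s2 _ s1 x (hx.resolve_left h)]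
    · beta_reduce
      rw [if_neg (hx.elim (nU3 x) (nU2 x))]
      split_ifs with h
      exacts [hz.pin _ s1 _ s2 x (hx.resolve_right (d12 x h)), rfl]
  have hb : ∀ y ∈ obd U, y ∉ big κ 0 K := by
    rintro y ⟨hy, x, hx, hxy⟩
    rcases cov y hy with h | h | h
    · rw [big_congr (k1 y (Or.inl h))]
      exact ((pO H₁ H₁).1 x hx.1 (fun k => hx.2 (Or.inl k)) y h hxy.symm).2
    · rw [big_congr (k1 y (Or.inr h))]
      exact (hz.wall _ s1 x hx.1 y h hxy.symm).2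
    · rw [big_congr (k2 y (Or.inr h))]
      exact ((pI H₂ H₂).1 x hx.1 (fun k => hx.2 (Or.inr k)) y h hxy.symm).2
  have lU : ∀ x ∈ U, ∀ y, Adj x y → |K x - K y| ≤ 1 := fun x hx y hxy => by
    have e := hz.hkap x hx.1 y hxy
    by_cases hy : y ∈ U
    · rw [k0 x hx, k0 y hy, e]; simp
    · have := hb y ⟨hy, x, hx, hxy.symm⟩
      simp only [big, mem_ofPred_eq] at this
      rw [k0 x hx, abs_le]
      omega
  have hK : Lip K := fun x y hxy => by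
    by_cases hx : x ∈ U
    · exact lU x hx y hxy
    by_cases hy : y ∈ U
    · rw [abs_sub_comm]; exact lU y hy x hxy.symm
    have a1 : x ∈ O ∪ A ∨ x ∈ P → y ∈ O ∪ A ∨ y ∈ P → |K x - K y| ≤ 1 := fun h h' => by
      rw [k1 x h, k1 y h']; exact hz.lip _ s1 x y hxy
    have a2 : x ∈ P ∨ x ∈ I ∪ B → y ∈ P ∨ y ∈ I ∪ B → |K x - K y| ≤ 1 := fun h h' => by
      rw [k2 x h, k2 y h']; exact hz.lip _ s2 x y hxy
    rcases cov x hx with h | h | h <;> rcases cov y hy with h' | h' | h'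
    exacts [a1 (Or.inl h) (Or.inl h'), a1 (Or.inl h) (Or.inr h'), absurd hxy (nAB x h y h'),
      a1 (Or.inr h) (Or.inl h'), a1 (Or.inr h) (Or.inr h'), a2 (Or.inl h) (Or.inr h'),
      absurd hxy.symm (nAB y h' x h), a2 (Or.inr h) (Or.inl h'), a2 (Or.inr h) (Or.inr h')]
  have bij := h3 U D κ K (hz.fin.subset sdiff_subset) hK (fun x hx => hz.hkap x hx.1) hb
  rw [← bij.image_eq, bij.injOn.ncard_image]
  congr 1
  ext H
  simp only [mem_ofPred_eq, lb_iff, ← hA, ← hB]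
  constructor
  · rintro ⟨⟨s, -⟩, ⟨e1, e2⟩, e3, e4⟩
    refine ⟨⟨hz.lip _ s, fun x hx => ?_⟩, fun x hx hxU => ?_⟩
    · rcases cov x hx with h | h | h
      · rw [k1 x (Or.inl h), e2 x h]
      · rw [k1 x (Or.inr h), hz.pin _ s _ s1 x h]
      · rw [k2 x (Or.inr h), e4 x h]
    · rcases hx with hx | ⟨-, y, hy, hxy⟩
      · exact hz.band _ s x hx
      rcases cov y hy with h | h | h
      · exact ((pO H H).1 x hxU.1 (fun k => hxU.2 (Or.inl (e1 ▸ k))) y (e1 ▸ h) hxy).1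
      · exact hz.band _ s x (hz.wall _ s x hxU.1 y h hxy).1
      · exact ((pI H H).1 x hxU.1 (fun k => hxU.2 (Or.inr (e3 ▸ k))) y (e3 ▸ h) hxy).1
  · rintro ⟨⟨l, e⟩, hd⟩
    have e1 : ∀ x, x ∈ O ∪ A ∨ x ∈ P → H x = H₁ x := fun x hx =>
      (e x (hx.elim (nU1 x) (nU3 x))).trans (k1 x hx)
    have e2 : ∀ x ∈ I ∪ B, H x = H₂ x := fun x hx => (e x (nU2 x hx)).trans (k2 x (Or.inr hx))
    have s : H ∈ S := by
      refine hz.splice _ s1 _ s2 H l (fun x hx => e1 x (hx.imp_left Or.inl))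
        (fun x hx => e2 x (Or.inl hx)) fun x hx => ?_
      by_cases h : x ∈ A ∪ B
      · rcases h with h | h
        · rw [big_congr (e1 x (Or.inl (Or.inr h)))]; exact hz.band _ s1 x hx
        · rw [big_congr (e2 x (Or.inr h))]; exact hz.band _ s2 x hx
      · exact hd x (Or.inl hx) ⟨hz.hD hx, h⟩
    have rA : rc κ O Z H = A := by
      refine ((pO H₁ H).2 fun x hx => e1 x (Or.inl (hx.imp_left And.right))).2 ?_
      rintro x hx hx' ⟨y, hy, hxy⟩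
      have hxU : x ∈ U := ⟨hx, fun k => k.elim hx' fun k => nAB y hy x (Or.inr k) hxy.symm⟩
      exact hd x (Or.inr ⟨hxU, y, nU1 y hy, hxy⟩) hxU
    have rB : rc κ I Z H = B := by
      refine ((pI H₂ H).2 fun x hx => e2 x (hx.imp_left And.right)).2 ?_
      rintro x hx hx' ⟨y, hy, hxy⟩
      have hxU : x ∈ U := ⟨hx, fun k => k.elim (fun k => nAB x (Or.inr k) y hy hxy) hx'⟩
      exact hd x (Or.inr ⟨hxU, y, nU2 y hy, hxy⟩) hxU
    exact ⟨⟨s, (show rc κ O Z H ⊆ Za from rA ▸ c1), (show rc κ I Z H ⊆ Zc from rB ▸ c2)⟩,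
      ⟨rA, fun x hx => e1 x (Or.inl hx)⟩, rB, e2⟩

end ZoneLA

open ZoneLA in
theorem zoneL (h1 : Cross) (h2 : ReachL) (h3 : LocB) : ZoneL := by
  classical
  intro S O I Z P D Za Zc Zm κ r c hz hc hG
  obtain ⟨u, v, huv⟩ := h1 Z D Za Zc Zm r c hz.fin hz.ha hz.hm hz.hc hz.dmc hz.far hc hG
  have dO : Disjoint O Z := (hz.dZ.mono_right fun x hx => Or.inl (Or.inl hx)).symm
  have dI : Disjoint I Z := (hz.dZ.mono_right fun x hx => Or.inl (Or.inr hx)).symm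
  have hf := hz.good.1
  obtain ⟨φ, γ, key⟩ := abs_fact (hf.toFinset.filter (Cnf O I Z Za Zc κ)) (lb κ O Z) (lb κ I Z)
    (fun a b => (freeD (Z \ (a.1 ∪ b.1)) D).ncard) fun H₁ s1 H₂ s2 => by
      simp only [Finset.mem_filter, Finite.mem_toFinset] at s1 s2 ⊢
      obtain ⟨p1, p2, -⟩ := huv _ s1.2.1 _ s2.2.2
      exact ⟨congrArg Nat.cast (fibre h2 h3 hz s1.1 s2.1 s1.2.1 s2.2.2), (p1.trans_le p2).ne'⟩
  refine ⟨fun H => if rc κ O Z H ⊆ Za ∧ rc κ I Z H ⊆ Zc then u (rc κ O Z H) * v (rc κ I Z H) /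
    (freeD (Z \ (rc κ O Z H ∪ rc κ I Z H)) D).ncard else 0, fun H _ => ?_, fun H _ h => ?_,
    fun H _ H' _ h => ?_, fun F G hF hG => ?_⟩
  · dsimp only
    split_ifs with h
    · obtain ⟨p1, p2, -⟩ := huv _ h.1 _ h.2
      exact ⟨div_nonneg p1.le (Nat.cast_nonneg _), div_le_one_of_le₀ p2 (Nat.cast_nonneg _)⟩
    · exact ⟨le_rfl, zero_le_one⟩
  · obtain ⟨p1, p2, p3⟩ := huv _ h.1 _ h.2
    exact ((le_div_iff₀ (p1.trans_le p2)).2 p3).trans_eq (if_pos h).symm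
  · simp only [rc_dep h2 dO h, rc_dep h2 dI h]
  have E : ∀ F G : Cfg → ℝ, DepS S (O ∪ P) F → DepS S (I ∪ P) G →
      Ex S (fun H => F H * G H * if rc κ O Z H ⊆ Za ∧ rc κ I Z H ⊆ Zc then
        u (rc κ O Z H) * v (rc κ I Z H) / (freeD (Z \ (rc κ O Z H ∪ rc κ I Z H)) D).ncard
        else 0) = φ (fun H => F H * u (rc κ O Z H)) * γ (fun H => G H * v (rc κ I Z H)) /
          S.ncard := by
    intro F G hF hG
    rw [Ex_eq hf, ← key, Finset.sum_filter]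
    · congr 1
      refine Finset.sum_congr rfl fun H _ => ?_
      by_cases h : Cnf O I Z Za Zc κ H
      · rw [if_pos h, if_pos (show rc κ O Z H ⊆ Za ∧ rc κ I Z H ⊆ Zc from h)]
        simp only [lb]
        ring
      · rw [if_neg h, if_neg (show ¬ (rc κ O Z H ⊆ Za ∧ rc κ I Z H ⊆ Zc) from h), mul_zero]
    · intro H s H' s' e
      simp only [Finset.mem_filter, Finite.mem_toFinset] at s s'
      obtain ⟨e1, e2⟩ := lb_iff.1 e
      rw [e1, hF H s.1 H' s'.1 fun x hx =>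
        hx.elim (fun k => e2 x (Or.inl k)) (hz.pin _ s.1 _ s'.1 x)]
    · intro H s H' s' e
      simp only [Finset.mem_filter, Finite.mem_toFinset] at s s'
      obtain ⟨e1, e2⟩ := lb_iff.1 e
      rw [e1, hG H s.1 H' s'.1 fun x hx =>
        hx.elim (fun k => e2 x (Or.inl k)) (hz.pin _ s.1 _ s'.1 x)]
  have e1 := E F G hF hG
  have e2 := E (fun _ => 1) (fun _ => 1) (fun _ _ _ _ _ => rfl) fun _ _ _ _ _ => rfl
  have e3 := E F (fun _ => 1) hF fun _ _ _ _ _ => rfl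
  have e4 := E (fun _ => 1) G (fun _ _ _ _ _ => rfl) hG
  simp only [one_mul, mul_one] at e2 e3 e4
  rw [e1, e2, e3, e4]
  ring

end Vale.Agent.P153.Seal
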